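import Vale.Agent.H15.GenK.Final
import Vale.Agent.H76.Space

/-!
# General convex bodies (P243): every cylinder covering of every convex body, in Euclidean 3-space

If a compact convex set `K` of Euclidean 3-space with `ball c ρ ⊆ K ⊆ closedBall c R` is covered by
finitely many cylinders `B i + ℝ u i` (any number, any directions, arbitrary bases
`B i ⊆ (u i)^⊥`), then the relative base areas sum to at least
`1/3 + (ρ/R)^15 / (18 * 9720000000²)`.
-/

open MeasureTheory Set Module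
open scoped ENNReal

namespace Vale.Agent.H15.GenK

theorem genK_all_cylinders (m : ℕ) (K : Set (EuclideanSpace ℝ (Fin 3))) (hK : IsCompact K)
    (hKc : Convex ℝ K) (c : EuclideanSpace ℝ (Fin 3)) (ρ R : ℝ) (hρ : 0 < ρ)
    (hin : Metric.ball c ρ ⊆ K) (hout : K ⊆ Metric.closedBall c R)
    (u : Fin m → EuclideanSpace ℝ (Fin 3)) (hu : ∀ i, ‖u i‖ = 1)
    (B : Fin m → Set (EuclideanSpace ℝ (Fin 3)))
    (hB : ∀ i, ∀ x ∈ B i, inner ℝ x (u i) = 0)
    (hcov : K ⊆ ⋃ i, {x | ∃ b ∈ B i, ∃ t : ℝ, x = b + t • u i}) :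
    ENNReal.ofReal (1 / 3 + (ρ / R) ^ 15 / (18 * 9720000000 ^ 2)) ≤ ∑ i, μHE[2] (B i) /
      μHE[2] ((fun x => x - inner ℝ x (u i) • u i) '' K) := by
  classical
  have hE : finrank ℝ (EuclideanSpace ℝ (Fin 3)) = 3 := by simp
  have hB'm : ∀ i, MeasurableSet
      (toMeasurable volume (Subtype.val ⁻¹' B i : Set ↥(Submodule.span ℝ {u i})ᗮ)) :=
    fun i => measurableSet_toMeasurable _ _
  have hB'v : ∀ i, volume
      (toMeasurable volume (Subtype.val ⁻¹' B i : Set ↥(Submodule.span ℝ {u i})ᗮ)) =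
      μHE[2] (B i) := by
    intro i
    rw [measure_toMeasurable, Vale.Agent.H76.hausdorff_base hE (u i) (hu i) (B i) (hB i)]
  have hS : ∀ i, μHE[2] ((fun x => x - inner ℝ x (u i) • u i) '' K) =
      volume ((Submodule.span ℝ {u i})ᗮ.orthogonalProjectionOnto '' K) :=
    fun i => Vale.Agent.H76.hausdorff_shadow hE (u i) (hu i) K
  have hcov' : K ⊆ ⋃ i, (Submodule.span ℝ {u i})ᗮ.orthogonalProjectionOnto ⁻¹'
      (toMeasurable volume (Subtype.val ⁻¹' B i : Set ↥(Submodule.span ℝ {u i})ᗮ)) := by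
    intro x hx
    obtain ⟨i, hi⟩ := mem_iUnion.1 (hcov hx)
    exact mem_iUnion.2 ⟨i, subset_toMeasurable _ _
      (Vale.Agent.H76.proj_mem_of_cyl (u i) (hu i) (B i) (hB i) x hi)⟩
  have h := genK_space hE m hK hKc c hρ hin hout u hu
    (fun i => toMeasurable volume (Subtype.val ⁻¹' B i : Set ↥(Submodule.span ℝ {u i})ᗮ))
    hB'm hcov'
  refine h.trans (le_of_eq ?_)
  refine Finset.sum_congr rfl fun i _ => ?_
  rw [hB'v i, hS i]

end Vale.Agent.H15.GenK
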