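import Vale.Agent.H76.Lev

/-!
# General convex bodies (P243), row G7: a bad point on a ray improves the level sets

`T ⊆ X × ℝ` convex, `Lev T r` its chord level sets.  `p ∈ Lev T L` (apex chord), `yE` a base
point, and the point `x = p + θ (yE - p)`, `θ ∈ [0, 1]`, carries a chord of length
`≥ L (1 - θ) + m` (it is `m` longer than the cone over the apex chord predicts).  Then for every
`κ ∈ [0, 1]` the point `y = p + κ (yE - p)` satisfies
`p + (1 - h/(L+m)) (y - p) ∈ Lev T h` for `0 < h ≤ (L+m)/2` and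
`p + ((L-h)/(L-m)) (y - p) ∈ Lev T h` for ` (L+m)/2 ≤ h ≤ L`.

LEAN ROW G7 (`bad_ray`).  Sketch: `Lev_combo hTc` (`a • Lev T r + b • Lev T r' ⊆ Lev T (a r + b r')`
for `a + b = 1`, `a, b ≥ 0`), `Lev_anti`, `Lev_convex`, `Lev_of_nonpos` (`yE ∈ Lev T 0`).
First `κ = 1`: put `lam := 1 - h/(L+m)` (first range, `1/2 ≤ lam < 1`) or `lam := (L-h)/(L-m)`
(second range, `0 ≤ lam ≤ 1/2`); the target point is `p + lam (yE - p)`.
 If `lam ≤ θ` (so `θ > 0` or `lam = 0`): it is ` (1 - μ) p + μ x` with `μ = lam / θ`, in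
 `Lev T ((1-μ) L + μ (L (1-θ) + m)) = Lev T (L (1 - lam) + m lam / θ)`, and
 `L (1 - lam) + m lam / θ ≥ L (1 - lam) + m lam ≥ h` in both ranges.
 If `θ ≤ lam` (`θ < 1`): it is ` (1 - μ) x + μ yE` with `μ = (lam - θ)/(1 - θ)`, in
 `Lev T ((1-μ)(L (1-θ) + m)) = Lev T ((1 - lam) L + m (1 - lam)/(1 - θ))`, and
 ` (1 - lam) L + m (1 - lam)/(1 - θ) ≥ (1 - lam)(L + m) ≥ h` in both ranges.
General `κ`: `p + lam (κ (yE - p)) = (1 - κ) p + κ (p + lam (yE - p))`, `p ∈ Lev T L ⊆ Lev T h`,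
and `Lev T h` is convex.
-/

open Set

namespace Vale.Agent.H15.GenK

open Vale.Agent.H76 in
theorem badray_core {X : Type*} [NormedAddCommGroup X] [NormedSpace ℝ X] {T : Set (X × ℝ)}
    (hTc : Convex ℝ T) (p yE : X) {L m θ : ℝ} (hm : 0 < m)
    (hp : p ∈ Lev T L) (hyE : yE ∈ Prod.fst '' T) (hθ0 : 0 ≤ θ) (hθ1 : θ ≤ 1)
    (hbad : p + θ • (yE - p) ∈ Lev T (L * (1 - θ) + m)) (lam : ℝ) (h0 : 0 ≤ lam) (h1 : lam ≤ 1)
    (r : ℝ) (hr1 : r ≤ L * (1 - lam) + m * lam) (hr2 : r ≤ (1 - lam) * (L + m)) :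
    p + lam • (yE - p) ∈ Lev T r := by
  rcases le_total lam θ with hle | hle
  · rcases eq_or_lt_of_le hθ0 with hθ | hθpos
    · have hlam : lam = 0 := le_antisymm (by rw [hθ]; exact hle) h0
      rw [hlam, zero_smul, add_zero]
      refine Lev_anti T ?_ hp
      rw [hlam] at hr1
      linarith
    · set μ := lam / θ with hμ
      have hμθ : μ * θ = lam := div_mul_cancel₀ _ hθpos.ne'
      have hμ0 : 0 ≤ μ := div_nonneg h0 hθpos.le
      have hμ1 : μ ≤ 1 := (div_le_one hθpos).mpr hle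
      have hmem := Lev_combo hTc (sub_nonneg.mpr hμ1) hμ0 (by ring : (1 - μ) + μ = 1) L
        (L * (1 - θ) + m) (Set.add_mem_add (Set.smul_mem_smul_set hp) (Set.smul_mem_smul_set hbad))
      have e : (1 - μ) • p + μ • (p + θ • (yE - p)) = p + lam • (yE - p) := by
        rw [← hμθ]
        module
      rw [e] at hmem
      refine Lev_anti T ?_ hmem
      have hlamμ : lam ≤ μ := by
        have := mul_le_mul_of_nonneg_left hθ1 hμ0
        linarith
      have e2 : (1 - μ) * L + μ * (L * (1 - θ) + m) = L - lam * L + μ * m := by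
        rw [← hμθ]
        ring
      rw [e2]
      have := mul_le_mul_of_nonneg_left hlamμ hm.le
      linarith
  · rcases eq_or_lt_of_le hθ1 with hθ | hθlt
    · have hlam : lam = 1 := le_antisymm h1 (by rw [← hθ]; exact hle)
      rw [hlam, one_smul, add_sub_cancel]
      have hy0 : yE ∈ Lev T 0 := by
        rw [Lev_of_nonpos T le_rfl]
        exact hyE
      refine Lev_anti T ?_ hy0
      rw [hlam] at hr2
      linarith
    · set μ := (lam - θ) / (1 - θ) with hμ
      have h1θ : 0 < 1 - θ := by linarith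
      have hμθ : μ * (1 - θ) = lam - θ := div_mul_cancel₀ _ h1θ.ne'
      have hμ0 : 0 ≤ μ := div_nonneg (by linarith) h1θ.le
      have hμ1 : μ ≤ 1 := (div_le_one h1θ).mpr (by linarith)
      have hy0 : yE ∈ Lev T 0 := by
        rw [Lev_of_nonpos T le_rfl]
        exact hyE
      have hmem := Lev_combo hTc (sub_nonneg.mpr hμ1) hμ0 (by ring : (1 - μ) + μ = 1)
        (L * (1 - θ) + m) 0
        (Set.add_mem_add (Set.smul_mem_smul_set hbad) (Set.smul_mem_smul_set hy0))
      have hlam : lam = θ + μ * (1 - θ) := by linarith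
      have e : (1 - μ) • (p + θ • (yE - p)) + μ • yE = p + lam • (yE - p) := by
        rw [hlam]
        module
      rw [e] at hmem
      refine Lev_anti T ?_ hmem
      have hμlam : μ ≤ lam := by
        have := mul_nonneg hθ0 (sub_nonneg.mpr hμ1)
        nlinarith
      have e2 : (1 - μ) * (L * (1 - θ) + m) + μ * 0 = (1 - lam) * L + (1 - μ) * m := by
        linear_combination (-L) * hμθ
      rw [e2]
      have := mul_le_mul_of_nonneg_left hμlam hm.le
      linarith

open Vale.Agent.H76 in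
theorem bad_ray {X : Type*} [NormedAddCommGroup X] [NormedSpace ℝ X] {T : Set (X × ℝ)}
    (hTc : Convex ℝ T) (p yE : X) {L m θ : ℝ} (hL : 0 < L) (hm : 0 < m) (hmL : m < L)
    (hp : p ∈ Lev T L) (hyE : yE ∈ Prod.fst '' T) (hθ0 : 0 ≤ θ) (hθ1 : θ ≤ 1)
    (hbad : p + θ • (yE - p) ∈ Lev T (L * (1 - θ) + m)) (κ : ℝ) (hκ0 : 0 ≤ κ) (hκ1 : κ ≤ 1) :
    (∀ h : ℝ, 0 < h → h ≤ (L + m) / 2 →
        p + (1 - h / (L + m)) • (κ • (yE - p)) ∈ Lev T h) ∧
      (∀ h : ℝ, (L + m) / 2 ≤ h → h ≤ L →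
        p + ((L - h) / (L - m)) • (κ • (yE - p)) ∈ Lev T h) := by
  have hLm : 0 < L + m := by linarith
  have hLm' : 0 < L - m := by linarith
  have hconv : ∀ h : ℝ, h ≤ L → ∀ lam : ℝ, p + lam • (yE - p) ∈ Lev T h →
      p + lam • (κ • (yE - p)) ∈ Lev T h := by
    intro h hh lam hq
    have hph : p ∈ Lev T h := Lev_anti T hh hp
    have h3 := Lev_convex hTc h hph hq (sub_nonneg.mpr hκ1) hκ0 (by ring : (1 - κ) + κ = 1)
    have e : (1 - κ) • p + κ • (p + lam • (yE - p)) = p + lam • (κ • (yE - p)) := by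
      module
    rw [e] at h3
    exact h3
  constructor
  · intro h hh0 hh1
    apply hconv h (by linarith)
    set d := h / (L + m) with hd
    have hdm : d * (L + m) = h := div_mul_cancel₀ _ hLm.ne'
    have hd0 : 0 ≤ d := div_nonneg hh0.le hLm.le
    have hd2 : d ≤ 1 / 2 := by
      rw [hd, div_le_iff₀ hLm]
      linarith
    apply badray_core hTc p yE hm hp hyE hθ0 hθ1 hbad _ (by linarith) (by linarith)
    · have := mul_le_mul_of_nonneg_left hd2 hm.le
      nlinarith
    · have e : (1 - (1 - d)) * (L + m) = h := by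
        rw [← hdm]
        ring
      rw [e]
  · intro h hh0 hh1
    apply hconv h hh1
    set d := (L - h) / (L - m) with hd
    have hdm : d * (L - m) = L - h := div_mul_cancel₀ _ hLm'.ne'
    have hd0 : 0 ≤ d := div_nonneg (by linarith) hLm'.le
    have hd2 : d ≤ 1 / 2 := by
      rw [hd, div_le_iff₀ hLm']
      linarith
    apply badray_core hTc p yE hm hp hyE hθ0 hθ1 hbad _ hd0 (by linarith)
    · nlinarith
    · have := mul_le_mul_of_nonneg_left hd2 hm.le
      nlinarith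

end Vale.Agent.H15.GenK
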