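import Mathlib

/-!
# General convex bodies (P243), row G4: a crude bound for the volume of a ball

In a 3-dimensional Euclidean space a closed ball of radius `r` has volume at most `5 r³`
(the exact value is ` (4 π / 3) r³ < 4.2 r³`).

LEAN ROW G4 (`volume_closedBall_le`).  Sketch: `InnerProductSpace.volume_closedBall` gives
`ofReal r ^ 3 * ofReal (√π ^ 3 / Gamma (3 / 2 + 1))`; `Gamma (5/2) = (3/2) (1/2) √π`
(`Real.Gamma_add_one`, `Real.Gamma_one_half_eq`), so the constant is `4 π / 3 ≤ 5`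
(`Real.pi_lt_d2 : π < 3.15`).  `Nontrivial E` follows from `finrank = 3`.
-/

open MeasureTheory Set Module
open scoped ENNReal

namespace Vale.Agent.H15.GenK

variable {E : Type*} [NormedAddCommGroup E] [InnerProductSpace ℝ E] [FiniteDimensional ℝ E]
  [MeasurableSpace E] [BorelSpace E]

theorem volume_closedBall_le (hE : finrank ℝ E = 3) (x : E) {r : ℝ} (hr : 0 ≤ r) :
    volume (Metric.closedBall x r) ≤ ENNReal.ofReal (5 * r ^ 3) := by
  have : Nontrivial E := Module.nontrivial_of_finrank_pos (R := ℝ) (by omega)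
  rw [InnerProductSpace.volume_closedBall, hE]
  have hG : Real.Gamma (((3 : ℕ) : ℝ) / 2 + 1) = 3 / 4 * √Real.pi := by
    have h1 : ((3 : ℕ) : ℝ) / 2 + 1 = (1 / 2 + 1) + 1 := by norm_num
    rw [h1, Real.Gamma_add_one (by norm_num), Real.Gamma_add_one (by norm_num),
      Real.Gamma_one_half_eq]
    ring
  have hs : 0 < √Real.pi := Real.sqrt_pos.2 Real.pi_pos
  have h2 : √Real.pi ^ 2 = Real.pi := Real.sq_sqrt Real.pi_pos.le
  have hpi : √Real.pi ^ 3 / (3 / 4 * √Real.pi) = 4 * Real.pi / 3 := by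
    rw [div_eq_iff (by positivity)]
    have h3 : √Real.pi ^ 3 = √Real.pi ^ 2 * √Real.pi := by ring
    rw [h3, h2]
    ring
  rw [hG, hpi, ← ENNReal.ofReal_pow hr, ← ENNReal.ofReal_mul (by positivity)]
  apply ENNReal.ofReal_le_ofReal
  have hlt := Real.pi_lt_d2
  have hr3 : 0 ≤ r ^ 3 := by positivity
  nlinarith

end Vale.Agent.H15.GenK
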