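import Mathlib

/-!
# General convex bodies (P243), row G2: volume of a skew box

For unit vectors `ξ₁, ξ₂, μ` of a 3-dimensional Euclidean space with `μ ⊥ ξ₁, ξ₂` and
`s ^ 2 ≤ 1 - ⟪ξ₁, ξ₂⟫ ^ 2`, `0 ≤ s`, the box
`{a ξ₁ + b ξ₂ + g μ | a, b ∈ [0, h], g ∈ [0, d]}` is compact and has volume at least `s h² d`.

LEAN ROW G2 (`skewBox_isCompact`, `skewBox_volume`).  Sketch: the box is the image of the compact
set `Icc 0 h ×ˢ Icc 0 h ×ˢ Icc 0 d ⊆ ℝ × ℝ × ℝ` under a continuous map, hence compact.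
Volume: if `s = 0` or `h = 0` or `d = 0` the bound is `0`.  Otherwise the box is
`parallelepiped ![h • ξ₁, h • ξ₂, d • μ]`
(`parallelepiped v = {∑ t i • v i | t i ∈ [0, 1]}`, `mem_parallelepiped_iff`), and for an
orthonormal basis `bo : OrthonormalBasis (Fin 3) ℝ E` (e.g. ` (stdOrthonormalBasis ℝ E).reindex
(finCongr hE)`) `volume = bo.toBasis.addHaar` (`OrthonormalBasis.addHaar_eq_volume`) and
`bo.toBasis.addHaar (parallelepiped v) = ofReal |bo.toBasis.det v|`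
(`MeasureTheory.Measure.addHaar_parallelepiped`).  With `M i j := ⟪bo i, v j⟫`
(`= bo.toBasis.toMatrix v`): ` (Mᵀ * M) j k = ⟪v j, v k⟫` (`OrthonormalBasis.sum_inner_mul_inner`),
so ` (det M)² = det (Gram v) = h⁴ d² (1 - ⟪ξ₁, ξ₂⟫²) ≥ (s h² d)²`
(`Matrix.det_fin_three`), hence `|det M| ≥ s h² d`.
An alternative without matrices: Gram-Schmidt `ζ := (ξ₂ - c ξ₁)/√(1 - c²)`, `c = ⟪ξ₁, ξ₂⟫`,
and Fubini in the orthonormal frame ` (ξ₁, ζ, μ)`.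
-/

open MeasureTheory Set Module
open scoped ENNReal

namespace Vale.Agent.H15.GenK

variable {E : Type*} [NormedAddCommGroup E] [InnerProductSpace ℝ E] [FiniteDimensional ℝ E]
  [MeasurableSpace E] [BorelSpace E]

/-- The skew box spanned by `h ξ₁, h ξ₂, d μ`. -/
def skewBox (ξ₁ ξ₂ μ : E) (h d : ℝ) : Set E :=
  {x | ∃ a b g : ℝ, 0 ≤ a ∧ a ≤ h ∧ 0 ≤ b ∧ b ≤ h ∧ 0 ≤ g ∧ g ≤ d ∧ x = a • ξ₁ + b • ξ₂ + g • μ}

theorem skewBox_isCompact (ξ₁ ξ₂ μ : E) (h d : ℝ) : IsCompact (skewBox ξ₁ ξ₂ μ h d) := by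
  have hc : IsCompact ((fun p : ℝ × ℝ × ℝ => p.1 • ξ₁ + p.2.1 • ξ₂ + p.2.2 • μ) ''
      (Icc 0 h ×ˢ Icc 0 h ×ˢ Icc 0 d)) := by
    apply IsCompact.image
    · exact isCompact_Icc.prod (isCompact_Icc.prod isCompact_Icc)
    · fun_prop
  convert hc using 1
  ext x
  simp only [skewBox, Set.mem_ofPred_eq, mem_image, mem_prod, mem_Icc, Prod.exists]
  constructor
  · rintro ⟨a, b, g, ha0, ha1, hb0, hb1, hg0, hg1, rfl⟩
    exact ⟨a, b, g, ⟨⟨ha0, ha1⟩, ⟨hb0, hb1⟩, ⟨hg0, hg1⟩⟩, rfl⟩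
  · rintro ⟨a, b, g, ⟨⟨ha0, ha1⟩, ⟨hb0, hb1⟩, ⟨hg0, hg1⟩⟩, rfl⟩
    exact ⟨a, b, g, ha0, ha1, hb0, hb1, hg0, hg1, rfl⟩

/-- The square of the determinant of a frame is the determinant of its Gram matrix. -/
theorem boxvol_det_sq (bo : OrthonormalBasis (Fin 3) ℝ E) {ξ₁ ξ₂ μ : E} (h1 : ‖ξ₁‖ = 1)
    (h2 : ‖ξ₂‖ = 1) (hμ : ‖μ‖ = 1) (hμ1 : inner ℝ μ ξ₁ = 0) (hμ2 : inner ℝ μ ξ₂ = 0) :
    (bo.toBasis.det ![ξ₁, ξ₂, μ]) ^ 2 = 1 - (inner ℝ ξ₁ ξ₂) ^ 2 := by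
  obtain ⟨w, hw⟩ : ∃ w : Fin 3 → E, w = ![ξ₁, ξ₂, μ] := ⟨_, rfl⟩
  rw [← hw]
  have hMM : (bo.toBasis.toMatrix w).transpose * bo.toBasis.toMatrix w =
      Matrix.of (fun j k => inner ℝ (w j) (w k)) := by
    ext j k
    simp only [Matrix.mul_apply, Matrix.transpose_apply, Matrix.of_apply, Basis.toMatrix_apply,
      OrthonormalBasis.coe_toBasis_repr_apply, OrthonormalBasis.repr_apply_apply]
    rw [← OrthonormalBasis.sum_inner_mul_inner bo (w j) (w k)]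
    refine Finset.sum_congr rfl (fun i _ => ?_)
    rw [real_inner_comm]
  have hdet : (bo.toBasis.toMatrix w).det ^ 2 =
      (Matrix.of (fun j k => inner ℝ (w j) (w k))).det := by
    rw [← hMM, Matrix.det_mul, Matrix.det_transpose]
    ring
  have e11 : inner ℝ ξ₁ ξ₁ = (1 : ℝ) := by
    rw [real_inner_self_eq_norm_sq, h1]
    norm_num
  have e22 : inner ℝ ξ₂ ξ₂ = (1 : ℝ) := by
    rw [real_inner_self_eq_norm_sq, h2]
    norm_num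
  have e33 : inner ℝ μ μ = (1 : ℝ) := by
    rw [real_inner_self_eq_norm_sq, hμ]
    norm_num
  have e13 : inner ℝ ξ₁ μ = (0 : ℝ) := by
    rw [real_inner_comm]
    exact hμ1
  have e23 : inner ℝ ξ₂ μ = (0 : ℝ) := by
    rw [real_inner_comm]
    exact hμ2
  have e21 : inner ℝ ξ₂ ξ₁ = inner ℝ ξ₁ ξ₂ := real_inner_comm _ _
  rw [Basis.det_apply, hdet, Matrix.det_fin_three]
  simp only [Matrix.of_apply, hw, Matrix.cons_val_zero, Matrix.cons_val_one, Matrix.cons_val_two,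
    Matrix.head_cons, Matrix.tail_cons]
  rw [e11, e22, e33, e13, e23, e21, hμ1, hμ2]
  ring

theorem skewBox_volume (hE : finrank ℝ E = 3) {ξ₁ ξ₂ μ : E} (h1 : ‖ξ₁‖ = 1) (h2 : ‖ξ₂‖ = 1)
    (hμ : ‖μ‖ = 1) (hμ1 : inner ℝ μ ξ₁ = 0) (hμ2 : inner ℝ μ ξ₂ = 0) {s h d : ℝ} (hs : 0 ≤ s)
    (hh : 0 ≤ h) (hd : 0 ≤ d) (hsharp : s ^ 2 ≤ 1 - (inner ℝ ξ₁ ξ₂) ^ 2) :
    ENNReal.ofReal (s * h ^ 2 * d) ≤ volume (skewBox ξ₁ ξ₂ μ h d) := by
  let bo : OrthonormalBasis (Fin 3) ℝ E := (stdOrthonormalBasis ℝ E).reindex (finCongr hE)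
  have hsub : parallelepiped ![h • ξ₁, h • ξ₂, d • μ] ⊆ skewBox ξ₁ ξ₂ μ h d := by
    intro x hx
    rw [mem_parallelepiped_iff] at hx
    obtain ⟨t, ht, rfl⟩ := hx
    have ht0 := ht.1
    have ht1 := ht.2
    refine ⟨t 0 * h, t 1 * h, t 2 * d, mul_nonneg (ht0 0) hh, ?_, mul_nonneg (ht0 1) hh, ?_,
      mul_nonneg (ht0 2) hd, ?_, ?_⟩
    · exact mul_le_of_le_one_left hh (ht1 0)
    · exact mul_le_of_le_one_left hh (ht1 1)
    · exact mul_le_of_le_one_left hd (ht1 2)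
    · simp [Fin.sum_univ_three, smul_smul]
  have hvol : volume (parallelepiped ![h • ξ₁, h • ξ₂, d • μ]) =
      ENNReal.ofReal |bo.toBasis.det ![h • ξ₁, h • ξ₂, d • μ]| := by
    rw [← OrthonormalBasis.addHaar_eq_volume bo, MeasureTheory.Measure.addHaar_parallelepiped]
  have hdet : bo.toBasis.det ![h • ξ₁, h • ξ₂, d • μ] =
      h * h * d * bo.toBasis.det ![ξ₁, ξ₂, μ] := by
    have e : (![h • ξ₁, h • ξ₂, d • μ] : Fin 3 → E) =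
        fun i => (![h, h, d] : Fin 3 → ℝ) i • (![ξ₁, ξ₂, μ] : Fin 3 → E) i := by
      funext i
      fin_cases i <;> simp
    rw [e, AlternatingMap.map_smul_univ, Fin.prod_univ_three]
    simp
  have hsq := boxvol_det_sq bo h1 h2 hμ hμ1 hμ2
  have habs : s ≤ |bo.toBasis.det ![ξ₁, ξ₂, μ]| := by
    by_contra hlt
    rw [not_le] at hlt
    have h0 := abs_nonneg (bo.toBasis.det ![ξ₁, ξ₂, μ])
    have h3 := sq_abs (bo.toBasis.det ![ξ₁, ξ₂, μ])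
    nlinarith
  calc ENNReal.ofReal (s * h ^ 2 * d)
      ≤ ENNReal.ofReal |bo.toBasis.det ![h • ξ₁, h • ξ₂, d • μ]| := by
        apply ENNReal.ofReal_le_ofReal
        rw [hdet, abs_mul, abs_of_nonneg (mul_nonneg (mul_nonneg hh hh) hd)]
        have hhd : 0 ≤ h * h * d := mul_nonneg (mul_nonneg hh hh) hd
        nlinarith [mul_le_mul_of_nonneg_left habs hhd]
    _ = volume (parallelepiped ![h • ξ₁, h • ξ₂, d • μ]) := hvol.symm
    _ ≤ volume (skewBox ξ₁ ξ₂ μ h d) := measure_mono hsub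

end Vale.Agent.H15.GenK
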