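import Vale.Agent.H5.P243.UCone
import Vale.Agent.H5.P243.UFubini
import Vale.Agent.H5.P243.UShadowPos

/-!
# General convex bodies (P243): sharp boundary points

A point `e` of `K` is ` (η, s)`-sharp if it lies in two caps of `K` of height `η` whose unit outer
normals `ξ₁, ξ₂` are not parallel, quantitatively `s ^ 2 ≤ 1 - ⟪ξ₁, ξ₂⟫ ^ 2`.
-/

open Set

namespace Vale.Agent.H15.GenK

variable {E : Type*} [NormedAddCommGroup E] [InnerProductSpace ℝ E]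

/-- `e ∈ K` lies in two caps of `K` of height `η` with unit normals `ξ₁, ξ₂`,
`s ^ 2 ≤ 1 - ⟪ξ₁, ξ₂⟫ ^ 2`. -/
def Sharp (K : Set E) (η s : ℝ) (e : E) : Prop :=
  e ∈ K ∧ ∃ ξ₁ ξ₂ : E, ‖ξ₁‖ = 1 ∧ ‖ξ₂‖ = 1 ∧ s ^ 2 ≤ 1 - (inner ℝ ξ₁ ξ₂) ^ 2 ∧
    (∀ y ∈ K, inner ℝ ξ₁ (y - e) ≤ η) ∧ (∀ y ∈ K, inner ℝ ξ₂ (y - e) ≤ η)

theorem Sharp.mem {K : Set E} {η s : ℝ} {e : E} (h : Sharp K η s e) : e ∈ K := h.1

theorem Sharp.mono {K : Set E} {η η' s s' : ℝ} {e : E} (h : Sharp K η s e) (hη : η ≤ η')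
    (hs0 : 0 ≤ s') (hs : s' ≤ s) : Sharp K η' s' e := by
  obtain ⟨he, ξ₁, ξ₂, h1, h2, h3, h4, h5⟩ := h
  refine ⟨he, ξ₁, ξ₂, h1, h2, ?_, fun y hy => (h4 y hy).trans hη, fun y hy => (h5 y hy).trans hη⟩
  have : s' ^ 2 ≤ s ^ 2 := by nlinarith
  linarith

end Vale.Agent.H15.GenK
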