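import Vale.Agent.H15.GenK.Separated
import Vale.Agent.H15.GenK.BallVol

/-!
# General convex bodies (P243), row G5: a small neighbourhood of the sharp points

If `closedBall c ρ ⊆ K` and `2 η ≤ ρ`, there is a compact `N ⊆ K` with
`vol N ≤ (135000 η / (s ρ)) vol K` containing every point of `K` within `d₀ := √(2 ρ η)` of an
` (η, s)`-sharp point.

LEAN ROW G5 (`exists_N`), from the stubs `separated_card` (Separated) and `volume_closedBall_le`
(BallVol).  Sketch: `d₀ := √(2 ρ η)`, `0 < d₀ ≤ ρ`, `d₀² = 2 ρ η`.  Call a finset `F` of sharp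
points separated if distinct points have distance `> 4 d₀`.  By `separated_card` the cardinalities
of separated finsets are bounded (`volume K < ⊤`, the constant `ofReal (s ρ² d₀ / 4)` is positive),
so there is a separated `F` of maximal cardinality (`∅` is separated).  Maximality: every sharp
`e` has `dist e e' ≤ 4 d₀` for some `e' ∈ F` (else `insert e F` is a larger separated finset).
`N := K ∩ ⋃ e ∈ F, closedBall e (5 d₀)` is compact, `N ⊆ K`, and for sharp `e` and `x ∈ K` with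
`dist x e ≤ d₀`: `dist x e' ≤ 5 d₀`, so `x ∈ N`.  Volume:
`volume N ≤ F.card * ofReal (5 (5 d₀)³) = F.card * ofReal (625 d₀³)` and
`F.card * ofReal (s ρ² d₀ / 4) ≤ 27 volume K`, hence
`volume N ≤ ofReal (625 d₀³ * 27 * 4 / (s ρ² d₀)) * volume K = ofReal (67500 d₀² / (s ρ²)) * volume K`
and `67500 d₀² / (s ρ²) = 135000 η / (s ρ)`.
-/

open MeasureTheory Set Module
open scoped ENNReal

namespace Vale.Agent.H15.GenK

variable {E : Type*} [NormedAddCommGroup E] [InnerProductSpace ℝ E] [FiniteDimensional ℝ E]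
  [MeasurableSpace E] [BorelSpace E]

/-- the final arithmetic in extended nonnegative reals -/
theorem existsn_arith {ρ η s d : ℝ} (hρ : 0 < ρ) (hs : 0 < s) (hd0 : 0 < d)
    (hdsq : d ^ 2 = 2 * ρ * η) (n V : ℝ≥0∞)
    (h : n * ENNReal.ofReal (s * ρ ^ 2 * d / 4) ≤ 27 * V) :
    n * ENNReal.ofReal (5 * (5 * d) ^ 3) ≤ ENNReal.ofReal (135000 * η / (s * ρ)) * V := by
  have hv0 : 0 ≤ s * ρ ^ 2 * d / 4 := by positivity
  have hw : 0 ≤ 2500 * d ^ 2 / (s * ρ ^ 2) := by positivity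
  have e1 : (5 : ℝ) * (5 * d) ^ 3 = s * ρ ^ 2 * d / 4 * (2500 * d ^ 2 / (s * ρ ^ 2)) := by
    field_simp
    ring
  have e2 : (135000 : ℝ) * η / (s * ρ) = 27 * (2500 * d ^ 2 / (s * ρ ^ 2)) := by
    rw [hdsq]
    field_simp
    ring
  have e3 : ENNReal.ofReal (27 * (2500 * d ^ 2 / (s * ρ ^ 2)))
      = 27 * ENNReal.ofReal (2500 * d ^ 2 / (s * ρ ^ 2)) := by
    rw [ENNReal.ofReal_mul (by norm_num : (0 : ℝ) ≤ 27)]
    norm_num
  rw [e1, e2, e3, ENNReal.ofReal_mul hv0]
  calc n * (ENNReal.ofReal (s * ρ ^ 2 * d / 4) * ENNReal.ofReal (2500 * d ^ 2 / (s * ρ ^ 2)))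
      = n * ENNReal.ofReal (s * ρ ^ 2 * d / 4) * ENNReal.ofReal (2500 * d ^ 2 / (s * ρ ^ 2)) :=
        (mul_assoc _ _ _).symm
    _ ≤ 27 * V * ENNReal.ofReal (2500 * d ^ 2 / (s * ρ ^ 2)) := by gcongr
    _ = 27 * ENNReal.ofReal (2500 * d ^ 2 / (s * ρ ^ 2)) * V := by ring

theorem exists_N (hE : finrank ℝ E = 3) {K : Set E} (hK : IsCompact K) (hKc : Convex ℝ K)
    (c : E) {ρ η s : ℝ} (hρ : 0 < ρ) (hin : Metric.closedBall c ρ ⊆ K) (hη : 0 < η)
    (hηρ : 2 * η ≤ ρ) (hs : 0 < s) :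
    ∃ N : Set E, IsCompact N ∧ N ⊆ K ∧
      volume N ≤ ENNReal.ofReal (135000 * η / (s * ρ)) * volume K ∧
      ∀ e : E, Sharp K η s e → ∀ x ∈ K, dist x e ≤ √(2 * ρ * η) → x ∈ N := by
  classical
  have h2 : 0 < 2 * ρ * η := by positivity
  set d₀ : ℝ := √(2 * ρ * η) with hd₀
  have hd0 : 0 < d₀ := Real.sqrt_pos.2 h2
  have hdsq : d₀ ^ 2 = 2 * ρ * η := Real.sq_sqrt h2.le
  have hdρ : d₀ ≤ ρ :=
    Real.sqrt_le_iff.2 ⟨hρ.le, by nlinarith [mul_nonneg hρ.le (sub_nonneg.2 hηρ)]⟩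
  set v0 : ℝ≥0∞ := ENNReal.ofReal (s * ρ ^ 2 * d₀ / 4) with hv0
  have hv0pos : 0 < s * ρ ^ 2 * d₀ / 4 := by positivity
  have hv0ne : v0 ≠ 0 := by
    rw [hv0]
    exact (ENNReal.ofReal_pos.2 hv0pos).ne'
  have hKfin : volume K ≠ ⊤ := hK.measure_lt_top.ne
  have hA : 27 * volume K ≠ ⊤ := ENNReal.mul_ne_top (by norm_num) hKfin
  let Sep : Finset E → Prop := fun F =>
    (∀ e ∈ F, Sharp K η s e) ∧ ∀ e ∈ F, ∀ e' ∈ F, e ≠ e' → 4 * d₀ < dist e e'
  have hcard : ∀ F : Finset E, Sep F → (F.card : ℝ≥0∞) * v0 ≤ 27 * volume K := fun F hF =>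
    separated_card hE hK hKc c hρ hin hη.le hs hd0 hdρ hdsq.ge F hF.1 hF.2
  have hq : 27 * volume K / v0 ≠ ⊤ := ENNReal.div_ne_top hA hv0ne
  set n0 : ℕ := ⌊(27 * volume K / v0).toReal⌋₊ with hn0
  have hbound : ∀ F : Finset E, Sep F → F.card ≤ n0 := by
    intro F hF
    have h1 : (F.card : ℝ≥0∞) ≤ 27 * volume K / v0 := by
      rw [ENNReal.le_div_iff_mul_le (Or.inl hv0ne) (Or.inr hA)]
      exact hcard F hF
    have h3 : ((F.card : ℝ≥0∞)).toReal ≤ (27 * volume K / v0).toReal := ENNReal.toReal_mono hq h1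
    rw [ENNReal.toReal_natCast] at h3
    exact Nat.le_floor h3
  let P : ℕ → Prop := fun n => ∃ F : Finset E, Sep F ∧ F.card = n
  have hP0 : P 0 := ⟨∅, ⟨by simp, by simp⟩, rfl⟩
  have hspec : P (Nat.findGreatest P n0) := Nat.findGreatest_spec (Nat.zero_le n0) hP0
  obtain ⟨F, hF, hFc⟩ := hspec
  have hmax : ∀ F' : Finset E, Sep F' → F'.card ≤ F.card := by
    intro F' hF'
    rw [hFc]
    exact Nat.le_findGreatest (hbound F' hF') ⟨F', hF', rfl⟩
  -- every sharp point is within `4 d₀` of a point of `F`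
  have hcover : ∀ e : E, Sharp K η s e → ∃ e' ∈ F, dist e e' ≤ 4 * d₀ := by
    intro e he
    by_contra hnot
    have hfar : ∀ e' ∈ F, 4 * d₀ < dist e e' := by
      intro e' he'
      by_contra hle
      exact hnot ⟨e', he', not_lt.1 hle⟩
    have heF : e ∉ F := by
      intro heF
      have := hfar e heF
      rw [dist_self] at this
      linarith
    have hSep : Sep (insert e F) := by
      refine ⟨?_, ?_⟩
      · intro a ha
        rcases Finset.mem_insert.1 ha with rfl | ha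
        · exact he
        · exact hF.1 a ha
      · intro a ha b hb hab
        rcases Finset.mem_insert.1 ha with hae | haF
        · rcases Finset.mem_insert.1 hb with hbe | hbF
          · exact absurd (hae.trans hbe.symm) hab
          · rw [hae]
            exact hfar b hbF
        · rcases Finset.mem_insert.1 hb with hbe | hbF
          · rw [hbe, dist_comm]
            exact hfar a haF
          · exact hF.2 a haF b hbF hab
    have h3 := hmax _ hSep
    rw [Finset.card_insert_of_notMem heF] at h3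
    omega
  refine ⟨K ∩ ⋃ e ∈ F, Metric.closedBall e (5 * d₀), ?_, inter_subset_left, ?_, ?_⟩
  · exact hK.inter_right (isClosed_biUnion_finset fun e _ => Metric.isClosed_closedBall)
  · have h5 : (0 : ℝ) ≤ 5 * d₀ := by positivity
    have hle : volume (K ∩ ⋃ e ∈ F, Metric.closedBall e (5 * d₀))
        ≤ (F.card : ℝ≥0∞) * ENNReal.ofReal (5 * (5 * d₀) ^ 3) := by
      calc volume (K ∩ ⋃ e ∈ F, Metric.closedBall e (5 * d₀))
          ≤ volume (⋃ e ∈ F, Metric.closedBall e (5 * d₀)) := measure_mono inter_subset_right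
        _ ≤ ∑ e ∈ F, volume (Metric.closedBall e (5 * d₀)) := measure_biUnion_finset_le _ _
        _ ≤ ∑ _e ∈ F, ENNReal.ofReal (5 * (5 * d₀) ^ 3) :=
            Finset.sum_le_sum fun e _ => volume_closedBall_le hE e h5
        _ = (F.card : ℝ≥0∞) * ENNReal.ofReal (5 * (5 * d₀) ^ 3) := by
            rw [Finset.sum_const, nsmul_eq_mul]
    exact hle.trans (existsn_arith hρ hs hd0 hdsq _ _ (hcard F hF))
  · intro e he x hx hxe
    obtain ⟨e', he', hee'⟩ := hcover e he
    refine ⟨hx, ?_⟩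
    simp only [mem_iUnion]
    refine ⟨e', he', Metric.mem_closedBall.2 ?_⟩
    calc dist x e' ≤ dist x e + dist e e' := dist_triangle _ _ _
      _ ≤ d₀ + 4 * d₀ := add_le_add hxe hee'
      _ = 5 * d₀ := by ring

end Vale.Agent.H15.GenK
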