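import Mathlib

/-!
# General convex bodies (P243), row G6: the planar lemma

`K` convex, points written as `e + t • w + z • u`.  The chord `{e + z • u}` of `K` is exactly
`z ∈ [0, L]`; ` (r, z_r)` is a point of `K` of largest abscissa `t = r > 0`.  Assume
(H1) for `t ≥ 0` the vertical chords at abscissa `t` have length `≤ L (1 - t / r) + η / 2`,
(H2) all vertical chords have length `≤ L + η / 2`, and `0 < η < 2 L`.
With `a := (z_r - L) / r`, `c := z_r / r`, `D := (L - η / 2) / (2 r)`: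
either every point of `K` has `z ≤ L + η + a t` and `z ≤ L + η + (a + D) t`,
or every point of `K` has `z ≥ -η + c t` and `z ≥ -η + (c - D) t`.

LEAN ROW G6 (`planar_lemma`).  Sketch.  Convex combinations of points `e + t • w + z • u` of `K`
are again of this form (combine `t` and `z`).
(1) Every point ` (t, z)` of `K` has `z ≤ L + η/2 + a t` and `z ≥ -η/2 + c t`.
 Case `0 ≤ t` (`t ≤ r` by `hmax`): with `θ = t / r`, ` (t, c t) = (1-θ)(0,0) + θ (r, z_r)` and
 ` (t, L + a t) = (1-θ)(0,L) + θ (r, z_r)` lie in `K`; (H1) for the pairs ` (c t, z)` and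
 ` (z, L + a t)` gives both bounds (`c - L/r = a`).
 Case `t < 0`: the combination of ` (t, z)` (weight `r/(r-t)`) and ` (r, z_r)` (weight `-t/(r-t)`)
 is ` (0, z₀)`, `z₀ = (r z - t z_r)/(r - t)`; `hI` gives `0 ≤ z₀ ≤ L`, i.e. `z ≥ c t`, `z ≤ L + a t`.
(2) If both alternatives fail there are points ` (t₁, z₁)`, ` (t₂, z₂)` of `K` with
 `z₁ > L + η + (a + D) t₁` and `z₂ < -η + (c - D) t₂` (the inequalities with slopes `a`, `c` cannot
 fail by (1)); by (1) `D t₁ < -η/2` and `D t₂ < -η/2`, so `t₁ = -s₁`, `t₂ = -s₂`, `s₁, s₂ > 0`.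
 `σ := min s₁ s₂`.  The points ` (-σ, L + (σ/s₁)(z₁ - L))` (between ` (0, L)` and ` (t₁, z₁)`) and
 ` (-σ, (σ/s₂) z₂)` (between ` (0, 0)` and ` (t₂, z₂)`) lie in `K` and their height difference is
 `> L + η (σ/s₁ + σ/s₂) + σ (c - a - 2 D) ≥ L + η` since `σ/s₁ + σ/s₂ ≥ 1` and
 `c - a - 2 D = η / (2 r) > 0`.  This contradicts (H2).
-/

namespace Vale.Agent.H15.GenK

theorem planar_lemma {E : Type*} [AddCommGroup E] [Module ℝ E] {K : Set E} (hKc : Convex ℝ K)
    (e u w : E) {L η r z_r : ℝ} (hL : 0 < L) (hη : 0 < η) (hηL : η < 2 * L) (hr : 0 < r)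
    (hI : ∀ z : ℝ, e + z • u ∈ K → 0 ≤ z ∧ z ≤ L) (h0 : e ∈ K) (hLK : e + L • u ∈ K)
    (hrK : e + r • w + z_r • u ∈ K)
    (hmax : ∀ t z : ℝ, e + t • w + z • u ∈ K → t ≤ r)
    (H1 : ∀ t z₁ z₂ : ℝ, 0 ≤ t → e + t • w + z₁ • u ∈ K → e + t • w + z₂ • u ∈ K →
      z₂ - z₁ ≤ L * (1 - t / r) + η / 2)
    (H2 : ∀ t z₁ z₂ : ℝ, e + t • w + z₁ • u ∈ K → e + t • w + z₂ • u ∈ K →
      z₂ - z₁ ≤ L + η / 2) :
    (∀ t z : ℝ, e + t • w + z • u ∈ K →
        z ≤ L + η + (z_r - L) / r * t ∧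
        z ≤ L + η + ((z_r - L) / r + (L - η / 2) / (2 * r)) * t) ∨
      (∀ t z : ℝ, e + t • w + z • u ∈ K →
        -η + z_r / r * t ≤ z ∧
        -η + (z_r / r - (L - η / 2) / (2 * r)) * t ≤ z) := by
  -- convex combinations of points of the plane
  have comb : ∀ t₁ z₁ t₂ z₂ θ t z : ℝ, e + t₁ • w + z₁ • u ∈ K → e + t₂ • w + z₂ • u ∈ K →
      0 ≤ θ → θ ≤ 1 → t = (1 - θ) * t₁ + θ * t₂ → z = (1 - θ) * z₁ + θ * z₂ →
      e + t • w + z • u ∈ K := by
    intro t₁ z₁ t₂ z₂ θ t z h1 h2 hθ0 hθ1 ht hz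
    have h3 := hKc h1 h2 (sub_nonneg.mpr hθ1) hθ0 (by ring)
    have e1 : (1 - θ) • (e + t₁ • w + z₁ • u) + θ • (e + t₂ • w + z₂ • u) =
        e + t • w + z • u := by
      rw [ht, hz]
      module
    rw [e1] at h3
    exact h3
  have hP00 : e + (0 : ℝ) • w + (0 : ℝ) • u ∈ K := by simpa using h0
  have hP0L : e + (0 : ℝ) • w + L • u ∈ K := by simpa using hLK
  have hI' : ∀ z : ℝ, e + (0 : ℝ) • w + z • u ∈ K → 0 ≤ z ∧ z ≤ L := by
    intro z hz
    apply hI
    simpa using hz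
  obtain ⟨a, ha⟩ : ∃ a : ℝ, a = (z_r - L) / r := ⟨_, rfl⟩
  obtain ⟨c, hc⟩ : ∃ c : ℝ, c = z_r / r := ⟨_, rfl⟩
  obtain ⟨D, hD⟩ : ∃ D : ℝ, D = (L - η / 2) / (2 * r) := ⟨_, rfl⟩
  rw [← ha, ← hc, ← hD]
  have hr0 : r ≠ 0 := hr.ne'
  have har : a * r = z_r - L := by
    rw [ha]
    field_simp
  have hcr : c * r = z_r := by
    rw [hc]
    field_simp
  have hDr : D * (2 * r) = L - η / 2 := by
    rw [hD]
    field_simp
  have hDpos : 0 < D := by
    rw [hD]
    apply div_pos <;> linarith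
  -- step 1: the slopes `a` and `c` are admissible
  have step1 : ∀ t z : ℝ, e + t • w + z • u ∈ K →
      z ≤ L + η / 2 + a * t ∧ -η / 2 + c * t ≤ z := by
    intro t z hz
    rcases le_or_gt 0 t with ht0 | ht0
    · have htr : t ≤ r := hmax t z hz
      obtain ⟨θ, hθ⟩ : ∃ θ : ℝ, θ = t / r := ⟨_, rfl⟩
      have hθr : θ * r = t := by
        rw [hθ]
        field_simp
      have hθ0 : 0 ≤ θ := by
        rw [hθ]
        positivity
      have hθ1 : θ ≤ 1 := by
        rw [hθ]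
        exact (div_le_one hr).mpr htr
      have hct : c * t = θ * z_r := by
        rw [← hθr]
        linear_combination θ * hcr
      have hat : a * t = θ * (z_r - L) := by
        rw [← hθr]
        linear_combination θ * har
      have hB : e + t • w + (c * t) • u ∈ K :=
        comb 0 0 r z_r θ t (c * t) hP00 hrK hθ0 hθ1 (by rw [← hθr]; ring) (by rw [hct]; ring)
      have hA : e + t • w + (L + a * t) • u ∈ K :=
        comb 0 L r z_r θ t (L + a * t) hP0L hrK hθ0 hθ1 (by rw [← hθr]; ring)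
          (by rw [hat]; ring)
      have h1 := H1 t (c * t) z ht0 hB hz
      have h2 := H1 t z (L + a * t) ht0 hz hA
      rw [← hθ] at h1 h2
      rw [hct] at h1
      rw [hat] at h2
      rw [hat, hct]
      constructor <;> linarith
    · have hrt : 0 < r - t := by linarith
      obtain ⟨θ, hθ⟩ : ∃ θ : ℝ, θ = -t / (r - t) := ⟨_, rfl⟩
      have hθ' : θ * (r - t) = -t := by
        rw [hθ]
        field_simp
      have hθ0 : 0 ≤ θ := by
        rw [hθ]
        apply div_nonneg <;> linarith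
      have hθ1 : θ ≤ 1 := by
        rw [hθ, div_le_one hrt]
        linarith
      have hz0 : e + (0 : ℝ) • w + ((1 - θ) * z + θ * z_r) • u ∈ K :=
        comb t z r z_r θ 0 ((1 - θ) * z + θ * z_r) hz hrK hθ0 hθ1
          (by linear_combination (-1 : ℝ) * hθ') rfl
      obtain ⟨hz1, hz2⟩ := hI' _ hz0
      have k1 : (r - t) * ((1 - θ) * z + θ * z_r) = r * z - t * z_r := by
        linear_combination (z_r - z) * hθ'
      have k2 : 0 ≤ (r - t) * ((1 - θ) * z + θ * z_r) := mul_nonneg hrt.le hz1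
      have k3 : (r - t) * ((1 - θ) * z + θ * z_r) ≤ (r - t) * L :=
        mul_le_mul_of_nonneg_left hz2 hrt.le
      rw [k1] at k2 k3
      have k4 : 0 ≤ r * (z - c * t) := by
        have e2 : r * (z - c * t) = r * z - t * z_r := by linear_combination (-t) * hcr
        rw [e2]
        exact k2
      have k5 : 0 ≤ z - c * t := by
        by_contra hcon
        push Not at hcon
        have h6 := mul_neg_of_pos_of_neg hr hcon
        linarith
      have k6 : r * (z - L - a * t) ≤ 0 := by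
        have e2 : r * (z - L - a * t) = r * z - t * z_r - (r - t) * L := by
          linear_combination (-t) * har
        rw [e2]
        linarith
      have k7 : z - L - a * t ≤ 0 := by
        by_contra hcon
        push Not at hcon
        have h6 := mul_pos hr hcon
        linarith
      constructor <;> linarith
  -- step 2
  by_contra hcon
  rw [not_or] at hcon
  obtain ⟨hc1, hc2⟩ := hcon
  push Not at hc1 hc2
  obtain ⟨t₁, z₁, hK1, hz1⟩ := hc1
  obtain ⟨t₂, z₂, hK2, hz2⟩ := hc2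
  obtain ⟨s1a, s1b⟩ := step1 t₁ z₁ hK1
  obtain ⟨s2a, s2b⟩ := step1 t₂ z₂ hK2
  have hz1' : L + η + (a + D) * t₁ < z₁ := hz1 (by linarith)
  have hz2' : z₂ < -η + (c - D) * t₂ := hz2 (by linarith)
  have hDt1 : D * t₁ < 0 := by linarith
  have hDt2 : D * t₂ < 0 := by linarith
  have ht1 : t₁ < 0 := by
    by_contra h
    push Not at h
    have h6 := mul_nonneg hDpos.le h
    linarith
  have ht2 : t₂ < 0 := by
    by_contra h
    push Not at h
    have h6 := mul_nonneg hDpos.le h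
    linarith
  have hca : (c - a - 2 * D) * r = η / 2 := by linear_combination hcr - har - hDr
  have hcaD : 0 < c - a - 2 * D := by
    by_contra h
    push Not at h
    have h6 := mul_nonpos_of_nonpos_of_nonneg h hr.le
    linarith
  rcases le_total t₂ t₁ with h12 | h12
  · obtain ⟨q, hq⟩ : ∃ q : ℝ, q = t₁ / t₂ := ⟨_, rfl⟩
    have ht2' : t₂ ≠ 0 := ht2.ne
    have hqt : q * t₂ = t₁ := by
      rw [hq]
      field_simp
    have hq0 : 0 < q := by
      rw [hq]
      exact div_pos_of_neg_of_neg ht1 ht2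
    have hq1 : q ≤ 1 := by
      rw [hq, div_le_one_of_neg ht2]
      exact h12
    have hB : e + t₁ • w + (q * z₂) • u ∈ K :=
      comb 0 0 t₂ z₂ q t₁ (q * z₂) hP00 hK2 hq0.le hq1 (by rw [← hqt]; ring) (by ring)
    have h2 := H2 t₁ (q * z₂) z₁ hB hK1
    have h3 : q * z₂ < -(q * η) + (c - D) * t₁ := by
      have h6 := mul_lt_mul_of_pos_left hz2' hq0
      have e2 : q * (-η + (c - D) * t₂) = -(q * η) + (c - D) * t₁ := by
        rw [← hqt]
        ring
      linarith
    have h4 : 0 < -((c - a - 2 * D) * t₁) := by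
      have h6 := mul_pos hcaD (neg_pos.mpr ht1)
      linarith
    have h5 : 0 < q * η := mul_pos hq0 hη
    linarith
  · obtain ⟨q, hq⟩ : ∃ q : ℝ, q = t₂ / t₁ := ⟨_, rfl⟩
    have ht1' : t₁ ≠ 0 := ht1.ne
    have hqt : q * t₁ = t₂ := by
      rw [hq]
      field_simp
    have hq0 : 0 < q := by
      rw [hq]
      exact div_pos_of_neg_of_neg ht2 ht1
    have hq1 : q ≤ 1 := by
      rw [hq, div_le_one_of_neg ht1]
      exact h12
    have hA : e + t₂ • w + ((1 - q) * L + q * z₁) • u ∈ K :=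
      comb 0 L t₁ z₁ q t₂ ((1 - q) * L + q * z₁) hP0L hK1 hq0.le hq1 (by rw [← hqt]; ring) rfl
    have h2 := H2 t₂ z₂ ((1 - q) * L + q * z₁) hK2 hA
    have h3 : q * (L + η + (a + D) * t₁) < q * z₁ := mul_lt_mul_of_pos_left hz1' hq0
    have e2 : q * (L + η + (a + D) * t₁) = q * L + q * η + (a + D) * t₂ := by
      rw [← hqt]
      ring
    have h4 : 0 < -((c - a - 2 * D) * t₂) := by
      have h6 := mul_pos hcaD (neg_pos.mpr ht2)
      linarith
    have h5 : 0 < q * η := mul_pos hq0 hη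
    linarith

end Vale.Agent.H15.GenK
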