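import Mathlib
import Vale.Agent.H93.GenK.Step3

/-!
# General convex bodies (P243), row G11: a Gram bound

For orthonormal `w, u` and unit vectors `ξ, ξ'`:
` (⟪ξ, w⟫ ⟪ξ', u⟫ - ⟪ξ, u⟫ ⟪ξ', w⟫)² ≤ 1 - ⟪ξ, ξ'⟫²`.

LEAN ROW G11 (`gram_bound`).  Sketch: `v := ⟪ξ', u⟫ • w - ⟪ξ', w⟫ • u`.  Then `⟪ξ', v⟫ = 0`,
`⟪ξ, v⟫` is the left side's base, and `‖v‖² = ⟪ξ', u⟫² + ⟪ξ', w⟫² ≤ 1` (Bessel for the orthonormal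
pair: expand `0 ≤ ‖ξ' - ⟪ξ', u⟫ • u - ⟪ξ', w⟫ • w‖²`).  Expand
`0 ≤ ‖ξ - ⟪ξ, ξ'⟫ • ξ' - ⟪ξ, v⟫ • v‖² = 1 - ⟪ξ, ξ'⟫² - ⟪ξ, v⟫² (2 - ‖v‖²)`, so
`⟪ξ, v⟫² ≤ ⟪ξ, v⟫² (2 - ‖v‖²) ≤ 1 - ⟪ξ, ξ'⟫²`.
-/

namespace Vale.Agent.H15.GenK

theorem gram_bound {E : Type*} [NormedAddCommGroup E] [InnerProductSpace ℝ E] {u w ξ ξ' : E}
    (hu : ‖u‖ = 1) (hw : ‖w‖ = 1) (hwu : inner ℝ w u = 0) (hξ : ‖ξ‖ = 1) (hξ' : ‖ξ'‖ = 1) :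
    (inner ℝ ξ w * inner ℝ ξ' u - inner ℝ ξ u * inner ℝ ξ' w) ^ 2 ≤
      1 - (inner ℝ ξ ξ') ^ 2 := by
  have huw : inner ℝ u w = 0 := by
    rw [real_inner_comm]
    exact hwu
  exact Vale.Agent.H93.GenK.step3_gram u w ξ ξ' hu hw huw hξ hξ'

end Vale.Agent.H15.GenK
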