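import Mathlib
import Vale.Agent.H93.GenK.Step3

/-!
# General convex bodies (P243), row G12: a supporting plane through a line missing the interior

If the line `{q + t • v}` misses the interior of the convex set `K` (nonempty interior), there is a
unit vector `ξ ⊥ v` with `⟪ξ, y - q⟫ ≤ 0` for all `y ∈ K`.

LEAN ROW G12 (`support_normal`).  Sketch: `geometric_hahn_banach_open` for the open convex set
`interior K` (`Convex.interior`) and the convex set `range (fun t => q + t • v)` (disjoint by
`hline`): `f : StrongDual ℝ E`, `s` with `f a < s` on `interior K` and `s ≤ f (q + t • v)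
= f q + t * f v` for all `t`; hence `f v = 0` (take `t → ±∞`, e.g. `t = ∓ (f q - s + 1) / f v`) and
`s ≤ f q`; `f ≠ 0` (else `0 < s ≤ 0` at an interior point).  For `y ∈ K`: `y ∈ closure (interior K)`
(`Convex.closure_interior_eq_closure_of_nonempty_interior`, `subset_closure`), so `f y ≤ s ≤ f q`
(closed half-space `{y | f y ≤ s}`).  Riesz: `g := (InnerProductSpace.toDual ℝ E).symm f`,
`f x = ⟪g, x⟫` (`InnerProductSpace.toDual_symm_apply`), `g ≠ 0`; `ξ := ‖g‖⁻¹ • g`.
-/

open Set

namespace Vale.Agent.H15.GenK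

theorem support_normal {E : Type*} [NormedAddCommGroup E] [InnerProductSpace ℝ E]
    [FiniteDimensional ℝ E] {K : Set E} (hKc : Convex ℝ K) (hKi : (interior K).Nonempty)
    (q v : E) (hline : ∀ t : ℝ, q + t • v ∉ interior K) :
    ∃ ξ : E, ‖ξ‖ = 1 ∧ inner ℝ ξ v = 0 ∧ ∀ y ∈ K, inner ℝ ξ (y - q) ≤ 0 := by
  have : CompleteSpace E := FiniteDimensional.complete ℝ E
  exact Vale.Agent.H93.GenK.support_of_line K hKc hKi q v hline

end Vale.Agent.H15.GenK
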