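import Vale.Agent.H15.GenK.Defs
import Vale.Agent.H15.GenK.Gram
import Vale.Agent.H15.GenK.Support
import Vale.Agent.H7.GenK.Step3

/-!
# General convex bodies (P243), row G13: a kink in a planar section gives a sharp point

`closedBall c ρ ⊆ K ⊆ closedBall c R`, `K` convex, `u, w` orthonormal, the plane
`e + span {w, u}` passes within `ρ/2` of `c`, `e + L u ∈ K`, and every point `e + t w + z u` of `K`
has `z ≤ L + η + a t` and `z ≤ L + η + (a + D) t` (`η > 0`, `D > 0`).  Then `e + L u` is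
` (η, s)`-sharp with `s = ρ² D / (4 (R + η)² (1 + |a|) (1 + |a| + D))`.

LEAN ROW G13 (`sharp_of_alt`), from the stubs `support_normal` (Support) and `gram_bound` (Gram).
Sketch: `ê := e + (L + η) • u`.  For `σ ∈ {a, a + D}` the line `t ↦ ê + t • (w + σ • u)
= e + t • w + (L + η + σ t) • u` misses `interior K`: if such a point is interior, then
`e + t • w + (L + η + σ t + ε) • u ∈ K` for a small `ε > 0` (`mem_interior_iff_mem_nhds`,
continuity of `ε ↦ x + ε • u`), contradicting `halt`.  `interior K` is nonempty (contains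
`ball c ρ`).  `support_normal` gives a unit `ξ_σ` with `⟪ξ_σ, w⟫ = -σ ⟪ξ_σ, u⟫` and
`⟪ξ_σ, y - ê⟫ ≤ 0` on `K`.
Caps: `⟪ξ_σ, y - (e + L • u)⟫ = ⟪ξ_σ, y - ê⟫ + η ⟪ξ_σ, u⟫ ≤ η` (`|⟪ξ_σ, u⟫| ≤ 1`).
Size of `y_σ := ⟪ξ_σ, u⟫`: `c + ρ • ξ_σ ∈ closedBall c ρ ⊆ K` gives `ρ ≤ ⟪ξ_σ, ê - c⟫`.  Write
`ê - c = A • w + B • u + n` with `A = ⟪ê - c, w⟫`, `B = ⟪ê - c, u⟫`,
`n = (e - c) - ⟪e - c, w⟫ • w - ⟪e - c, u⟫ • u` (the same vector as for `e`), `‖n‖ ≤ ρ/2`,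
`|A|, |B| ≤ ‖ê - c‖ ≤ ‖e + L • u - c‖ + η ≤ R + η`.  So
`ρ ≤ y_σ (B - σ A) + ρ/2`, hence `ρ/2 ≤ |y_σ| (1 + |σ|)(R + η)`.
Angle: `gram_bound` with `ξ = ξ_a`, `ξ' = ξ_{a+D}`:
`⟪ξ_a, w⟫ ⟪ξ_b, u⟫ - ⟪ξ_a, u⟫ ⟪ξ_b, w⟫ = -a y_a y_b + (a + D) y_a y_b = D y_a y_b`, so
`1 - ⟪ξ_a, ξ_b⟫² ≥ (D y_a y_b)²` and
`|D y_a y_b| ≥ D (ρ/2)² / ((R + η)² (1 + |a|)(1 + |a + D|)) ≥ s` (`|a + D| ≤ |a| + D`).
-/

open Set

namespace Vale.Agent.H15.GenK

theorem sharp_of_alt {E : Type*} [NormedAddCommGroup E] [InnerProductSpace ℝ E]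
    [FiniteDimensional ℝ E] {K : Set E} (hKc : Convex ℝ K) (c : E) {ρ R : ℝ} (hρ : 0 < ρ)
    (hin : Metric.closedBall c ρ ⊆ K) (hout : K ⊆ Metric.closedBall c R) (u w : E)
    (hu : ‖u‖ = 1) (hw : ‖w‖ = 1) (hwu : inner ℝ w u = 0) (e : E) {L η a D : ℝ}
    (heL : e + L • u ∈ K) (hη : 0 < η) (hD : 0 < D)
    (hplane : ‖(e - c) - inner ℝ (e - c) w • w - inner ℝ (e - c) u • u‖ ≤ ρ / 2)
    (halt : ∀ t z : ℝ, e + t • w + z • u ∈ K →
      z ≤ L + η + a * t ∧ z ≤ L + η + (a + D) * t) :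
    Sharp K η (ρ ^ 2 * D / (4 * (R + η) ^ 2 * (1 + |a|) * (1 + |a| + D))) (e + L • u) := by
  have : CompleteSpace E := FiniteDimensional.complete ℝ E
  have h1 : ∀ t z : ℝ, (e + L • u) + t • w + z • u ∈ K → z ≤ η + a * t := by
    intro t z hz
    have e1 : (e + L • u) + t • w + z • u = e + t • w + (L + z) • u := by
      rw [add_smul]
      abel
    rw [e1] at hz
    have := (halt t (L + z) hz).1
    linarith
  have h2 : ∀ t z : ℝ, (e + L • u) + t • w + z • u ∈ K → z ≤ η + (a + D) * t := by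
    intro t z hz
    have e1 : (e + L • u) + t • w + z • u = e + t • w + (L + z) • u := by
      rw [add_smul]
      abel
    rw [e1] at hz
    have := (halt t (L + z) hz).2
    linarith
  have hc : ∃ t1 z1 : ℝ, ‖c - ((e + L • u) + t1 • w + z1 • u)‖ ≤ ρ / 2 := by
    refine ⟨-inner ℝ (e - c) w, -inner ℝ (e - c) u - L, ?_⟩
    have e2 : c - ((e + L • u) + (-inner ℝ (e - c) w) • w + (-inner ℝ (e - c) u - L) • u)
        = -((e - c) - inner ℝ (e - c) w • w - inner ℝ (e - c) u • u) := by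
      rw [sub_smul, neg_smul, neg_smul]
      abel
    rw [e2, norm_neg]
    exact hplane
  obtain ⟨ξ1, ξ2, hξ1, hξ2, hcap1, hcap2, hB⟩ :=
    Vale.Agent.H7.GenK.sharp_of_two_slopes K hKc c ρ R hρ hin hout (e + L • u) w u heL hw hu hwu
      η a D hη.le hD hc h1 h2
  refine ⟨heL, ξ1, ξ2, hξ1, hξ2, ?_, hcap1, hcap2⟩
  -- ρ ≤ R
  have hρR : ρ ≤ R := by
    have hmem : c + ρ • u ∈ K := by
      apply hin
      rw [Metric.mem_closedBall, dist_eq_norm, add_sub_cancel_left, norm_smul, hu, mul_one,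
        Real.norm_eq_abs, abs_of_pos hρ]
    have := hout hmem
    rw [Metric.mem_closedBall, dist_eq_norm, add_sub_cancel_left, norm_smul, hu, mul_one,
      Real.norm_eq_abs, abs_of_pos hρ] at this
    exact this
  have hM : 0 < R + η := by linarith
  have hA1 : 0 < 1 + |a| := by positivity
  have hA2 : 0 < 1 + |a + D| := by positivity
  have hA3 : 0 < 1 + |a| + D := by positivity
  have hle : 1 + |a + D| ≤ 1 + |a| + D := by
    have := abs_add_le a D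
    rw [abs_of_pos hD] at this
    linarith
  have hs0 : 0 ≤ ρ ^ 2 * D / (4 * (R + η) ^ 2 * (1 + |a|) * (1 + |a| + D)) := by positivity
  have hsB : ρ ^ 2 * D / (4 * (R + η) ^ 2 * (1 + |a|) * (1 + |a| + D))
      ≤ ρ * D / (2 * (R + η) * (1 + |a|) * (1 + |a + D|)) := by
    rw [div_le_div_iff₀ (by positivity) (by positivity)]
    have h3 : ρ * (1 + |a + D|) ≤ 2 * (R + η) * (1 + |a| + D) := by
      have h4 : ρ * (1 + |a + D|) ≤ (R + η) * (1 + |a| + D) :=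
        mul_le_mul (by linarith) hle hA2.le hM.le
      nlinarith [mul_pos hM hA3]
    have h5 : 0 ≤ ρ * D * (2 * (R + η) * (1 + |a|)) := by positivity
    calc ρ ^ 2 * D * (2 * (R + η) * (1 + |a|) * (1 + |a + D|))
        = ρ * D * (2 * (R + η) * (1 + |a|)) * (ρ * (1 + |a + D|)) := by ring
      _ ≤ ρ * D * (2 * (R + η) * (1 + |a|)) * (2 * (R + η) * (1 + |a| + D)) :=
          mul_le_mul_of_nonneg_left h3 h5
      _ = ρ * D * (4 * (R + η) ^ 2 * (1 + |a|) * (1 + |a| + D)) := by ring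
  calc (ρ ^ 2 * D / (4 * (R + η) ^ 2 * (1 + |a|) * (1 + |a| + D))) ^ 2
      ≤ (ρ * D / (2 * (R + η) * (1 + |a|) * (1 + |a + D|))) ^ 2 := pow_le_pow_left₀ hs0 hsB 2
    _ ≤ 1 - (inner ℝ ξ1 ξ2) ^ 2 := hB

end Vale.Agent.H15.GenK
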