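import Vale.Agent.H15.GenK.GoodRay
import Vale.Agent.H15.GenK.Planar
import Vale.Agent.H15.GenK.SharpAlt
import Vale.Agent.H5.P243.UShadowPos

/-!
# General convex bodies (P243), row G14: an almost extremal chord has a sharp end

`K` compact convex in a 3-dimensional Euclidean space, `ball c ρ ⊆ K ⊆ closedBall c R`,
`0 < δ ≤ ρ² / (24 R²)`.  Let `{e + t u | t ∈ [0, L]}` be a full chord of `K` (`hI`) which is
`δ`-extremal: ` (3 - δ) vol K ≤ L |π_u K|`.  Then `ρ ≤ L` and one of its ends is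
` (24 δ R³/ρ², ρ⁵/(3000 R⁵))`-sharp.

LEAN ROW G14 (`lemma_S`), from the stubs `good_ray` (GoodRay), `planar_lemma` (Planar),
`sharp_of_alt` (SharpAlt) and `Vale.Agent.H5.P243.cone_bound`, `shadow_pos`.  Sketch.
`S := proj '' K`, `0 < volume S < ⊤` (`shadow_pos`, compactness), `0 < volume K < ⊤`
(`ball c ρ ⊆ K`), `ρ ≤ R`, `δ ≤ 1/24`, `closedBall c ρ ⊆ K` (`closure_ball`, `K` closed).
(0) `L ≤ 2 R` (both ends in `closedBall c R`).  `ρ ≤ L`: the chord `c - (3ρ/4) u, c + (3ρ/4) u`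
 lies in `ball c ρ`; `cone_bound`: `ofReal (3ρ/2) * volume S ≤ 3 * volume K`; with `hext`:
 ` (3 - δ)(3ρ/2) ≤ 3 L`.  Every chord `y, y + s • u ∈ K` has ` (3 - δ) s ≤ 3 L` (same argument),
 so `s ≤ L (1 + δ/2)`.
(1) `m := 6 δ L (R/ρ)²`: `0 < m ≤ L/4`, `m ≥ δ L / 2`.  `good_ray` gives `w, r, z_r`.
(2) `η := 2 m` (`0 < η ≤ L/2`, `η ≤ 24 δ R³/ρ²`).  `planar_lemma` with (H1) from `good_ray`
 (`η/2 = m`) and (H2) from (0).  Put `a := (z_r - L)/r`, `cc := z_r / r`, `D := (L - η/2)/(2 r)`.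
 With `k := e + r • w + z_r • u ∈ K`: `r = ⟪k - e, w⟫ ≤ 2 R`, `|z_r| = |⟪k - e, u⟫| ≤ 2 R`,
 `|z_r - L| = |⟪k - (e + L • u), u⟫| ≤ 2 R`, so `|a|, |cc| ≤ 4R/ρ`, and
 `3ρ/(16R) ≤ 3L/(16R) ≤ D ≤ L/(2r) ≤ 2R/ρ`.
(3) First alternative: `sharp_of_alt` for ` (u, w, e, a, D)` gives `Sharp K η s (e + L • u)`.
 Second alternative: `sharp_of_alt` for ` (-u, w, e + L • u, -cc, D)`: a point
 ` (e + L • u) + t • w + z' • (-u) = e + t • w + (L - z') • u` of `K` has
 `z' ≤ L + η - cc t` and `z' ≤ L + η + (-cc + D) t`; ` (e + L • u) + L • (-u) = e`; the plane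
 condition is unchanged (` (e + L • u - c)` differs from `e - c` by a multiple of `u`).  It gives
 `Sharp K η s' e`.
 In both cases `s ≥ ρ² (3ρ/(16R)) / (4 (2R)² (5R/ρ)(7R/ρ)) = 3 ρ⁵/(8960 R⁵) ≥ ρ⁵/(3000 R⁵)`
 (`R + η ≤ 2R`, `1 + |a| ≤ 5R/ρ`, `D/(1 + |a| + D)` is increasing in `D` and
 `1 + |a| + 3ρ/(16R) ≤ 7R/ρ`); conclude with `Sharp.mono`.
-/

open MeasureTheory Set Module
open scoped ENNReal

namespace Vale.Agent.H15.GenK

variable {E : Type*} [NormedAddCommGroup E] [InnerProductSpace ℝ E] [FiniteDimensional ℝ E]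
  [MeasurableSpace E] [BorelSpace E]

theorem lemmas_const {ρ R η A D : ℝ} (hρ : 0 < ρ) (hρR : ρ ≤ R) (hη0 : 0 < η) (hηR : η ≤ R)
    (hA0 : 0 ≤ A) (hA : A ≤ 4 * R / ρ) (hD1 : 3 * ρ / (16 * R) ≤ D) (hD2 : D ≤ 2 * R / ρ) :
    ρ ^ 5 / (3000 * R ^ 5) ≤ ρ ^ 2 * D / (4 * (R + η) ^ 2 * (1 + A) * (1 + A + D)) := by
  have hR : 0 < R := lt_of_lt_of_le hρ hρR
  have hD0 : 0 < D := lt_of_lt_of_le (by positivity) hD1
  have hden : 0 < 4 * (R + η) ^ 2 * (1 + A) * (1 + A + D) := by positivity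
  rw [div_le_div_iff₀ (by positivity) hden]
  -- bounds
  have h1 : (R + η) ^ 2 ≤ 4 * R ^ 2 := by nlinarith
  have hAρ : A * ρ ≤ 4 * R := by rwa [le_div_iff₀ hρ] at hA
  have hDρ : D * ρ ≤ 2 * R := by rwa [le_div_iff₀ hρ] at hD2
  have hDR : 3 * ρ ≤ D * (16 * R) := by rwa [div_le_iff₀ (by positivity)] at hD1
  have h2 : (1 + A) * ρ ≤ 5 * R := by nlinarith
  have h3 : (1 + A + D) * ρ ≤ 7 * R := by nlinarith
  have h23 : (1 + A) * (1 + A + D) * ρ ^ 2 ≤ 35 * R ^ 2 := by
    have h2' : 0 ≤ (1 + A) * ρ := by positivity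
    have h3' : 0 ≤ (1 + A + D) * ρ := by positivity
    nlinarith [mul_le_mul h2 h3 h3' (by positivity : (0:ℝ) ≤ 5 * R)]
  have hden2 : 4 * (R + η) ^ 2 * (1 + A) * (1 + A + D) * ρ ^ 2 ≤ 560 * R ^ 4 := by
    have hx : 0 ≤ (1 + A) * (1 + A + D) * ρ ^ 2 := by positivity
    have := mul_le_mul h1 h23 hx (by positivity : (0:ℝ) ≤ 4 * R ^ 2)
    nlinarith
  -- goal: ρ^5 * den ≤ ρ^2 * D * (3000 R^5)
  have hgoal : ρ ^ 5 * (4 * (R + η) ^ 2 * (1 + A) * (1 + A + D)) ≤ ρ ^ 3 * (560 * R ^ 4) := by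
    have : ρ ^ 5 * (4 * (R + η) ^ 2 * (1 + A) * (1 + A + D)) =
        ρ ^ 3 * (4 * (R + η) ^ 2 * (1 + A) * (1 + A + D) * ρ ^ 2) := by ring
    rw [this]
    exact mul_le_mul_of_nonneg_left hden2 (by positivity)
  have hrhs : ρ ^ 3 * (560 * R ^ 4) ≤ ρ ^ 2 * D * (3000 * R ^ 5) := by
    have h4 : ρ ^ 2 * R ^ 4 * (3 * ρ) ≤ ρ ^ 2 * R ^ 4 * (D * (16 * R)) :=
      mul_le_mul_of_nonneg_left hDR (by positivity)
    have h5 : 0 ≤ ρ ^ 3 * R ^ 4 := by positivity
    nlinarith
  exact hgoal.trans hrhs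

theorem lemma_S (hE : finrank ℝ E = 3) (u : E) (hu : ‖u‖ = 1) {K : Set E} (hK : IsCompact K)
    (hKc : Convex ℝ K) (c : E) {ρ R : ℝ} (hρ : 0 < ρ) (hin : Metric.ball c ρ ⊆ K)
    (hout : K ⊆ Metric.closedBall c R) {δ : ℝ} (hδ : 0 < δ) (hδs : δ ≤ ρ ^ 2 / (24 * R ^ 2))
    (e : E) {L : ℝ} (hL : 0 < L) (he : e ∈ K) (heL : e + L • u ∈ K)
    (hI : ∀ t : ℝ, e + t • u ∈ K → 0 ≤ t ∧ t ≤ L)
    (hext : ENNReal.ofReal (3 - δ) * volume K ≤
      ENNReal.ofReal L * volume ((Submodule.span ℝ {u})ᗮ.orthogonalProjectionOnto '' K)) :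
    ρ ≤ L ∧
      (Sharp K (24 * δ * R ^ 3 / ρ ^ 2) (ρ ^ 5 / (3000 * R ^ 5)) e ∨
        Sharp K (24 * δ * R ^ 3 / ρ ^ 2) (ρ ^ 5 / (3000 * R ^ 5)) (e + L • u)) := by
  -- basic facts
  have hcK : c ∈ K := hin (Metric.mem_ball_self hρ)
  have hR0 : 0 ≤ R := by
    have := hout hcK
    rw [Metric.mem_closedBall, dist_self] at this
    exact this
  have hpt : ∀ t : ℝ, |t| < ρ → c + t • u ∈ Metric.ball c ρ := by
    intro t ht
    rw [Metric.mem_ball, dist_eq_norm, add_sub_cancel_left, norm_smul, hu, mul_one]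
    exact ht
  have hρR : ρ ≤ R := by
    by_contra hcon
    push_neg at hcon
    have h1 : c + ((R + ρ) / 2) • u ∈ Metric.ball c ρ := by
      apply hpt
      rw [abs_of_nonneg (by linarith)]
      linarith
    have h2 := hout (hin h1)
    rw [Metric.mem_closedBall, dist_eq_norm, add_sub_cancel_left, norm_smul, hu, mul_one,
      Real.norm_eq_abs, abs_of_nonneg (by linarith)] at h2
    linarith
  have hR : 0 < R := lt_of_lt_of_le hρ hρR
  have hδ1 : δ ≤ 1 / 24 := by
    refine hδs.trans ?_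
    rw [div_le_div_iff₀ (by positivity) (by norm_num)]
    nlinarith
  have hinc : Metric.closedBall c ρ ⊆ K := by
    rw [← closure_ball c hρ.ne']
    exact closure_minimal hin hK.isClosed
  have hVpos : 0 < volume K :=
    lt_of_lt_of_le (Metric.measure_ball_pos volume c hρ) (measure_mono hin)
  have hSpos := Vale.Agent.H5.P243.shadow_pos hE u hu hK hVpos
  have hSfin : volume ((Submodule.span ℝ {u})ᗮ.orthogonalProjectionOnto '' K) ≠ ⊤ :=
    (hK.image (Submodule.span ℝ {u})ᗮ.orthogonalProjectionOnto.continuous).measure_lt_top.ne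
  -- every chord along u
  have hchord : ∀ (y : E) (s : ℝ), 0 ≤ s → y ∈ K → y + s • u ∈ K → (3 - δ) * s ≤ 3 * L := by
    intro y s hs hy hys
    have h1 := Vale.Agent.H5.P243.cone_bound hE u hu hK hKc hs hy hys
    have h2 : ENNReal.ofReal ((3 - δ) * s) *
        volume ((Submodule.span ℝ {u})ᗮ.orthogonalProjectionOnto '' K) ≤
        ENNReal.ofReal (3 * L) *
          volume ((Submodule.span ℝ {u})ᗮ.orthogonalProjectionOnto '' K) := by
      rw [ENNReal.ofReal_mul (by linarith), ENNReal.ofReal_mul (by norm_num : (0:ℝ) ≤ 3)]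
      calc ENNReal.ofReal (3 - δ) * ENNReal.ofReal s *
            volume ((Submodule.span ℝ {u})ᗮ.orthogonalProjectionOnto '' K)
          = ENNReal.ofReal (3 - δ) * (ENNReal.ofReal s *
            volume ((Submodule.span ℝ {u})ᗮ.orthogonalProjectionOnto '' K)) := by ring
        _ ≤ ENNReal.ofReal (3 - δ) * (3 * volume K) := by gcongr
        _ = 3 * (ENNReal.ofReal (3 - δ) * volume K) := by ring
        _ ≤ 3 * (ENNReal.ofReal L *
            volume ((Submodule.span ℝ {u})ᗮ.orthogonalProjectionOnto '' K)) := by gcongr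
        _ = ENNReal.ofReal 3 * ENNReal.ofReal L *
            volume ((Submodule.span ℝ {u})ᗮ.orthogonalProjectionOnto '' K) := by
          rw [ENNReal.ofReal_ofNat]
          ring
    have h3 := (ENNReal.mul_le_mul_iff_left hSpos.ne' hSfin).1 h2
    exact (ENNReal.ofReal_le_ofReal_iff (by positivity)).1 h3
  -- ρ ≤ L
  have hρL : ρ ≤ L := by
    have h1 : c + (-(3 * ρ / 4)) • u ∈ K := hin (hpt _ (by rw [abs_neg, abs_of_pos (by positivity)]; linarith))
    have h2 : c + (-(3 * ρ / 4)) • u + (3 * ρ / 2) • u ∈ K := by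
      have : c + (-(3 * ρ / 4)) • u + (3 * ρ / 2) • u = c + (3 * ρ / 4) • u := by module
      rw [this]
      exact hin (hpt _ (by rw [abs_of_pos (by positivity)]; linarith))
    have h3 := hchord _ _ (by positivity) h1 h2
    nlinarith
  have hdist : ∀ x ∈ K, ∀ y ∈ K, ‖x - y‖ ≤ 2 * R := by
    intro x hx y hy
    have h1 := hout hx
    have h2 := hout hy
    rw [Metric.mem_closedBall] at h1 h2
    calc ‖x - y‖ = dist x y := (dist_eq_norm x y).symm
      _ ≤ dist x c + dist c y := dist_triangle x c y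
      _ ≤ R + R := by rw [dist_comm c y]; exact add_le_add h1 h2
      _ = 2 * R := by ring
  have hL2R : L ≤ 2 * R := by
    have h1 := hdist _ heL _ he
    rw [add_sub_cancel_left, norm_smul, hu, mul_one, Real.norm_eq_abs, abs_of_pos hL] at h1
    exact h1
  -- m and η
  obtain ⟨m, hmdef⟩ : ∃ m : ℝ, m = 6 * δ * L * (R / ρ) ^ 2 := ⟨_, rfl⟩
  have hRρ : 1 ≤ (R / ρ) ^ 2 := by
    have : 1 ≤ R / ρ := by rwa [one_le_div hρ]
    nlinarith
  have hδRρ : δ * (R / ρ) ^ 2 ≤ 1 / 24 := by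
    have h1 : δ * (R / ρ) ^ 2 ≤ ρ ^ 2 / (24 * R ^ 2) * (R / ρ) ^ 2 :=
      mul_le_mul_of_nonneg_right hδs (by positivity)
    have h2 : ρ ^ 2 / (24 * R ^ 2) * (R / ρ) ^ 2 = 1 / 24 := by
      field_simp
    linarith
  have hm0 : 0 < m := by rw [hmdef]; positivity
  have hmL4 : m ≤ L / 4 := by
    have : m = 6 * L * (δ * (R / ρ) ^ 2) := by rw [hmdef]; ring
    rw [this]
    nlinarith
  have hmδ : δ * L / 2 ≤ m := by
    have : m = 6 * (δ * L) * (R / ρ) ^ 2 := by rw [hmdef]; ring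
    rw [this]
    have : 0 ≤ δ * L := by positivity
    nlinarith
  have hmL : m < L := by linarith
  -- good ray
  obtain ⟨w, hw, hwu, hplane, r, z_r, hr, hrK, hmax, H1⟩ :=
    good_ray hE u hu hK hKc c hρ hin hout e he heL hL hδ (by linarith) hext hmdef.ge hmL
  have hr0 : 0 < r := by linarith
  have hη0 : 0 < 2 * m := by linarith
  have hηL : 2 * m < 2 * L := by linarith
  have H1' : ∀ t z₁ z₂ : ℝ, 0 ≤ t → e + t • w + z₁ • u ∈ K → e + t • w + z₂ • u ∈ K →
      z₂ - z₁ ≤ L * (1 - t / r) + 2 * m / 2 := by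
    intro t z₁ z₂ ht h1 h2
    have := H1 t z₁ z₂ ht h1 h2
    linarith
  have H2' : ∀ t z₁ z₂ : ℝ, e + t • w + z₁ • u ∈ K → e + t • w + z₂ • u ∈ K →
      z₂ - z₁ ≤ L + 2 * m / 2 := by
    intro t z₁ z₂ h1 h2
    by_cases hz : z₂ ≤ z₁
    · linarith
    · push_neg at hz
      have h3 : e + t • w + z₁ • u + (z₂ - z₁) • u ∈ K := by
        have : e + t • w + z₁ • u + (z₂ - z₁) • u = e + t • w + z₂ • u := by module
        rw [this]
        exact h2
      have h4 := hchord _ _ (by linarith) h1 h3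
      nlinarith
  have hplanar := planar_lemma hKc e u w hL hη0 hηL hr0 hI he heL hrK hmax H1' H2'
  -- coordinates of the far point
  have huw : inner ℝ u w = 0 := by rw [real_inner_comm]; exact hwu
  have hww : inner ℝ w w = (1 : ℝ) := by rw [real_inner_self_eq_norm_sq, hw]; norm_num
  have huu : inner ℝ u u = (1 : ℝ) := by rw [real_inner_self_eq_norm_sq, hu]; norm_num
  have hr2R : r ≤ 2 * R := by
    have h1 := hdist _ hrK _ he
    have h2 : inner ℝ (e + r • w + z_r • u - e) w = r := by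
      have : e + r • w + z_r • u - e = r • w + z_r • u := by module
      rw [this, inner_add_left, inner_smul_left, inner_smul_left, hww, huw]
      simp
    have h3 := real_inner_le_norm (e + r • w + z_r • u - e) w
    rw [h2, hw, mul_one] at h3
    linarith
  have hzr : |z_r| ≤ 2 * R := by
    have h1 := hdist _ hrK _ he
    have h2 : inner ℝ (e + r • w + z_r • u - e) u = z_r := by
      have : e + r • w + z_r • u - e = r • w + z_r • u := by module
      rw [this, inner_add_left, inner_smul_left, inner_smul_left, huu, hwu]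
      simp
    have h3 := abs_real_inner_le_norm (e + r • w + z_r • u - e) u
    rw [h2, hu, mul_one] at h3
    linarith
  have hzrL : |z_r - L| ≤ 2 * R := by
    have h1 := hdist _ hrK _ heL
    have h2 : inner ℝ (e + r • w + z_r • u - (e + L • u)) u = z_r - L := by
      have : e + r • w + z_r • u - (e + L • u) = r • w + (z_r - L) • u := by module
      rw [this, inner_add_left, inner_smul_left, inner_smul_left, huu, hwu]
      simp
    have h3 := abs_real_inner_le_norm (e + r • w + z_r • u - (e + L • u)) u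
    rw [h2, hu, mul_one] at h3
    linarith
  have habs : ∀ x : ℝ, |x| ≤ 2 * R → |x / r| ≤ 4 * R / ρ := by
    intro x hx
    rw [abs_div, abs_of_pos hr0, div_le_div_iff₀ hr0 hρ]
    have : 0 ≤ |x| := abs_nonneg x
    nlinarith
  obtain ⟨D, hDdef⟩ : ∃ D : ℝ, D = (L - 2 * m / 2) / (2 * r) := ⟨_, rfl⟩
  rw [← hDdef] at hplanar
  have hD1 : 3 * ρ / (16 * R) ≤ D := by
    rw [hDdef, div_le_div_iff₀ (by positivity) (by positivity)]
    nlinarith
  have hD2 : D ≤ 2 * R / ρ := by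
    rw [hDdef, div_le_div_iff₀ (by positivity) hρ]
    nlinarith
  have hD0 : 0 < D := lt_of_lt_of_le (by positivity) hD1
  have hηR : 2 * m ≤ R := by linarith
  have hηstar : 2 * m ≤ 24 * δ * R ^ 3 / ρ ^ 2 := by
    have h1 : 2 * m = 12 * δ * R ^ 2 / ρ ^ 2 * L := by
      rw [hmdef]
      field_simp
      ring
    have h2 : 24 * δ * R ^ 3 / ρ ^ 2 = 12 * δ * R ^ 2 / ρ ^ 2 * (2 * R) := by
      field_simp
      ring
    rw [h1, h2]
    exact mul_le_mul_of_nonneg_left hL2R (by positivity)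
  have hs0 : 0 ≤ ρ ^ 5 / (3000 * R ^ 5) := by positivity
  refine ⟨hρL, ?_⟩
  rcases hplanar with halt | halt
  · -- the top end is sharp
    right
    have h := sharp_of_alt (K := K) hKc c hρ hinc hout u w hu hw hwu e (L := L) (η := 2 * m)
      (a := (z_r - L) / r) (D := D) heL hη0 hD0 hplane halt
    exact h.mono hηstar hs0
      (lemmas_const hρ hρR hη0 hηR (abs_nonneg _) (habs _ hzrL) hD1 hD2)
  · -- the bottom end is sharp
    left
    have hwu' : inner ℝ w (-u) = 0 := by rw [inner_neg_right, hwu, neg_zero]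
    have heL' : e + L • u + L • (-u) ∈ K := by
      have : e + L • u + L • (-u) = e := by module
      rw [this]
      exact he
    have hplane' : ‖(e + L • u - c) - inner ℝ (e + L • u - c) w • w -
        inner ℝ (e + L • u - c) (-u) • (-u)‖ ≤ ρ / 2 := by
      have h1 : inner ℝ (e + L • u - c) w = inner ℝ (e - c) w := by
        have : e + L • u - c = (e - c) + L • u := by module
        rw [this, inner_add_left, inner_smul_left, huw]
        simp
      have h2 : inner ℝ (e + L • u - c) (-u) = -(inner ℝ (e - c) u + L) := by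
        have : e + L • u - c = (e - c) + L • u := by module
        rw [this, inner_neg_right, inner_add_left, inner_smul_left, huu]
        simp
      have h3 : (e + L • u - c) - inner ℝ (e + L • u - c) w • w -
          inner ℝ (e + L • u - c) (-u) • (-u) =
          (e - c) - inner ℝ (e - c) w • w - inner ℝ (e - c) u • u := by
        rw [h1, h2]
        generalize inner ℝ (e - c) w = A
        generalize inner ℝ (e - c) u = B
        module
      rw [h3]
      exact hplane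
    have halt' : ∀ t z : ℝ, e + L • u + t • w + z • (-u) ∈ K →
        z ≤ L + 2 * m + (-(z_r / r)) * t ∧ z ≤ L + 2 * m + (-(z_r / r) + D) * t := by
      intro t z hz
      have h1 : e + L • u + t • w + z • (-u) = e + t • w + (L - z) • u := by module
      rw [h1] at hz
      obtain ⟨h2, h3⟩ := halt t (L - z) hz
      constructor
      · linarith
      · have : (-(z_r / r) + D) * t = -((z_r / r - D) * t) := by ring
        linarith
    have hun : ‖-u‖ = 1 := by rw [norm_neg]; exact hu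
    have h := sharp_of_alt (K := K) hKc c hρ hinc hout (-u) w hun hw hwu'
      (e + L • u) (L := L) (η := 2 * m) (a := -(z_r / r)) (D := D) heL' hη0 hD0 hplane' halt'
    have he' : e + L • u + L • (-u) = e := by module
    have h' : Sharp K (2 * m) (ρ ^ 2 * D / (4 * (R + 2 * m) ^ 2 * (1 + |-(z_r / r)|) *
        (1 + |-(z_r / r)| + D))) e := he' ▸ h
    refine h'.mono hηstar hs0 ?_
    have := lemmas_const hρ hρR hη0 hηR (abs_nonneg (-(z_r / r)))
      (by rw [abs_neg]; exact habs _ hzr) hD1 hD2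
    exact this

end Vale.Agent.H15.GenK
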