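import Vale.Agent.H15.GenK.Defs

/-!
# General convex bodies (P243), row G16: the weighted length of a line

`K` compact convex (3-dimensional, `0 < vol K`), `N ⊆ K` compact containing every point of `K`
within `d₀` of a sharp point, `hS`: every `δ`-extremal full chord has length `≥ d₀` and a sharp
end; all chords along `u` have length `≤ 2 Rr`, and `δ Rr ≤ κ d₀`.  Then on every line
`b + ℝ u`: `|l ∩ (K \ N)| + (1 - κ) |l ∩ N| ≤ (3 - δ) vol K / |π_u K|`.

LEAN ROW G16 (`line_bound`), uses `Vale.Agent.H5.P243.cone_bound` and `shadow_pos`.  Sketch: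
`V := (volume K).toReal > 0`, `A := (volume (proj '' K)).toReal > 0` (`shadow_pos`, compact),
`F := (3 - δ) V / A`.  `I := {t | (b : E) + t • u ∈ K}` is compact and convex (preimage under a
continuous affine map).  If `I = ∅` the left side is `0`.  Otherwise `I = Icc α β`
(`IsCompact.exists_isLeast`, `exists_isGreatest`, `Convex.ordConnected`), `L := β - α ≥ 0`,
`e := b + α • u`; `{t | ... ∈ K \ N}` and `{t | ... ∈ N} =: J` are disjoint measurable with union
`I`, so the left side is `≤ ofReal L` always, and `= ofReal L - ofReal κ * volume J` (finite).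
* If `L = 0`: left side `≤ 0`.
* If not `ofReal (3 - δ) * volume K ≤ ofReal L * volume (proj '' K)`: then `L A < (3 - δ) V`,
  `L ≤ F`.
* Otherwise (`L > 0`): `hS e L` (the chord `e, e + L • u`; `hI` from `I = Icc α β` after the shift
  `t ↦ t + α`) gives `d₀ ≤ L` and a sharp end.  If `e` is sharp: `Icc α (α + d₀) ⊆ J`
  (`dist (b + t • u) e = |t - α| ≤ d₀`, `hNn`); if `e + L • u` is sharp: `Icc (β - d₀) β ⊆ J`.
  So `volume J ≥ ofReal d₀` and the left side is `≤ L - κ d₀` (reals).  `cone_bound`:
  `L A ≤ 3 V`.  Extremality: `V / A ≤ L / (3 - δ) ≤ L / 2 ≤ Rr` (`hdiam`), so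
  `δ V / A ≤ δ Rr ≤ κ d₀` and `L - κ d₀ ≤ 3 V / A - δ V / A = F`.
-/

open MeasureTheory Set Module
open scoped ENNReal

namespace Vale.Agent.H15.GenK

variable {E : Type*} [NormedAddCommGroup E] [InnerProductSpace ℝ E] [FiniteDimensional ℝ E]
  [MeasurableSpace E] [BorelSpace E]

theorem line_bound (hE : finrank ℝ E = 3) (u : E) (hu : ‖u‖ = 1) {K N : Set E}
    (hK : IsCompact K) (hKc : Convex ℝ K) (hN : IsCompact N) (hNK : N ⊆ K)
    (hV : 0 < volume K) {δ κ d₀ Rr η s : ℝ} (hδ0 : 0 < δ) (hδ1 : δ ≤ 1) (hκ0 : 0 ≤ κ)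
    (hκ1 : κ ≤ 1) (hd₀ : 0 < d₀)
    (hdiam : ∀ x ∈ K, ∀ t : ℝ, x + t • u ∈ K → t ≤ 2 * Rr)
    (hnum : δ * Rr ≤ κ * d₀)
    (hS : ∀ (e : E) (L : ℝ), 0 < L → e ∈ K → e + L • u ∈ K →
      (∀ t : ℝ, e + t • u ∈ K → 0 ≤ t ∧ t ≤ L) →
      ENNReal.ofReal (3 - δ) * volume K ≤
        ENNReal.ofReal L * volume ((Submodule.span ℝ {u})ᗮ.orthogonalProjectionOnto '' K) →
      d₀ ≤ L ∧ (Sharp K η s e ∨ Sharp K η s (e + L • u)))
    (hNn : ∀ e : E, Sharp K η s e → ∀ x ∈ K, dist x e ≤ d₀ → x ∈ N)
    (b : ↥(Submodule.span ℝ {u})ᗮ) :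
    volume {t : ℝ | (b : E) + t • u ∈ K \ N} +
        ENNReal.ofReal (1 - κ) * volume {t : ℝ | (b : E) + t • u ∈ N} ≤
      ENNReal.ofReal ((3 - δ) * (volume K).toReal /
        (volume ((Submodule.span ℝ {u})ᗮ.orthogonalProjectionOnto '' K)).toReal) := by
  classical
  have hPc : IsCompact ((Submodule.span ℝ {u})ᗮ.orthogonalProjectionOnto '' K) :=
    hK.image (ContinuousLinearMap.continuous _)
  have hAfin : volume ((Submodule.span ℝ {u})ᗮ.orthogonalProjectionOnto '' K) < ⊤ :=
    hPc.measure_lt_top
  have hApos : 0 < volume ((Submodule.span ℝ {u})ᗮ.orthogonalProjectionOnto '' K) :=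
    Vale.Agent.H5.P243.shadow_pos hE u hu hK hV
  have hVfin : volume K < ⊤ := hK.measure_lt_top
  obtain ⟨Ak, hAkdef⟩ : ∃ Ak : ℝ≥0∞,
      Ak = volume ((Submodule.span ℝ {u})ᗮ.orthogonalProjectionOnto '' K) := ⟨_, rfl⟩
  rw [← hAkdef] at hAfin hApos hS ⊢
  have hcone0 : ∀ {y : E} {r : ℝ}, 0 ≤ r → y ∈ K → y + r • u ∈ K →
      ENNReal.ofReal r * Ak ≤ 3 * volume K := by
    intro y r hr hy hyr
    rw [hAkdef]
    exact Vale.Agent.H5.P243.cone_bound hE u hu hK hKc hr hy hyr
  clear hAkdef
  have hVpos : 0 < (volume K).toReal := ENNReal.toReal_pos hV.ne' hVfin.ne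
  have hApos' : 0 < Ak.toReal := ENNReal.toReal_pos hApos.ne' hAfin.ne
  have h3δ : 0 ≤ 3 - δ := by linarith
  have hF0 : 0 ≤ (3 - δ) * (volume K).toReal / Ak.toReal := by positivity
  -- the sections of the line
  have hgc : Continuous fun t : ℝ => (b : E) + t • u :=
    continuous_const.add (continuous_id.smul continuous_const)
  obtain ⟨I, hIdef⟩ : ∃ I : Set ℝ, I = {t : ℝ | (b : E) + t • u ∈ K} := ⟨_, rfl⟩
  obtain ⟨J, hJdef⟩ : ∃ J : Set ℝ, J = {t : ℝ | (b : E) + t • u ∈ N} := ⟨_, rfl⟩
  have hImem : ∀ t, t ∈ I ↔ (b : E) + t • u ∈ K := by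
    intro t
    rw [hIdef]
    rfl
  have hJmem : ∀ t, t ∈ J ↔ (b : E) + t • u ∈ N := by
    intro t
    rw [hJdef]
    rfl
  have hDeq : {t : ℝ | (b : E) + t • u ∈ K \ N} = I \ J := by
    ext t
    rw [Set.mem_sdiff, hImem, hJmem]
    rfl
  rw [hDeq, ← hJdef]
  have hIclosed : IsClosed I := by
    rw [hIdef]
    exact hK.isClosed.preimage hgc
  have hJclosed : IsClosed J := by
    rw [hJdef]
    exact hN.isClosed.preimage hgc
  have hJI : J ⊆ I := fun t ht => (hImem t).mpr (hNK ((hJmem t).mp ht))
  have hJm : MeasurableSet J := hJclosed.measurableSet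
  have hIbdd : Bornology.IsBounded I := by
    obtain ⟨R, hR⟩ := hK.isBounded.exists_norm_le
    refine (Metric.isBounded_iff_subset_closedBall 0).mpr ⟨R + ‖(b : E)‖, ?_⟩
    intro t ht
    have h1 := hR _ ((hImem t).mp ht)
    have h2 : ‖t • u‖ = |t| := by rw [norm_smul, hu, mul_one, Real.norm_eq_abs]
    have h3 : t • u = ((b : E) + t • u) - (b : E) := by abel
    have h4 : |t| ≤ R + ‖(b : E)‖ := by
      rw [← h2, h3]
      exact (norm_sub_le _ _).trans (by linarith)
    rw [Metric.mem_closedBall, Real.dist_eq, sub_zero]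
    exact h4
  have hIcomp : IsCompact I := Metric.isCompact_of_isClosed_isBounded hIclosed hIbdd
  have hIconv : Convex ℝ I := by
    intro t₁ h₁ t₂ h₂ a c ha hc hac
    rw [hImem] at h₁ h₂ ⊢
    have hb : a • (b : E) + c • (b : E) = (b : E) := by rw [← add_smul, hac, one_smul]
    have hcomb : (b : E) + (a • t₁ + c • t₂) • u =
        a • ((b : E) + t₁ • u) + c • ((b : E) + t₂ • u) := by
      rw [smul_add, smul_add, add_smul, smul_eq_mul, smul_eq_mul, mul_smul, mul_smul]
      nth_rewrite 1 [← hb]
      abel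
    rw [hcomb]
    exact hKc h₁ h₂ ha hc hac
  by_cases hIne : I.Nonempty
  swap
  · have hI0 : I = ∅ := Set.not_nonempty_iff_eq_empty.mp hIne
    have hJ0 : J = ∅ := Set.subset_eq_empty hJI hI0
    rw [hI0, hJ0]
    simp
  obtain ⟨α, hα⟩ := hIcomp.exists_isLeast hIne
  obtain ⟨β, hβ⟩ := hIcomp.exists_isGreatest hIne
  have hαβ : α ≤ β := hα.2 hβ.1
  have hIeq : I = Icc α β := by
    apply Set.Subset.antisymm
    · intro t ht
      exact ⟨hα.2 ht, hβ.2 ht⟩
    · exact hIconv.ordConnected.out hα.1 hβ.1
  have hL0 : 0 ≤ β - α := by linarith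
  have hvolI : volume I = ENNReal.ofReal (β - α) := by rw [hIeq, Real.volume_Icc]
  have hsum : volume (I \ J) + volume J = volume I := by
    have h := measure_sdiff_add_inter (μ := volume) I hJm
    rwa [Set.inter_eq_self_of_subset_right hJI] at h
  have hIfin : volume I < ⊤ := by
    rw [hvolI]
    exact ENNReal.ofReal_lt_top
  have hJfin : volume J < ⊤ := lt_of_le_of_lt (measure_mono hJI) hIfin
  have hDfin : volume (I \ J) < ⊤ := lt_of_le_of_lt (measure_mono Set.sdiff_subset) hIfin
  have hj0 : 0 ≤ (volume J).toReal := ENNReal.toReal_nonneg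
  have hd0 : 0 ≤ (volume (I \ J)).toReal := ENNReal.toReal_nonneg
  have hdj : (volume (I \ J)).toReal + (volume J).toReal = β - α := by
    rw [← ENNReal.toReal_add hDfin.ne hJfin.ne, hsum, hvolI, ENNReal.toReal_ofReal hL0]
  have hκ1' : 0 ≤ 1 - κ := by linarith
  -- the real inequality
  have hcore : (β - α) - κ * (volume J).toReal ≤ (3 - δ) * (volume K).toReal / Ak.toReal := by
    have hκj : 0 ≤ κ * (volume J).toReal := mul_nonneg hκ0 hj0
    by_cases hext : ENNReal.ofReal (3 - δ) * volume K ≤ ENNReal.ofReal (β - α) * Ak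
    · rcases hL0.eq_or_lt with hLz | hLpos
      · linarith
      · have heK : (b : E) + α • u ∈ K := (hImem α).mp hα.1
        have hβeq : (b : E) + α • u + (β - α) • u = (b : E) + β • u := by
          rw [add_assoc, ← add_smul]
          congr 2
          ring
        have hβK : (b : E) + α • u + (β - α) • u ∈ K := by
          rw [hβeq]
          exact (hImem β).mp hβ.1
        have hchord : ∀ t : ℝ, (b : E) + α • u + t • u ∈ K → 0 ≤ t ∧ t ≤ β - α := by
          intro t ht
          have h1 : (b : E) + α • u + t • u = (b : E) + (α + t) • u := by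
            rw [add_assoc, ← add_smul]
          rw [h1] at ht
          have h2 : α + t ∈ I := (hImem _).mpr ht
          rw [hIeq] at h2
          exact ⟨by linarith [h2.1], by linarith [h2.2]⟩
        obtain ⟨hdL, hsharp⟩ := hS ((b : E) + α • u) (β - α) hLpos heK hβK hchord hext
        have hjd : d₀ ≤ (volume J).toReal := by
          rcases hsharp with hsh | hsh
          · have hsub : Icc α (α + d₀) ⊆ J := by
              intro t ht
              have htI : t ∈ I := by
                rw [hIeq]
                exact ⟨ht.1, by linarith [ht.2]⟩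
              rw [hJmem]
              refine hNn _ hsh _ ((hImem t).mp htI) ?_
              rw [dist_eq_norm]
              have h5 : (b : E) + t • u - ((b : E) + α • u) = (t - α) • u := by
                rw [sub_smul]
                abel
              rw [h5, norm_smul, hu, mul_one, Real.norm_eq_abs, abs_le]
              exact ⟨by linarith [ht.1], by linarith [ht.2]⟩
            have hm := measure_mono (μ := volume) hsub
            rw [Real.volume_Icc] at hm
            have hm2 : ENNReal.ofReal d₀ ≤ volume J := by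
              have h6 : α + d₀ - α = d₀ := by ring
              rwa [h6] at hm
            exact (ENNReal.ofReal_le_iff_le_toReal hJfin.ne).mp hm2
          · rw [hβeq] at hsh
            have hsub : Icc (β - d₀) β ⊆ J := by
              intro t ht
              have htI : t ∈ I := by
                rw [hIeq]
                exact ⟨by linarith [ht.1], ht.2⟩
              rw [hJmem]
              refine hNn _ hsh _ ((hImem t).mp htI) ?_
              rw [dist_eq_norm]
              have h5 : (b : E) + t • u - ((b : E) + β • u) = (t - β) • u := by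
                rw [sub_smul]
                abel
              rw [h5, norm_smul, hu, mul_one, Real.norm_eq_abs, abs_le]
              exact ⟨by linarith [ht.1], by linarith [ht.2]⟩
            have hm := measure_mono (μ := volume) hsub
            rw [Real.volume_Icc] at hm
            have hm2 : ENNReal.ofReal d₀ ≤ volume J := by
              have h6 : β - (β - d₀) = d₀ := by ring
              rwa [h6] at hm
            exact (ENNReal.ofReal_le_iff_le_toReal hJfin.ne).mp hm2
        have hcone := hcone0 hLpos.le heK hβK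
        have h3fin : (3 : ℝ≥0∞) * volume K ≠ ⊤ :=
          ENNReal.mul_ne_top (by norm_num) hVfin.ne
        have hLAfin : ENNReal.ofReal (β - α) * Ak ≠ ⊤ :=
          ENNReal.mul_ne_top ENNReal.ofReal_ne_top hAfin.ne
        have h3 : (β - α) * Ak.toReal ≤ 3 * (volume K).toReal := by
          have h := ENNReal.toReal_mono h3fin hcone
          rw [ENNReal.toReal_mul, ENNReal.toReal_mul, ENNReal.toReal_ofReal hL0] at h
          simpa using h
        have h4 : (3 - δ) * (volume K).toReal ≤ (β - α) * Ak.toReal := by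
          have h := ENNReal.toReal_mono hLAfin hext
          rw [ENNReal.toReal_mul, ENNReal.toReal_mul, ENNReal.toReal_ofReal hL0,
            ENNReal.toReal_ofReal h3δ] at h
          exact h
        have h5 : β - α ≤ 2 * Rr := hdiam _ heK _ hβK
        have h6 : (volume K).toReal / Ak.toReal ≤ Rr := by
          rw [div_le_iff₀ hApos']
          nlinarith
        have h7 : β - α ≤ 3 * (volume K).toReal / Ak.toReal := by
          rw [le_div_iff₀ hApos']
          exact h3
        have h8 : δ * ((volume K).toReal / Ak.toReal) ≤ κ * (volume J).toReal :=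
          calc δ * ((volume K).toReal / Ak.toReal) ≤ δ * Rr :=
                mul_le_mul_of_nonneg_left h6 hδ0.le
            _ ≤ κ * d₀ := hnum
            _ ≤ κ * (volume J).toReal := mul_le_mul_of_nonneg_left hjd hκ0
        have h9 : (3 - δ) * (volume K).toReal / Ak.toReal =
            3 * (volume K).toReal / Ak.toReal - δ * ((volume K).toReal / Ak.toReal) := by ring
        linarith
    · have hlt : ENNReal.ofReal (β - α) * Ak < ENNReal.ofReal (3 - δ) * volume K := not_le.mp hext
      have hfin : ENNReal.ofReal (3 - δ) * volume K ≠ ⊤ :=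
        ENNReal.mul_ne_top ENNReal.ofReal_ne_top hVfin.ne
      have h := ENNReal.toReal_strict_mono hfin hlt
      rw [ENNReal.toReal_mul, ENNReal.toReal_mul, ENNReal.toReal_ofReal hL0,
        ENNReal.toReal_ofReal h3δ] at h
      have h7 : β - α ≤ (3 - δ) * (volume K).toReal / Ak.toReal := by
        rw [le_div_iff₀ hApos']
        exact h.le
      linarith
  -- back to extended reals
  have hDof : volume (I \ J) = ENNReal.ofReal (volume (I \ J)).toReal :=
    (ENNReal.ofReal_toReal hDfin.ne).symm
  have hJof : volume J = ENNReal.ofReal (volume J).toReal :=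
    (ENNReal.ofReal_toReal hJfin.ne).symm
  rw [hDof, hJof, ← ENNReal.ofReal_mul hκ1', ← ENNReal.ofReal_add hd0 (mul_nonneg hκ1' hj0)]
  apply ENNReal.ofReal_le_ofReal
  nlinarith [hdj, hcore]

end Vale.Agent.H15.GenK
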