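import Mathlib

/-!
# General convex bodies (P243), row G17: the constants

For `0 < ρ ≤ R` put `δ := (ρ/R)^15 / 9720000000²`, `η := 24 δ R³/ρ²`, `s := ρ⁵/(3000 R⁵)`,
`κ := (ρ/R)^8 / (6 * 9720000000)`, `d₀ := √(2 ρ η)`.  The inequalities needed by the final
assembly.

LEAN ROW G17 (`genK_numerics`, proved).  Sketch: `x := ρ/R ∈ (0, 1]`, `C := 9720000000`.
`δ = x^15/C² ≤ x²/24 = ρ²/(24 R²)` and `δ ≤ 1`; `2 η = 48 δ ρ / x³ ≤ ρ` since `δ ≤ x³/48`;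
`135000 η/(s ρ) = 135000 * 24 * 3000 δ (R/ρ)^8 = C δ / x^8`, so `κ * (135000 η/(s ρ)) = δ/6`;
`κ ≤ 1`; `d₀² = 2 ρ η = 48 δ R³/ρ`, `d₀ ≤ ρ` from `2 η ≤ ρ`; ` (δ R)² ≤ κ² d₀²` iff
`δ ≤ 48 κ² R/ρ = (4/3) x^15/C²`, true; take square roots (`Real.le_sqrt`, `abs_le_abs`,
or `pow_le_pow_left` on nonnegative numbers).
-/

namespace Vale.Agent.H15.GenK

/-- The twelve statements in the variables `x = ρ / R` and `R`. -/
theorem numerics_core {x R : ℝ} (hx : 0 < x) (hx1 : x ≤ 1) (hR : 0 < R) :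
    0 < x ^ 15 / 9720000000 ^ 2 ∧
    x ^ 15 / 9720000000 ^ 2 ≤ (x * R) ^ 2 / (24 * R ^ 2) ∧
    x ^ 15 / 9720000000 ^ 2 ≤ 1 ∧
    0 < 24 * x ^ 13 * R / 9720000000 ^ 2 ∧
    2 * (24 * x ^ 13 * R / 9720000000 ^ 2) ≤ x * R ∧
    0 < x ^ 5 / 3000 ∧
    0 ≤ x ^ 8 / (6 * 9720000000) ∧
    x ^ 8 / (6 * 9720000000) ≤ 1 ∧
    x ^ 8 / (6 * 9720000000) *
        (135000 * (24 * x ^ 13 * R / 9720000000 ^ 2) / (x ^ 5 / 3000 * (x * R))) =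
      x ^ 15 / 9720000000 ^ 2 / 6 ∧
    0 < √(2 * (x * R) * (24 * x ^ 13 * R / 9720000000 ^ 2)) ∧
    √(2 * (x * R) * (24 * x ^ 13 * R / 9720000000 ^ 2)) ≤ x * R ∧
    x ^ 15 / 9720000000 ^ 2 * R ≤
      x ^ 8 / (6 * 9720000000) * √(2 * (x * R) * (24 * x ^ 13 * R / 9720000000 ^ 2)) := by
  have h15 : x ^ 15 ≤ 1 := pow_le_one₀ hx.le hx1
  have h15_2 : x ^ 15 ≤ x ^ 2 := pow_le_pow_of_le_one hx.le hx1 (by norm_num)
  have h13 : x ^ 13 ≤ x := by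
    have h := pow_le_pow_of_le_one hx.le hx1 (show 1 ≤ 13 by norm_num)
    rwa [pow_one] at h
  have h8 : x ^ 8 ≤ 1 := pow_le_one₀ hx.le hx1
  have hxR : 0 < x * R := mul_pos hx hR
  have p15 : 0 < x ^ 15 := pow_pos hx 15
  have p13 : 0 < x ^ 13 := pow_pos hx 13
  have p2 : 0 < x ^ 2 := pow_pos hx 2
  have h5 : 2 * (24 * x ^ 13 * R / 9720000000 ^ 2) ≤ x * R := by
    rw [show 2 * (24 * x ^ 13 * R / 9720000000 ^ 2) = x ^ 13 * R * (48 / 9720000000 ^ 2) by ring]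
    have h1 : x ^ 13 * R ≤ x * R := mul_le_mul_of_nonneg_right h13 hR.le
    have h2 : x ^ 13 * R * (48 / 9720000000 ^ 2) ≤ x ^ 13 * R * 1 :=
      mul_le_mul_of_nonneg_left (by norm_num) (by positivity)
    linarith
  have hZ : 2 * (x * R) * (24 * x ^ 13 * R / 9720000000 ^ 2) ≤ (x * R) ^ 2 := by
    have h := mul_le_mul_of_nonneg_left h5 hxR.le
    nlinarith [h]
  have hZpos : 0 < 2 * (x * R) * (24 * x ^ 13 * R / 9720000000 ^ 2) := by positivity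
  refine ⟨by positivity, ?_, ?_, by positivity, h5, by positivity, by positivity, ?_, ?_,
    Real.sqrt_pos.mpr hZpos, ?_, ?_⟩
  · rw [show (x * R) ^ 2 / (24 * R ^ 2) = x ^ 2 / 24 by field_simp]
    have h1 : x ^ 15 / 9720000000 ^ 2 ≤ x ^ 15 / 24 :=
      div_le_div_of_nonneg_left p15.le (by norm_num) (by norm_num)
    have h2 : x ^ 15 / 24 ≤ x ^ 2 / 24 := div_le_div_of_nonneg_right h15_2 (by norm_num)
    linarith
  · have h1 : x ^ 15 / 9720000000 ^ 2 ≤ x ^ 15 / 1 :=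
      div_le_div_of_nonneg_left p15.le (by norm_num) (by norm_num)
    rw [div_one] at h1
    linarith
  · have h1 : x ^ 8 / (6 * 9720000000) ≤ x ^ 8 / 1 :=
      div_le_div_of_nonneg_left (pow_pos hx 8).le (by norm_num) (by norm_num)
    rw [div_one] at h1
    linarith
  · field_simp
    norm_num
  · calc √(2 * (x * R) * (24 * x ^ 13 * R / 9720000000 ^ 2)) ≤ √((x * R) ^ 2) :=
          Real.sqrt_le_sqrt hZ
      _ = x * R := Real.sqrt_sq hxR.le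
  · have hk : 0 ≤ x ^ 8 / (6 * 9720000000) := by positivity
    have hsq : (x ^ 15 / 9720000000 ^ 2 * R) ^ 2
        ≤ (x ^ 8 / (6 * 9720000000)) ^ 2
          * (2 * (x * R) * (24 * x ^ 13 * R / 9720000000 ^ 2)) := by
      have e1 : (x ^ 8 / (6 * 9720000000)) ^ 2
          * (2 * (x * R) * (24 * x ^ 13 * R / 9720000000 ^ 2))
          = (4 / 3) * (x ^ 15 / 9720000000 ^ 2 * R) ^ 2 := by
        field_simp
        ring
      rw [e1]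
      nlinarith [sq_nonneg (x ^ 15 / 9720000000 ^ 2 * R)]
    have h1 : x ^ 8 / (6 * 9720000000) * √(2 * (x * R) * (24 * x ^ 13 * R / 9720000000 ^ 2))
        = √((x ^ 8 / (6 * 9720000000)) ^ 2
          * (2 * (x * R) * (24 * x ^ 13 * R / 9720000000 ^ 2))) := by
      rw [Real.sqrt_mul (sq_nonneg _), Real.sqrt_sq hk]
    rw [h1]
    exact Real.le_sqrt_of_sq_le hsq

theorem genK_numerics {ρ R : ℝ} (hρ : 0 < ρ) (hρR : ρ ≤ R) :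
    0 < (ρ / R) ^ 15 / 9720000000 ^ 2 ∧
    (ρ / R) ^ 15 / 9720000000 ^ 2 ≤ ρ ^ 2 / (24 * R ^ 2) ∧
    (ρ / R) ^ 15 / 9720000000 ^ 2 ≤ 1 ∧
    0 < 24 * ((ρ / R) ^ 15 / 9720000000 ^ 2) * R ^ 3 / ρ ^ 2 ∧
    2 * (24 * ((ρ / R) ^ 15 / 9720000000 ^ 2) * R ^ 3 / ρ ^ 2) ≤ ρ ∧
    0 < ρ ^ 5 / (3000 * R ^ 5) ∧
    0 ≤ (ρ / R) ^ 8 / (6 * 9720000000) ∧
    (ρ / R) ^ 8 / (6 * 9720000000) ≤ 1 ∧
    (ρ / R) ^ 8 / (6 * 9720000000) *
        (135000 * (24 * ((ρ / R) ^ 15 / 9720000000 ^ 2) * R ^ 3 / ρ ^ 2) /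
          (ρ ^ 5 / (3000 * R ^ 5) * ρ)) =
      (ρ / R) ^ 15 / 9720000000 ^ 2 / 6 ∧
    0 < √(2 * ρ * (24 * ((ρ / R) ^ 15 / 9720000000 ^ 2) * R ^ 3 / ρ ^ 2)) ∧
    √(2 * ρ * (24 * ((ρ / R) ^ 15 / 9720000000 ^ 2) * R ^ 3 / ρ ^ 2)) ≤ ρ ∧
    (ρ / R) ^ 15 / 9720000000 ^ 2 * R ≤
      (ρ / R) ^ 8 / (6 * 9720000000) *
        √(2 * ρ * (24 * ((ρ / R) ^ 15 / 9720000000 ^ 2) * R ^ 3 / ρ ^ 2)) := by
  have hR : 0 < R := lt_of_lt_of_le hρ hρR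
  obtain ⟨x, hxdef⟩ : ∃ x, x = ρ / R := ⟨_, rfl⟩
  have hx : 0 < x := by rw [hxdef]; positivity
  have hx1 : x ≤ 1 := by rw [hxdef, div_le_one hR]; exact hρR
  have hρx : ρ = x * R := by rw [hxdef]; field_simp
  rw [← hxdef]
  clear hxdef
  subst hρx
  have hη : 24 * (x ^ 15 / 9720000000 ^ 2) * R ^ 3 / (x * R) ^ 2
      = 24 * x ^ 13 * R / 9720000000 ^ 2 := by
    field_simp
  have hs : (x * R) ^ 5 / (3000 * R ^ 5) = x ^ 5 / 3000 := by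
    field_simp
  rw [hη, hs]
  exact numerics_core hx hx1 hR

end Vale.Agent.H15.GenK
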