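import Vale.Agent.H5.P243.UFubini
import Vale.Agent.H9.GenK.WFubini

/-!
# General convex bodies (P243), row G15: Fubini along `u` for the weight `1 - κ 1_N`

`N ⊆ K` compact, `u` a unit vector, `0 ≤ κ ≤ 1`, `F ≥ 0`.  If on every line `b + ℝ u`
(`b ∈ u^⊥`) the weighted length `|l ∩ (K \ N)| + (1 - κ) |l ∩ N|` is at most `F`, then for every
measurable base `B ⊆ u^⊥` the weighted volume of the part of `K` in the cylinder over `B` is at
most `F |B|`.

LEAN ROW G15 (`weighted_fubini`).  Sketch (as in `Vale.Agent.H5.P243.chord_fubini`):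
`Ψ := Vale.Agent.H76.splitEquiv u hu` is measure preserving
(`Vale.Agent.H76.splitEquiv_measurePreserving`), ` (Ψ x).1 = proj x`
(`Vale.Agent.H76.splitEquiv_fst`), `Ψ.symm (b, t) = (b : E) + t • u` (`ufubini_symm`).  For a
measurable `A ⊆ E` (`A = K \ N` or `A = N`):
`volume (A ∩ proj ⁻¹' B) = (volume.prod volume) (Ψ.symm ⁻¹' A ∩ B ×ˢ univ)
 = ∫⁻ b in B, volume {t | (b : E) + t • u ∈ A}` (`Measure.prod_apply`, sections
`Prod.mk b ⁻¹' _`, `lintegral_indicator`).  Add the two integrals (`lintegral_add_left`,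
`lintegral_const_mul`; the section measures are measurable functions of `b` by
`measurable_measure_prodMk_left`) and bound the integrand by `ofReal F` (`hline`,
`setLIntegral_const`).
-/

open MeasureTheory Set Module
open scoped ENNReal

namespace Vale.Agent.H15.GenK

variable {E : Type*} [NormedAddCommGroup E] [InnerProductSpace ℝ E] [FiniteDimensional ℝ E]
  [MeasurableSpace E] [BorelSpace E]

theorem weighted_fubini (u : E) (hu : ‖u‖ = 1) {K N : Set E} (hK : IsCompact K)
    (hN : IsCompact N) (hNK : N ⊆ K) {κ F : ℝ} (hκ0 : 0 ≤ κ) (hκ1 : κ ≤ 1) (hF : 0 ≤ F)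
    (hline : ∀ b : ↥(Submodule.span ℝ {u})ᗮ,
      volume {t : ℝ | (b : E) + t • u ∈ K \ N} +
        ENNReal.ofReal (1 - κ) * volume {t : ℝ | (b : E) + t • u ∈ N} ≤ ENNReal.ofReal F)
    {B : Set ↥(Submodule.span ℝ {u})ᗮ} (hB : MeasurableSet B) :
    volume ((K \ N) ∩ (Submodule.span ℝ {u})ᗮ.orthogonalProjectionOnto ⁻¹' B) +
        ENNReal.ofReal (1 - κ) *
          volume (N ∩ (Submodule.span ℝ {u})ᗮ.orthogonalProjectionOnto ⁻¹' B) ≤
      ENNReal.ofReal F * volume B := by
  apply Vale.Agent.H9.GenK.weighted_chord_fubini u hu hK hN hNK hκ0 hκ1 _ hB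
  intro b
  have hcont : Continuous fun t : ℝ => (b : E) + t • u := by fun_prop
  have hsN : MeasurableSet {t : ℝ | (b : E) + t • u ∈ N} :=
    (hN.isClosed.preimage hcont).measurableSet
  have hsplit : volume {t : ℝ | (b : E) + t • u ∈ K} =
      volume {t : ℝ | (b : E) + t • u ∈ K \ N} + volume {t : ℝ | (b : E) + t • u ∈ N} := by
    have hsub : {t : ℝ | (b : E) + t • u ∈ N} ⊆ {t : ℝ | (b : E) + t • u ∈ K} :=
      fun t ht => hNK ht
    have hdiff : {t : ℝ | (b : E) + t • u ∈ K \ N} =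
        {t : ℝ | (b : E) + t • u ∈ K} \ {t : ℝ | (b : E) + t • u ∈ N} := rfl
    rw [hdiff, ← measure_sdiff_add_inter {t : ℝ | (b : E) + t • u ∈ K} hsN,
      inter_eq_self_of_subset_right hsub]
  have hone : ENNReal.ofReal (1 - κ) + ENNReal.ofReal κ = 1 := by
    rw [← ENNReal.ofReal_add (by linarith) hκ0]
    simp
  rw [hsplit]
  calc volume {t : ℝ | (b : E) + t • u ∈ K \ N} + volume {t : ℝ | (b : E) + t • u ∈ N}
      = volume {t : ℝ | (b : E) + t • u ∈ K \ N} +
          (ENNReal.ofReal (1 - κ) + ENNReal.ofReal κ) *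
            volume {t : ℝ | (b : E) + t • u ∈ N} := by
        rw [hone, one_mul]
    _ = (volume {t : ℝ | (b : E) + t • u ∈ K \ N} +
          ENNReal.ofReal (1 - κ) * volume {t : ℝ | (b : E) + t • u ∈ N}) +
          ENNReal.ofReal κ * volume {t : ℝ | (b : E) + t • u ∈ N} := by
        rw [add_mul, add_assoc]
    _ ≤ ENNReal.ofReal F + ENNReal.ofReal κ * volume {t : ℝ | (b : E) + t • u ∈ N} :=
        add_le_add (hline b) le_rfl

end Vale.Agent.H15.GenK
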