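import Vale.Agent.H15.GenK.ExistsN
import Vale.Agent.H15.GenK.LemmaS
import Vale.Agent.H15.GenK.WFubini
import Vale.Agent.H15.GenK.LineBound
import Vale.Agent.H15.GenK.Numerics

/-!
# General convex bodies (P243), row G18: every cylinder covering of every convex body

`K` compact convex in a 3-dimensional Euclidean space with `ball c ρ ⊆ K ⊆ closedBall c R`,
covered by `m` cylinders with measurable bases `B i ⊆ (u i)^⊥`.  Then
`∑ |B i| / |π_i K| ≥ 1/3 + (ρ/R)^15 / (18 * 9720000000²)`.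

LEAN ROW G18 (`genK_space`), from the stubs `exists_N`, `lemma_S`, `weighted_fubini`,
`line_bound`, `genK_numerics`.  Sketch.  `ρ ≤ R` (`ball c ρ ⊆ closedBall c R`; e.g. the point
`c + ρ' • u 0`... if `m = 0` then `K = ∅`, impossible since `c ∈ K`; or argue with any unit
vector, the space is nontrivial).  `closedBall c ρ ⊆ K` (`closure_ball`, `K` closed).
`0 < volume K < ⊤`.  Constants: `δ := (ρ/R)^15 / 9720000000²`, `η := 24 δ R³/ρ²`,
`s := ρ⁵/(3000 R⁵)`, `κ := (ρ/R)^8/(6 * 9720000000)`, `d₀ := √(2 ρ η)`; all inequalities from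
`genK_numerics hρ hρR`.
`exists_N` (with `η, s`) gives `N`; `κ * (135000 η/(s ρ)) = δ/6`, so
`ofReal κ * volume N ≤ ofReal (δ/6) * volume K`.
For each `i`: `line_bound` with `Rr := R` (`hdiam`: `x, x + t • u ∈ closedBall c R` gives
`t ≤ ‖t • u‖ ≤ 2 R`), `hS` from `lemma_S` (`d₀ ≤ ρ ≤ L`), `hNn` from `exists_N`; then
`weighted_fubini` with `F i := (3 - δ) V / A i`
(`V := (volume K).toReal`, `A i := (volume (proj_i '' K)).toReal > 0` by `shadow_pos`):
`volume ((K \ N) ∩ C i) + ofReal (1 - κ) * volume (N ∩ C i) ≤ ofReal (F i) * volume (B i)`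
(`C i := proj_i ⁻¹' B i`), and `ofReal (F i) * volume (B i)
 = ofReal (3 - δ) * volume K * (volume (B i) / volume (proj_i '' K))`.
Sum: `K \ N ⊆ ⋃ (K \ N) ∩ C i`, `N ⊆ ⋃ N ∩ C i` (`measure_iUnion_fintype_le`), so
`volume K = volume (K \ N) + volume N
 = volume (K \ N) + ofReal (1 - κ) * volume N + ofReal κ * volume N
 ≤ ofReal (3 - δ) * volume K * Σ + ofReal (δ/6) * volume K`, where `Σ` is the sum of the claim.
Divide by `volume K`: `1 ≤ ofReal (3 - δ) * Σ + ofReal (δ/6)`; if `Σ = ⊤` done, else in reals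
`Σ ≥ (1 - δ/6)/(3 - δ) ≥ 1/3 + δ/18` (the end of `Vale.Agent.H5.P243.tetra_all_cylinders` is the
same computation).
-/

open MeasureTheory Set Module
open scoped ENNReal

namespace Vale.Agent.H15.GenK

variable {E : Type*} [NormedAddCommGroup E] [InnerProductSpace ℝ E] [FiniteDimensional ℝ E]
  [MeasurableSpace E] [BorelSpace E]

theorem genK_space (hE : finrank ℝ E = 3) (m : ℕ) {K : Set E} (hK : IsCompact K)
    (hKc : Convex ℝ K) (c : E) {ρ R : ℝ} (hρ : 0 < ρ) (hin : Metric.ball c ρ ⊆ K)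
    (hout : K ⊆ Metric.closedBall c R) (u : Fin m → E) (hu : ∀ i, ‖u i‖ = 1)
    (B : ∀ i, Set ↥(Submodule.span ℝ {u i})ᗮ) (hB : ∀ i, MeasurableSet (B i))
    (hcov : K ⊆ ⋃ i, (Submodule.span ℝ {u i})ᗮ.orthogonalProjectionOnto ⁻¹' B i) :
    ENNReal.ofReal (1 / 3 + (ρ / R) ^ 15 / (18 * 9720000000 ^ 2)) ≤
      ∑ i, volume (B i) /
        volume ((Submodule.span ℝ {u i})ᗮ.orthogonalProjectionOnto '' K) := by
  classical
  -- the radii
  have hcK : c ∈ K := hin (Metric.mem_ball_self hρ)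
  have hR0 : 0 ≤ R := by
    have h := hout hcK
    rw [Metric.mem_closedBall, dist_self] at h
    exact h
  have hρR : ρ ≤ R := by
    have : Nontrivial E := Module.nontrivial_of_finrank_pos (R := ℝ) (by rw [hE]; norm_num)
    obtain ⟨v, hv⟩ := exists_norm_eq E (zero_le_one (α := ℝ))
    by_contra hlt
    push Not at hlt
    have hnn : (0 : ℝ) ≤ (R + ρ) / 2 := by linarith
    have hmem : c + ((R + ρ) / 2) • v ∈ Metric.ball c ρ := by
      rw [Metric.mem_ball, dist_eq_norm, add_sub_cancel_left, norm_smul, hv, mul_one,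
        Real.norm_eq_abs, abs_of_nonneg hnn]
      linarith
    have h2 := hout (hin hmem)
    rw [Metric.mem_closedBall, dist_eq_norm, add_sub_cancel_left, norm_smul, hv, mul_one,
      Real.norm_eq_abs, abs_of_nonneg hnn] at h2
    linarith
  have hin' : Metric.closedBall c ρ ⊆ K := by
    rw [← closure_ball c hρ.ne']
    exact (IsClosed.closure_subset_iff hK.isClosed).2 hin
  have hVpos : 0 < volume K :=
    lt_of_lt_of_le (Metric.measure_ball_pos volume c hρ) (measure_mono hin)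
  have hVfin : volume K ≠ ⊤ := hK.measure_lt_top.ne
  -- the constants
  have eg : (1 : ℝ) / 3 + (ρ / R) ^ 15 / (18 * 9720000000 ^ 2) =
      1 / 3 + (ρ / R) ^ 15 / 9720000000 ^ 2 / 18 := by ring
  rw [eg]
  obtain ⟨hδ0, hδs, hδ1, hη0, hηρ, hs0, hκ0, hκ1, hκeq, hd0, hdρ, hnum⟩ := genK_numerics hρ hρR
  set δ : ℝ := (ρ / R) ^ 15 / 9720000000 ^ 2 with hδdef
  set η : ℝ := 24 * δ * R ^ 3 / ρ ^ 2 with hηdef
  set s : ℝ := ρ ^ 5 / (3000 * R ^ 5) with hsdef
  set κ : ℝ := (ρ / R) ^ 8 / (6 * 9720000000) with hκdef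
  set d₀ : ℝ := √(2 * ρ * η) with hd₀def
  -- the neighbourhood of the sharp points
  obtain ⟨N, hNc, hNK, hNvol, hNn⟩ := exists_N hE hK hKc c hρ hin' hη0 hηρ hs0
  have hNvol' : ENNReal.ofReal κ * volume N ≤ ENNReal.ofReal (δ / 6) * volume K := by
    calc ENNReal.ofReal κ * volume N
        ≤ ENNReal.ofReal κ * (ENNReal.ofReal (135000 * η / (s * ρ)) * volume K) := by gcongr
      _ = ENNReal.ofReal (δ / 6) * volume K := by
          rw [← mul_assoc, ← ENNReal.ofReal_mul hκ0, hκeq]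
  -- the shadows
  have hSpos : ∀ i, volume ((Submodule.span ℝ {u i})ᗮ.orthogonalProjectionOnto '' K) ≠ 0 :=
    fun i => (Vale.Agent.H5.P243.shadow_pos hE (u i) (hu i) hK hVpos).ne'
  have hSfin : ∀ i, volume ((Submodule.span ℝ {u i})ᗮ.orthogonalProjectionOnto '' K) ≠ ⊤ :=
    fun i => (hK.image
      (Submodule.span ℝ {u i})ᗮ.orthogonalProjectionOnto.continuous).measure_lt_top.ne
  -- one cylinder
  have hper : ∀ i,
      volume ((K \ N) ∩ (Submodule.span ℝ {u i})ᗮ.orthogonalProjectionOnto ⁻¹' B i) +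
        ENNReal.ofReal (1 - κ) *
          volume (N ∩ (Submodule.span ℝ {u i})ᗮ.orthogonalProjectionOnto ⁻¹' B i) ≤
      ENNReal.ofReal (3 - δ) * volume K * (volume (B i) /
        volume ((Submodule.span ℝ {u i})ᗮ.orthogonalProjectionOnto '' K)) := by
    intro i
    have hdiam : ∀ x ∈ K, ∀ t : ℝ, x + t • u i ∈ K → t ≤ 2 * R := by
      intro x hx t hxt
      have h1 := hout hx
      have h2 := hout hxt
      rw [Metric.mem_closedBall] at h1 h2
      have h3 : dist (x + t • u i) x ≤ 2 * R := by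
        calc dist (x + t • u i) x ≤ dist (x + t • u i) c + dist c x := dist_triangle _ _ _
          _ ≤ R + R := add_le_add h2 (by rw [dist_comm]; exact h1)
          _ = 2 * R := by ring
      rw [dist_eq_norm, add_sub_cancel_left, norm_smul, hu i, mul_one, Real.norm_eq_abs] at h3
      exact (le_abs_self t).trans h3
    have hS : ∀ (e : E) (L : ℝ), 0 < L → e ∈ K → e + L • u i ∈ K →
        (∀ t : ℝ, e + t • u i ∈ K → 0 ≤ t ∧ t ≤ L) →
        ENNReal.ofReal (3 - δ) * volume K ≤
          ENNReal.ofReal L *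
            volume ((Submodule.span ℝ {u i})ᗮ.orthogonalProjectionOnto '' K) →
        d₀ ≤ L ∧ (Sharp K η s e ∨ Sharp K η s (e + L • u i)) := by
      intro e L hL he heL hI hext
      obtain ⟨h1, h2⟩ :=
        lemma_S hE (u i) (hu i) hK hKc c hρ hin hout hδ0 hδs e hL he heL hI hext
      exact ⟨hdρ.trans h1, h2⟩
    have hline := fun b : ↥(Submodule.span ℝ {u i})ᗮ =>
      line_bound hE (u i) (hu i) hK hKc hNc hNK hVpos hδ0 hδ1 hκ0 hκ1 hd0 hdiam hnum hS hNn b
    have hA0 : 0 < (volume ((Submodule.span ℝ {u i})ᗮ.orthogonalProjectionOnto '' K)).toReal :=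
      ENNReal.toReal_pos (hSpos i) (hSfin i)
    have hF : 0 ≤ (3 - δ) * (volume K).toReal /
        (volume ((Submodule.span ℝ {u i})ᗮ.orthogonalProjectionOnto '' K)).toReal :=
      div_nonneg (mul_nonneg (by linarith) ENNReal.toReal_nonneg) hA0.le
    have h := weighted_fubini (u i) (hu i) hK hNc hNK hκ0 hκ1 hF hline (hB i)
    refine h.trans (le_of_eq ?_)
    rw [ENNReal.ofReal_div_of_pos hA0, ENNReal.ofReal_mul (by linarith),
      ENNReal.ofReal_toReal hVfin, ENNReal.ofReal_toReal (hSfin i), div_eq_mul_inv,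
      div_eq_mul_inv]
    ring
  -- summation
  have hcov1 : K \ N ⊆
      ⋃ i, ((K \ N) ∩ (Submodule.span ℝ {u i})ᗮ.orthogonalProjectionOnto ⁻¹' B i) := by
    intro x hx
    obtain ⟨i, hi⟩ := mem_iUnion.1 (hcov hx.1)
    exact mem_iUnion.2 ⟨i, hx, hi⟩
  have hcov2 : N ⊆
      ⋃ i, (N ∩ (Submodule.span ℝ {u i})ᗮ.orthogonalProjectionOnto ⁻¹' B i) := by
    intro x hx
    obtain ⟨i, hi⟩ := mem_iUnion.1 (hcov (hNK hx))
    exact mem_iUnion.2 ⟨i, hx, hi⟩
  have hm1 : volume (K \ N) ≤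
      ∑ i, volume ((K \ N) ∩ (Submodule.span ℝ {u i})ᗮ.orthogonalProjectionOnto ⁻¹' B i) :=
    (measure_mono hcov1).trans (measure_iUnion_fintype_le _ _)
  have hm2 : volume N ≤
      ∑ i, volume (N ∩ (Submodule.span ℝ {u i})ᗮ.orthogonalProjectionOnto ⁻¹' B i) :=
    (measure_mono hcov2).trans (measure_iUnion_fintype_le _ _)
  set S : ℝ≥0∞ := ∑ i, volume (B i) /
    volume ((Submodule.span ℝ {u i})ᗮ.orthogonalProjectionOnto '' K) with hSdef
  have hsum : volume (K \ N) + ENNReal.ofReal (1 - κ) * volume N ≤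
      ENNReal.ofReal (3 - δ) * volume K * S := by
    calc volume (K \ N) + ENNReal.ofReal (1 - κ) * volume N
        ≤ ∑ i, volume ((K \ N) ∩
              (Submodule.span ℝ {u i})ᗮ.orthogonalProjectionOnto ⁻¹' B i) +
            ENNReal.ofReal (1 - κ) * ∑ i, volume (N ∩
              (Submodule.span ℝ {u i})ᗮ.orthogonalProjectionOnto ⁻¹' B i) := by gcongr
      _ = ∑ i, (volume ((K \ N) ∩
              (Submodule.span ℝ {u i})ᗮ.orthogonalProjectionOnto ⁻¹' B i) +
            ENNReal.ofReal (1 - κ) * volume (N ∩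
              (Submodule.span ℝ {u i})ᗮ.orthogonalProjectionOnto ⁻¹' B i)) := by
          rw [Finset.mul_sum, Finset.sum_add_distrib]
      _ ≤ ∑ i, ENNReal.ofReal (3 - δ) * volume K * (volume (B i) /
            volume ((Submodule.span ℝ {u i})ᗮ.orthogonalProjectionOnto '' K)) :=
          Finset.sum_le_sum fun i _ => hper i
      _ = _ := by rw [Finset.mul_sum]
  have hsplit : volume K =
      volume (K \ N) + ENNReal.ofReal (1 - κ) * volume N + ENNReal.ofReal κ * volume N := by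
    have h1 : volume (K \ N) + volume N = volume K := by
      have h := measure_sdiff_add_inter (μ := volume) K hNc.measurableSet
      rw [inter_eq_self_of_subset_right hNK] at h
      exact h
    have h2 : ENNReal.ofReal (1 - κ) * volume N + ENNReal.ofReal κ * volume N = volume N := by
      rw [← add_mul, ← ENNReal.ofReal_add (by linarith) hκ0, sub_add_cancel, ENNReal.ofReal_one,
        one_mul]
    rw [add_assoc, h2, h1]
  -- divide by the volume
  have hmain : volume K * 1 ≤ volume K *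
      (ENNReal.ofReal (3 - δ) * S + ENNReal.ofReal (δ / 6)) := by
    calc volume K * 1 = volume K := mul_one _
      _ = volume (K \ N) + ENNReal.ofReal (1 - κ) * volume N + ENNReal.ofReal κ * volume N :=
          hsplit
      _ ≤ ENNReal.ofReal (3 - δ) * volume K * S + ENNReal.ofReal (δ / 6) * volume K :=
          add_le_add hsum hNvol'
      _ = volume K * (ENNReal.ofReal (3 - δ) * S + ENNReal.ofReal (δ / 6)) := by ring
  have hone : (1 : ℝ≥0∞) ≤ ENNReal.ofReal (3 - δ) * S + ENNReal.ofReal (δ / 6) :=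
    (ENNReal.mul_le_mul_iff_right hVpos.ne' hVfin).1 hmain
  by_cases hStop : S = ⊤
  · rw [hStop]
    exact le_top
  · have hSr : S = ENNReal.ofReal S.toReal := (ENNReal.ofReal_toReal hStop).symm
    have hr0 : 0 ≤ S.toReal := ENNReal.toReal_nonneg
    have h3 : (0 : ℝ) < 3 - δ := by linarith
    rw [hSr, ← ENNReal.ofReal_mul h3.le, ← ENNReal.ofReal_add (mul_nonneg h3.le hr0)
      (by linarith), ← ENNReal.ofReal_one,
      ENNReal.ofReal_le_ofReal_iff (add_nonneg (mul_nonneg h3.le hr0) (by linarith))] at hone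
    rw [hSr]
    apply ENNReal.ofReal_le_ofReal
    by_contra hlt
    push Not at hlt
    have h4 := mul_lt_mul_of_pos_left hlt h3
    nlinarith [sq_nonneg δ]

end Vale.Agent.H15.GenK
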