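import Vale.Agent.H15.GenK.GoodRayAbs
import Vale.Agent.H5.P243.UCone
import Vale.Agent.H5.P243.UFubini

/-!
# General convex bodies (P243), row G10: a good ray (in the space `E`)

`K` compact convex in a 3-dimensional Euclidean space, `ball c ρ ⊆ K ⊆ closedBall c R`, `u` a unit
vector, `e, e + L u ∈ K` a chord which is `δ`-extremal (` (3 - δ) vol K ≤ L |π_u K|`), and
`6 δ L (R/ρ)² ≤ m < L`.  Then there are a unit `w ⊥ u`, `r ≥ ρ/2` and `z_r` such that
* the plane `e + span {w, u}` passes within `ρ/2` of `c`,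
* `e + r w + z_r u ∈ K` and no point `e + t w + z u` of `K` has `t > r`,
* for `t ≥ 0` the chords of `K` along `u` over abscissa `t` have length `≤ L (1 - t/r) + m`.

LEAN ROW G10 (`good_ray`), from the stub `good_ray_abs` (GoodRayAbs).  Sketch (all as in
`Vale.Agent.H5.P243.cone_bound` / `chord_fubini`): `H := (span {u})ᗮ` (`finrank = 2`),
`Ψ := Vale.Agent.H76.splitEquiv u hu`, `T := Ψ '' K` compact convex,
` (volume.prod volume) T = volume K`, `Prod.fst '' T = proj '' K`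
(`proj := H.orthogonalProjectionOnto`), `Ψ (x + t • u) = ((Ψ x).1, (Ψ x).2 + t)`
(`ucone_split_u : Ψ u = (0, 1)`), `Ψ.symm (b, t) = (b : E) + t • u` (`ufubini_symm`).
`p := proj e`, `c' := proj c`, `z₀ := (Ψ e).2`.  `ball c' ρ ⊆ proj '' K`: for `x'` in the ball the
point `c + ((x' - c' : H) : E)` lies in `ball c ρ` and projects to `x'`; `proj '' K ⊆ closedBall c' R`
(`proj` does not increase distances).  `ρ ≤ R` since `ball c ρ ⊆ closedBall c R` (take
`c + (ρ'/‖v‖) • v`).  Apply `good_ray_abs`, get `yE`; `r := ‖yE - p‖ ≥ ρ/2 > 0`,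
`w := r⁻¹ • ((yE - p : H) : E)` (unit, `⟪w, u⟫ = 0` because it lies in `H`).
`z_r`: `yE = proj k` for some `k ∈ K`; `k = e + r • w + z_r • u` with `z_r := ⟪k - e, u⟫`
(`Vale.Agent.H76.coe_proj`: ` (proj x : E) = x - ⟪x, u⟫ • u`).
`proj (e + t • w + z • u) = p + (t / r) • (yE - p)`: this gives `hmax` (`t / r ≤ 1`) and the chord
bound (`θ = t / r`, second coordinates `z₀ + z`).
Plane: ` (e - c) - ⟪e - c, u⟫ • u = ((p - c' : H) : E)` and removing the `w`-component gives a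
vector of norm `≤ ‖(p - c') + s • (yE - p)‖` for every real `s` (the `w`-component is the best
approximation on the line `ℝ w`); take `s := τ⁻¹`:
`‖(p - c') + τ⁻¹ • (yE - p)‖ = τ⁻¹ ‖yE - p - τ • (c' - p)‖ < ρ/2`.
-/

open MeasureTheory Set Module
open scoped ENNReal

namespace Vale.Agent.H15.GenK

variable {E : Type*} [NormedAddCommGroup E] [InnerProductSpace ℝ E] [FiniteDimensional ℝ E]
  [MeasurableSpace E] [BorelSpace E]

/-- the projection of `u` onto `u^⊥` vanishes -/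
theorem goodray_proj_u (u : E) (hu : ‖u‖ = 1) :
    (Submodule.span ℝ {u})ᗮ.orthogonalProjectionOnto u = 0 := by
  apply Subtype.ext
  rw [Vale.Agent.H76.coe_proj u hu]
  simp [hu]

/-- removing the component along a unit vector does not increase the norm of any translate
along that vector -/
theorem goodray_best (a w : E) (hw : ‖w‖ = 1) (s : ℝ) :
    ‖a - inner ℝ a w • w‖ ≤ ‖a + s • w‖ := by
  have hww : inner ℝ w w = (1 : ℝ) := by
    rw [real_inner_self_eq_norm_sq, hw]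
    norm_num
  have horth : inner ℝ (a - inner ℝ a w • w) w = (0 : ℝ) := by
    rw [inner_sub_left, inner_smul_left, hww]
    simp
  have hdec : a + s • w = (a - inner ℝ a w • w) + (inner ℝ a w + s) • w := by
    rw [add_smul]
    abel
  have hsq : ‖a - inner ℝ a w • w‖ ^ 2 ≤ ‖a + s • w‖ ^ 2 := by
    rw [hdec, norm_add_sq_real, inner_smul_right, horth, norm_smul, hw]
    have := sq_nonneg (‖inner ℝ a w + s‖ * 1)
    linarith
  exact (sq_le_sq₀ (norm_nonneg _) (norm_nonneg _)).mp hsq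

theorem good_ray (hE : finrank ℝ E = 3) (u : E) (hu : ‖u‖ = 1) {K : Set E} (hK : IsCompact K)
    (hKc : Convex ℝ K) (c : E) {ρ R : ℝ} (hρ : 0 < ρ) (hin : Metric.ball c ρ ⊆ K)
    (hout : K ⊆ Metric.closedBall c R) (e : E) {L δ m : ℝ} (he : e ∈ K) (heL : e + L • u ∈ K)
    (hL : 0 < L) (hδ : 0 < δ) (hδ1 : δ ≤ 1)
    (hext : ENNReal.ofReal (3 - δ) * volume K ≤
      ENNReal.ofReal L * volume ((Submodule.span ℝ {u})ᗮ.orthogonalProjectionOnto '' K))
    (hm : 6 * δ * L * (R / ρ) ^ 2 ≤ m) (hmL : m < L) :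
    ∃ w : E, ‖w‖ = 1 ∧ inner ℝ w u = 0 ∧
      ‖(e - c) - inner ℝ (e - c) w • w - inner ℝ (e - c) u • u‖ ≤ ρ / 2 ∧
      ∃ r z_r : ℝ, ρ / 2 ≤ r ∧ e + r • w + z_r • u ∈ K ∧
        (∀ t z : ℝ, e + t • w + z • u ∈ K → t ≤ r) ∧
        (∀ t z₁ z₂ : ℝ, 0 ≤ t → e + t • w + z₁ • u ∈ K → e + t • w + z₂ • u ∈ K →
          z₂ - z₁ ≤ L * (1 - t / r) + m) := by
  classical
  have hu0 : u ≠ 0 := by
    rintro rfl
    simp at hu
  have : Fact (finrank ℝ E = 2 + 1) := ⟨hE⟩
  have hH : finrank ℝ ↥(Submodule.span ℝ {u})ᗮ = 2 :=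
    Submodule.finrank_orthogonal_span_singleton hu0
  set Ψ := Vale.Agent.H76.splitEquiv u hu with hΨ
  set T : Set (↥(Submodule.span ℝ {u})ᗮ × ℝ) := Ψ '' K with hTdef
  have hT : IsCompact T := hK.image Ψ.continuous
  have hTc : Convex ℝ T := hKc.is_linear_image Ψ.isLinear
  have hfst : Prod.fst '' T = (Submodule.span ℝ {u})ᗮ.orthogonalProjectionOnto '' K := by
    ext z
    constructor
    · rintro ⟨_, ⟨x, hx, rfl⟩, rfl⟩
      exact ⟨x, hx, (Vale.Agent.H76.splitEquiv_fst u hu x).symm⟩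
    · rintro ⟨x, hx, rfl⟩
      exact ⟨Ψ x, ⟨x, hx, rfl⟩, Vale.Agent.H76.splitEquiv_fst u hu x⟩
  have hmp := Vale.Agent.H76.splitEquiv_measurePreserving u hu
  have hvol : (volume.prod volume) T = volume K := by
    rw [← hmp.measure_preimage hT.isClosed.measurableSet.nullMeasurableSet,
      Ψ.injective.preimage_image]
  -- abbreviations
  obtain ⟨proj, hproj⟩ : ∃ proj : E →L[ℝ] ↥(Submodule.span ℝ {u})ᗮ,
      proj = (Submodule.span ℝ {u})ᗮ.orthogonalProjectionOnto := ⟨_, rfl⟩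
  rw [← hproj] at hfst hext
  have hcoe : ∀ x : E, ((proj x : ↥(Submodule.span ℝ {u})ᗮ) : E) = x - inner ℝ x u • u := by
    intro x
    rw [hproj]
    exact Vale.Agent.H76.coe_proj u hu x
  have hprojH : ∀ v : ↥(Submodule.span ℝ {u})ᗮ, proj (v : E) = v := by
    intro v
    rw [hproj]
    exact Submodule.orthogonalProjectionOnto_mem_subspace_eq_self v
  have hproju : proj u = 0 := by
    rw [hproj]
    exact goodray_proj_u u hu
  have hΨfst : ∀ x : E, (Ψ x).1 = proj x := by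
    intro x
    rw [hproj]
    exact Vale.Agent.H76.splitEquiv_fst u hu x
  have hΨu : Ψ u = (0, 1) := Vale.Agent.H5.P243.ucone_split_u u hu
  obtain ⟨p, hp⟩ : ∃ p, p = proj e := ⟨_, rfl⟩
  obtain ⟨c', hc'⟩ : ∃ c', c' = proj c := ⟨_, rfl⟩
  obtain ⟨z₀, hz₀⟩ : ∃ z₀ : ℝ, z₀ = (Ψ e).2 := ⟨_, rfl⟩
  have h0 : (p, z₀) ∈ T := by
    refine ⟨e, he, ?_⟩
    exact Prod.ext (by rw [hΨfst, hp]) (by rw [hz₀])
  have h1 : (p, z₀ + L) ∈ T := by
    refine ⟨e + L • u, heL, ?_⟩
    rw [map_add, map_smul, hΨu]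
    refine Prod.ext ?_ ?_
    · simp [hΨfst, hp]
    · simp [hz₀]
  have hball : Metric.ball c' ρ ⊆ Prod.fst '' T := by
    intro x' hx'
    rw [hfst]
    refine ⟨c + ((x' - c' : ↥(Submodule.span ℝ {u})ᗮ) : E), hin ?_, ?_⟩
    · rw [Metric.mem_ball, dist_eq_norm] at hx' ⊢
      rw [add_sub_cancel_left, ← Submodule.coe_norm]
      exact hx'
    · rw [map_add, hprojH, ← hc']
      abel
  have hout' : Prod.fst '' T ⊆ Metric.closedBall c' R := by
    intro z hz
    rw [hfst] at hz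
    obtain ⟨x, hx, rfl⟩ := hz
    have hxR := hout hx
    rw [Metric.mem_closedBall, dist_eq_norm] at hxR ⊢
    rw [hc', ← map_sub]
    have hle : ‖proj (x - c)‖ ≤ ‖x - c‖ := by
      rw [hproj]
      exact Submodule.norm_orthogonalProjectionOnto_apply_le _ _
    linarith
  have hρR : ρ ≤ R := by
    by_contra hlt
    rw [not_le] at hlt
    obtain ⟨ρ', hρ'⟩ : ∃ ρ' : ℝ, ρ' = (max R 0 + ρ) / 2 := ⟨_, rfl⟩
    have hmax0 : 0 ≤ max R 0 := le_max_right _ _
    have hmaxR : R ≤ max R 0 := le_max_left _ _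
    have hmaxρ : max R 0 < ρ := max_lt hlt hρ
    have h1ρ : 0 ≤ ρ' := by rw [hρ']; linarith
    have h2ρ : ρ' < ρ := by rw [hρ']; linarith
    have h3ρ : R < ρ' := by rw [hρ']; linarith
    have hmem : c + ρ' • u ∈ Metric.ball c ρ := by
      rw [Metric.mem_ball, dist_eq_norm, add_sub_cancel_left, norm_smul, hu, mul_one,
        Real.norm_eq_abs, abs_of_nonneg h1ρ]
      exact h2ρ
    have hmem2 := hout (hin hmem)
    rw [Metric.mem_closedBall, dist_eq_norm, add_sub_cancel_left, norm_smul, hu, mul_one,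
      Real.norm_eq_abs, abs_of_nonneg h1ρ] at hmem2
    linarith
  have hext' : ENNReal.ofReal (3 - δ) * (volume.prod volume) T ≤
      ENNReal.ofReal L * volume (Prod.fst '' T) := by
    rw [hvol, hfst]
    exact hext
  obtain ⟨yE, hyE, hrρ, hbeyond, ⟨τ, hτ, hτlt⟩, hchord⟩ :=
    good_ray_abs hH hT hTc p c' hρ hρR hball hout' h0 h1 hL hδ hδ1 hext' hm hmL
  obtain ⟨r, hr⟩ : ∃ r : ℝ, r = ‖yE - p‖ := ⟨_, rfl⟩
  rw [← hr] at hrρ
  have hrpos : 0 < r := by linarith
  obtain ⟨w, hw⟩ : ∃ w : E, w = r⁻¹ • ((yE - p : ↥(Submodule.span ℝ {u})ᗮ) : E) := ⟨_, rfl⟩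
  have hrw : r • w = ((yE - p : ↥(Submodule.span ℝ {u})ᗮ) : E) := by
    rw [hw, smul_smul, mul_inv_cancel₀ hrpos.ne', one_smul]
  have hwnorm : ‖w‖ = 1 := by
    rw [hw, norm_smul, ← Submodule.coe_norm, ← hr, Real.norm_eq_abs,
      abs_of_pos (inv_pos.mpr hrpos), inv_mul_cancel₀ hrpos.ne']
  have hwu : inner ℝ w u = (0 : ℝ) := by
    rw [hw, inner_smul_left]
    have hmem : ((yE - p : ↥(Submodule.span ℝ {u})ᗮ) : E) ∈ (Submodule.span ℝ {u})ᗮ :=
      (yE - p).2
    rw [Submodule.mem_orthogonal_singleton_iff_inner_left] at hmem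
    rw [hmem, mul_zero]
  have hprojw : proj w = r⁻¹ • (yE - p) := by
    rw [hw, map_smul, hprojH]
  have hprojline : ∀ t z : ℝ, proj (e + t • w + z • u) = p + (t / r) • (yE - p) := by
    intro t z
    rw [map_add, map_add, map_smul, map_smul, hproju, hprojw, smul_zero, add_zero, smul_smul,
      ← hp, div_eq_mul_inv]
  have hΨline : ∀ t z : ℝ, Ψ (e + t • w + z • u) =
      (p + (t / r) • (yE - p), (z₀ + t * (Ψ w).2) + z) := by
    intro t z
    refine Prod.ext ?_ ?_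
    · rw [hΨfst, hprojline]
    · rw [map_add, map_add, map_smul, map_smul, hΨu, hz₀]
      simp
  have hmax : ∀ t z : ℝ, e + t • w + z • u ∈ K → t ≤ r := by
    intro t z hmem
    by_contra hlt
    rw [not_le] at hlt
    have h1lt : 1 < t / r := by rwa [lt_div_iff₀ hrpos, one_mul]
    apply hbeyond (t / r) h1lt
    rw [hfst]
    exact ⟨_, hmem, hprojline t z⟩
  refine ⟨w, hwnorm, hwu, ?_, r, ?_⟩
  · -- the plane passes within `ρ / 2` of `c`
    obtain ⟨a, ha⟩ : ∃ a : E, a = ((p - c' : ↥(Submodule.span ℝ {u})ᗮ) : E) := ⟨_, rfl⟩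
    have ha2 : a = (e - c) - inner ℝ (e - c) u • u := by
      rw [ha, hp, hc', ← map_sub, hcoe]
    have hinner : inner ℝ (e - c) w = inner ℝ a w := by
      have h1 : inner ℝ (inner ℝ (e - c) u • u) w = (0 : ℝ) := by
        rw [inner_smul_left, real_inner_comm w u, hwu, mul_zero]
      have h2 : inner ℝ a w = inner ℝ (e - c) w - inner ℝ (inner ℝ (e - c) u • u) w := by
        rw [ha2, inner_sub_left]
      rw [h2, h1, sub_zero]
    have hvec : (e - c) - inner ℝ (e - c) w • w - inner ℝ (e - c) u • u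
        = a - inner ℝ a w • w := by
      rw [hinner, ha2]
      abel
    rw [hvec]
    refine (goodray_best a w hwnorm (τ⁻¹ * r)).trans ?_
    have hsum : a + (τ⁻¹ * r) • w
        = (((p - c') + τ⁻¹ • (yE - p) : ↥(Submodule.span ℝ {u})ᗮ) : E) := by
      rw [mul_smul, hrw, ha]
      push_cast
      rfl
    rw [hsum, ← Submodule.coe_norm]
    have hfac : (p - c') + τ⁻¹ • (yE - p) = τ⁻¹ • (yE - p - τ • (c' - p)) := by
      have h1 : τ⁻¹ • (τ • (c' - p)) = c' - p := by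
        rw [smul_smul, inv_mul_cancel₀ hτ.ne', one_smul]
      rw [smul_sub τ⁻¹ (yE - p) (τ • (c' - p)), h1]
      abel
    rw [hfac, norm_smul, Real.norm_eq_abs, abs_of_pos (inv_pos.mpr hτ)]
    have h2 : τ⁻¹ * ‖yE - p - τ • (c' - p)‖ ≤ τ⁻¹ * (τ * (ρ / 2)) :=
      mul_le_mul_of_nonneg_left hτlt.le (inv_pos.mpr hτ).le
    have h3 : τ⁻¹ * (τ * (ρ / 2)) = ρ / 2 := by
      rw [← mul_assoc, inv_mul_cancel₀ hτ.ne', one_mul]
    linarith
  · -- the end point of the ray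
    rw [hfst] at hyE
    obtain ⟨k, hk, hkyE⟩ := hyE
    refine ⟨inner ℝ (k - e) u, hrρ, ?_, hmax, ?_⟩
    · have hk2 : e + r • w + inner ℝ (k - e) u • u = k := by
        rw [hrw, ← hkyE, hp, ← map_sub, hcoe]
        abel
      rw [hk2]
      exact hk
    · intro t z₁ z₂ ht hm1 hm2
      have htr : t ≤ r := hmax t z₁ hm1
      have hθ0 : 0 ≤ t / r := div_nonneg ht hrpos.le
      have hθ1 : t / r ≤ 1 := by rwa [div_le_iff₀ hrpos, one_mul]
      have hT1 : (p + (t / r) • (yE - p), (z₀ + t * (Ψ w).2) + z₁) ∈ T :=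
        ⟨_, hm1, hΨline t z₁⟩
      have hT2 : (p + (t / r) • (yE - p), (z₀ + t * (Ψ w).2) + z₂) ∈ T :=
        ⟨_, hm2, hΨline t z₂⟩
      have h := hchord (t / r) hθ0 hθ1 _ _ hT1 hT2
      linarith

end Vale.Agent.H15.GenK
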