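import Vale.Agent.H76.BM

/-!
# General convex bodies (P243), row G8: the cone bound with a gain on a sector

`X` a 2-dimensional Euclidean space, `T ⊆ X × ℝ` compact convex with shadow `S = Prod.fst '' T`,
`p ∈ X`, `G` a measurable cone with apex `p`.  If the level sets of `T` contain the homothetic
copies `p + (1 - h/L)(S - p)` (`0 < h ≤ L`; the cone over an apex chord of length `L`) and, on the
sector `S ∩ G`, the larger copies `p + (1 - h/(L+m))(S ∩ G - p)` for `0 < h ≤ (L+m)/2` and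
`p + ((L-h)/(L-m))(S ∩ G - p)` for ` (L+m)/2 ≤ h ≤ L`, then
`vol T ≥ (L/3) |S| + (m/4) |S ∩ G|`.

LEAN ROW G8 (`two_level_cone`).  Sketch: `ν := volume` on `X`; `ν (p + a (A - p)) = a² ν A`
for `a ≥ 0` (`Measure.addHaar_image_homothety`, `finrank = 2`; write the copies as
`AffineMap.homothety p a '' A`).  `S` is compact; `S' := S ∩ G` is measurable, `ν S' ≤ ν S < ⊤`.
For `0 < h < L` put `a := 1 - h/L ∈ (0, 1)`, `lam := 1 - h/(L+m)` or ` (L-h)/(L-m)` (`lam > 0`),
`A := homothety p a '' S`, `A' := homothety p a '' S'`, `B := homothety p lam '' S'`.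
`A ∪ B ⊆ Lev T h`; `B ⊆ G` and `A ∩ G ⊆ A'` (cone property with `κ = lam` resp. `κ = 1/a`), so
`A \ A'` and `B` are disjoint, `ν (Lev T h) ≥ ν (A \ A') + ν B`, i.e.
`ν (Lev T h) + a² ν S' ≥ a² ν S + lam² ν S'`  (all sets measurable: images of measurable sets under
the homeomorphism `homothety p a`, `a ≠ 0`).
Integrate over `h ∈ Ioc 0 L` (`volume_eq_lintegral_Lev`, `lintegral_mono_set Ioc_subset_Ioi_self`;
the endpoint `h = L` is a null set or use `a = 0` there):
`∫_0^L (1 - h/L)² = L/3`,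
`∫_0^{(L+m)/2} (1 - h/(L+m))² + ∫_{(L+m)/2}^L ((L-h)/(L-m))² = 7 (L+m)/24 + (L-m)/24 = L/3 + m/4`.
So `vol T + (L/3) ν S' ≥ (L/3) ν S + (L/3 + m/4) ν S'`; cancel the finite term ` (L/3) ν S'`.
-/

open MeasureTheory Set Module
open scoped ENNReal

namespace Vale.Agent.H15.GenK

/-- Integral over `Ioc α β` of `ofReal ∘ g` from an antiderivative `G` of a continuous
nonnegative `g`. -/
theorem twolevel_lint (g G : ℝ → ℝ) (α β : ℝ) (hαβ : α ≤ β)
    (hG : ∀ x, HasDerivAt G (g x) x) (hgc : Continuous g) (hg0 : ∀ x, 0 ≤ g x) :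
    ∫⁻ h in Ioc α β, ENNReal.ofReal (g h) = ENNReal.ofReal (G β - G α) := by
  have hint : IntervalIntegrable g volume α β := hgc.intervalIntegrable α β
  have h1 : ∫ y in α..β, g y = G β - G α :=
    intervalIntegral.integral_eq_sub_of_hasDerivAt (fun x _ => hG x) hint
  rw [← h1, intervalIntegral.integral_of_le hαβ, ofReal_integral_eq_lintegral_ofReal]
  · exact (intervalIntegrable_iff_integrableOn_Ioc_of_le hαβ).1 hint
  · exact Filter.Eventually.of_forall fun x => hg0 x

/-- The integrals of the squared affine functions which occur in `two_level_cone`. -/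
theorem twolevel_lint_sq (A B α β : ℝ) (hA : A ≠ 0) (hαβ : α ≤ β) :
    ∫⁻ h in Ioc α β, ENNReal.ofReal (((B - h) / A) ^ 2) =
      ENNReal.ofReal (A / 3 * (((B - α) / A) ^ 3 - ((B - β) / A) ^ 3)) := by
  have hG : ∀ x : ℝ, HasDerivAt (fun h : ℝ => -(A / 3) * ((B - h) / A) ^ 3)
      (((B - x) / A) ^ 2) x := by
    intro x
    have h1 : HasDerivAt (fun h : ℝ => (B - h) / A) (-1 / A) x :=
      ((hasDerivAt_id x).const_sub B).div_const A
    have h2 : HasDerivAt (fun h : ℝ => -(A / 3) * ((B - h) / A) ^ 3)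
        (-(A / 3) * ((3 : ℕ) * ((B - x) / A) ^ (3 - 1) * (-1 / A))) x :=
      (h1.pow 3).const_mul (-(A / 3))
    refine h2.congr_deriv ?_
    push_cast
    field_simp
  have hc : Continuous fun h : ℝ => ((B - h) / A) ^ 2 := by fun_prop
  rw [twolevel_lint (fun h : ℝ => ((B - h) / A) ^ 2) (fun h : ℝ => -(A / 3) * ((B - h) / A) ^ 3)
    α β hαβ hG hc (fun x => sq_nonneg _)]
  congr 1
  ring

/-- Integrating a pointwise inequality between level-set measures and two quadratic profiles. -/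
theorem twolevel_integrate {φ : ℝ → ℝ≥0∞} (hφ : Measurable φ) (g g' : ℝ → ℝ)
    (hg : Continuous g) (hg' : Continuous g') (α β : ℝ) (s s' : ℝ≥0∞)
    (hpt : ∀ h ∈ Ioc α β, ENNReal.ofReal (g h) * s + ENNReal.ofReal (g' h) * s' ≤
      φ h + ENNReal.ofReal (g h) * s') :
    (∫⁻ h in Ioc α β, ENNReal.ofReal (g h)) * s + (∫⁻ h in Ioc α β, ENNReal.ofReal (g' h)) * s' ≤
      (∫⁻ h in Ioc α β, φ h) + (∫⁻ h in Ioc α β, ENNReal.ofReal (g h)) * s' := by
  have hm1 : Measurable fun h => ENNReal.ofReal (g h) :=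
    ENNReal.measurable_ofReal.comp hg.measurable
  have hm2 : Measurable fun h => ENNReal.ofReal (g' h) :=
    ENNReal.measurable_ofReal.comp hg'.measurable
  rw [← lintegral_mul_const s hm1, ← lintegral_mul_const s' hm2, ← lintegral_mul_const s' hm1,
    ← lintegral_add_left (hm1.mul_const s), ← lintegral_add_left hφ]
  exact setLIntegral_mono' measurableSet_Ioc hpt

/-- The final cancellation in `ℝ≥0∞`. -/
theorem twolevel_alg (a1 a2 b1 b2 x y I1 I2 I l3 m4 : ℝ≥0∞)
    (h1 : a1 * x + b1 * y ≤ I1 + a1 * y) (h2 : a2 * x + b2 * y ≤ I2 + a2 * y)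
    (ha : a1 + a2 = l3) (hb : b1 + b2 = l3 + m4) (hI : I = I1 + I2) (hfin : l3 * y ≠ ⊤) :
    l3 * x + m4 * y ≤ I := by
  have h : l3 * x + m4 * y + l3 * y ≤ I + l3 * y := by
    calc l3 * x + m4 * y + l3 * y = l3 * x + (l3 + m4) * y := by ring
      _ = (a1 + a2) * x + (b1 + b2) * y := by rw [ha, hb]
      _ = (a1 * x + b1 * y) + (a2 * x + b2 * y) := by ring
      _ ≤ (I1 + a1 * y) + (I2 + a2 * y) := add_le_add h1 h2
      _ = (I1 + I2) + (a1 + a2) * y := by ring
      _ = I + l3 * y := by rw [ha, hI]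
  exact (ENNReal.add_le_add_iff_right hfin).1 h

/-- The geometric step: homothetic copies of the shadow and of the sector inside a level set. -/
theorem twolevel_pointwise {X : Type*} [NormedAddCommGroup X] [InnerProductSpace ℝ X]
    [FiniteDimensional ℝ X] [MeasurableSpace X] [BorelSpace X] (hX : finrank ℝ X = 2)
    (S Lv : Set X) (p : X) (G : Set X) (hG : MeasurableSet G)
    (hGcone : ∀ y ∈ G, ∀ κ : ℝ, 0 < κ → p + κ • (y - p) ∈ G)
    (a lam : ℝ) (ha : 0 < a) (hlam : 0 < lam)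
    (hA : ∀ y ∈ S, p + a • (y - p) ∈ Lv) (hB : ∀ y ∈ S ∩ G, p + lam • (y - p) ∈ Lv) :
    ENNReal.ofReal (a ^ 2) * volume S + ENNReal.ofReal (lam ^ 2) * volume (S ∩ G) ≤
      volume Lv + ENNReal.ofReal (a ^ 2) * volume (S ∩ G) := by
  have hom : ∀ (r : ℝ) (s : Set X), volume ((fun y => p + r • (y - p)) '' s) =
      ENNReal.ofReal (r ^ 2) * volume s := by
    intro r s
    have h := Measure.addHaar_image_homothety (volume : Measure X) p r s
    rw [hX, abs_of_nonneg (sq_nonneg r)] at h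
    rw [← h]
    congr 1
    apply image_congr
    intro y _
    simp [AffineMap.homothety_apply, add_comm]
  have hAG : (fun y => p + a • (y - p)) '' S ∩ G ⊆ (fun y => p + a • (y - p)) '' (S ∩ G) := by
    rintro x ⟨⟨y, hy, rfl⟩, hxG⟩
    refine ⟨y, ⟨hy, ?_⟩, rfl⟩
    have h1 := hGcone _ hxG (1 / a) (by positivity)
    have e : p + (1 / a) • (p + a • (y - p) - p) = y := by
      rw [add_sub_cancel_left, smul_smul, one_div, inv_mul_cancel₀ ha.ne', one_smul,
        add_sub_cancel]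
    rwa [e] at h1
  have hBG : (fun y => p + lam • (y - p)) '' (S ∩ G) ⊆ Lv ∩ G := by
    rintro x ⟨y, hy, rfl⟩
    exact ⟨hB y hy, hGcone y hy.2 lam hlam⟩
  have hAL : (fun y => p + a • (y - p)) '' S \ G ⊆ Lv \ G := by
    rintro x ⟨⟨y, hy, rfl⟩, hxG⟩
    exact ⟨hA y hy, hxG⟩
  calc ENNReal.ofReal (a ^ 2) * volume S + ENNReal.ofReal (lam ^ 2) * volume (S ∩ G)
      = volume ((fun y => p + a • (y - p)) '' S) +
          volume ((fun y => p + lam • (y - p)) '' (S ∩ G)) := by rw [hom, hom]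
    _ = volume ((fun y => p + a • (y - p)) '' S ∩ G) +
          volume ((fun y => p + a • (y - p)) '' S \ G) +
          volume ((fun y => p + lam • (y - p)) '' (S ∩ G)) := by
        rw [measure_inter_add_sdiff _ hG]
    _ ≤ volume ((fun y => p + a • (y - p)) '' (S ∩ G)) + volume (Lv \ G) + volume (Lv ∩ G) :=
        add_le_add (add_le_add (measure_mono hAG) (measure_mono hAL)) (measure_mono hBG)
    _ = volume Lv + ENNReal.ofReal (a ^ 2) * volume (S ∩ G) := by
        rw [hom, add_assoc, add_comm (volume (Lv \ G)), measure_inter_add_sdiff _ hG, add_comm]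

open Vale.Agent.H76 in
theorem two_level_cone {X : Type*} [NormedAddCommGroup X] [InnerProductSpace ℝ X]
    [FiniteDimensional ℝ X] [MeasurableSpace X] [BorelSpace X] (hX : finrank ℝ X = 2)
    {T : Set (X × ℝ)} (hT : IsCompact T) (hTc : Convex ℝ T) (p : X) {L m : ℝ} (hL : 0 < L)
    (hm : 0 < m) (hmL : m < L) (G : Set X) (hG : MeasurableSet G)
    (hGcone : ∀ y ∈ G, ∀ κ : ℝ, 0 < κ → p + κ • (y - p) ∈ G)
    (hcone : ∀ h : ℝ, 0 < h → h ≤ L → ∀ y ∈ Prod.fst '' T,
      p + (1 - h / L) • (y - p) ∈ Lev T h)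
    (hlow : ∀ h : ℝ, 0 < h → h ≤ (L + m) / 2 → ∀ y ∈ Prod.fst '' T ∩ G,
      p + (1 - h / (L + m)) • (y - p) ∈ Lev T h)
    (hhigh : ∀ h : ℝ, (L + m) / 2 ≤ h → h ≤ L → ∀ y ∈ Prod.fst '' T ∩ G,
      p + ((L - h) / (L - m)) • (y - p) ∈ Lev T h) :
    ENNReal.ofReal (L / 3) * volume (Prod.fst '' T) +
        ENNReal.ofReal (m / 4) * volume (Prod.fst '' T ∩ G) ≤
      (volume.prod volume) T := by
  have hSc : IsCompact (Prod.fst '' T) := hT.image continuous_fst
  have hS'fin : volume (Prod.fst '' T ∩ G) ≠ ⊤ :=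
    ((measure_mono inter_subset_left).trans_lt hSc.measure_lt_top).ne
  have hLm : 0 < L - m := by linarith
  have hLpm : 0 < L + m := by linarith
  have hc0 : 0 ≤ (L + m) / 2 := by linarith
  have hcL : (L + m) / 2 ≤ L := by linarith
  have hφ : Measurable fun h : ℝ => volume (Lev T h) := measurable_measure_Lev volume T
  -- pointwise inequalities on the two ranges
  have hpt1 : ∀ h ∈ Ioc (0 : ℝ) ((L + m) / 2),
      ENNReal.ofReal (((L - h) / L) ^ 2) * volume (Prod.fst '' T) +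
        ENNReal.ofReal (((L + m - h) / (L + m)) ^ 2) * volume (Prod.fst '' T ∩ G) ≤
      volume (Lev T h) + ENNReal.ofReal (((L - h) / L) ^ 2) * volume (Prod.fst '' T ∩ G) := by
    intro h hh
    have hhL : h < L := by linarith [hh.2]
    have e1 : (L - h) / L = 1 - h / L := by field_simp
    have e2 : (L + m - h) / (L + m) = 1 - h / (L + m) := by field_simp
    refine twolevel_pointwise hX _ _ p G hG hGcone _ _ (div_pos (by linarith) hL)
      (div_pos (by linarith [hh.2]) hLpm) ?_ ?_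
    · intro y hy
      rw [e1]
      exact hcone h hh.1 hhL.le y hy
    · intro y hy
      rw [e2]
      exact hlow h hh.1 hh.2 y hy
  have hpt2 : ∀ h ∈ Ioc ((L + m) / 2) L,
      ENNReal.ofReal (((L - h) / L) ^ 2) * volume (Prod.fst '' T) +
        ENNReal.ofReal (((L - h) / (L - m)) ^ 2) * volume (Prod.fst '' T ∩ G) ≤
      volume (Lev T h) + ENNReal.ofReal (((L - h) / L) ^ 2) * volume (Prod.fst '' T ∩ G) := by
    intro h hh
    have hh0 : 0 < h := by linarith [hh.1]
    rcases eq_or_lt_of_le hh.2 with hEq | hlt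
    · rw [hEq]
      simp
    · have e1 : (L - h) / L = 1 - h / L := by field_simp
      refine twolevel_pointwise hX _ _ p G hG hGcone _ _ (div_pos (by linarith) hL)
        (div_pos (by linarith) hLm) ?_ ?_
      · intro y hy
        rw [e1]
        exact hcone h hh0 hh.2 y hy
      · intro y hy
        exact hhigh h hh.1.le hh.2 y hy
  -- integrate over the two ranges
  have hI1 := twolevel_integrate hφ (fun h : ℝ => ((L - h) / L) ^ 2)
    (fun h : ℝ => ((L + m - h) / (L + m)) ^ 2) (by fun_prop) (by fun_prop) 0 ((L + m) / 2)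
    (volume (Prod.fst '' T)) (volume (Prod.fst '' T ∩ G)) hpt1
  have hI2 := twolevel_integrate hφ (fun h : ℝ => ((L - h) / L) ^ 2)
    (fun h : ℝ => ((L - h) / (L - m)) ^ 2) (by fun_prop) (by fun_prop) ((L + m) / 2) L
    (volume (Prod.fst '' T)) (volume (Prod.fst '' T ∩ G)) hpt2
  rw [twolevel_lint_sq L L 0 ((L + m) / 2) hL.ne' hc0,
    twolevel_lint_sq (L + m) (L + m) 0 ((L + m) / 2) hLpm.ne' hc0] at hI1
  rw [twolevel_lint_sq L L ((L + m) / 2) L hL.ne' hcL,
    twolevel_lint_sq (L - m) L ((L + m) / 2) L hLm.ne' hcL] at hI2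
  -- the four constants
  set γ1 : ℝ := L / 3 * (((L - 0) / L) ^ 3 - ((L - (L + m) / 2) / L) ^ 3) with hγ1
  set γ2 : ℝ := L / 3 * (((L - (L + m) / 2) / L) ^ 3 - ((L - L) / L) ^ 3) with hγ2
  have hq : 0 ≤ (L - (L + m) / 2) / L := div_nonneg (by linarith) hL.le
  have hq1 : (L - (L + m) / 2) / L ≤ 1 := by rw [div_le_one hL]; linarith
  have hq3 : ((L - (L + m) / 2) / L) ^ 3 ≤ 1 := pow_le_one₀ hq hq1
  have hγ1nn : 0 ≤ γ1 := by
    rw [hγ1]
    have : (L - 0) / L = 1 := by rw [sub_zero, div_self hL.ne']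
    rw [this]
    have : 0 ≤ L / 3 := by linarith
    nlinarith
  have hγ2nn : 0 ≤ γ2 := by
    rw [hγ2]
    have : (L - L) / L = 0 := by simp
    rw [this]
    have h3 : 0 ≤ ((L - (L + m) / 2) / L) ^ 3 := pow_nonneg hq 3
    have : 0 ≤ L / 3 := by linarith
    nlinarith
  have hγ : γ1 + γ2 = L / 3 := by
    rw [hγ1, hγ2]
    have : (L - 0) / L = 1 := by rw [sub_zero, div_self hL.ne']
    rw [this]
    have : (L - L) / L = 0 := by simp
    rw [this]
    ring
  have hc1 : (L + m) / 3 * (((L + m - 0) / (L + m)) ^ 3 - ((L + m - (L + m) / 2) / (L + m)) ^ 3) =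
      7 * (L + m) / 24 := by
    field_simp
    ring
  have hc2 : (L - m) / 3 * (((L - (L + m) / 2) / (L - m)) ^ 3 - ((L - L) / (L - m)) ^ 3) =
      (L - m) / 24 := by
    field_simp
    ring
  rw [hc1] at hI1
  rw [hc2] at hI2
  -- add the two ranges
  have hsplit : ∫⁻ h in Ioc (0 : ℝ) L, volume (Lev T h) =
      (∫⁻ h in Ioc (0 : ℝ) ((L + m) / 2), volume (Lev T h)) +
        ∫⁻ h in Ioc ((L + m) / 2) L, volume (Lev T h) := by
    rw [← Ioc_union_Ioc_eq_Ioc hc0 hcL]
    exact lintegral_union measurableSet_Ioc (Ioc_disjoint_Ioc_of_le le_rfl)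
  have hvol : ∫⁻ h in Ioc (0 : ℝ) L, volume (Lev T h) ≤ (volume.prod volume) T := by
    rw [volume_eq_lintegral_Lev volume hT hTc]
    exact lintegral_mono_set Ioc_subset_Ioi_self
  have e3 : ENNReal.ofReal γ1 + ENNReal.ofReal γ2 = ENNReal.ofReal (L / 3) := by
    rw [← ENNReal.ofReal_add hγ1nn hγ2nn, hγ]
  have e4 : ENNReal.ofReal (7 * (L + m) / 24) + ENNReal.ofReal ((L - m) / 24) =
      ENNReal.ofReal (L / 3) + ENNReal.ofReal (m / 4) := by
    rw [← ENNReal.ofReal_add (by linarith) (by linarith),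
      ← ENNReal.ofReal_add (by linarith) (by linarith)]
    congr 1
    ring
  exact (twolevel_alg _ _ _ _ _ _ _ _ _ _ _ hI1 hI2 e3 e4 hsplit
    (ENNReal.mul_ne_top ENNReal.ofReal_ne_top hS'fin)).trans hvol

end Vale.Agent.H15.GenK
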