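import Vale.Agent.H15.GenK.BadRay
import Vale.Agent.H15.GenK.TwoLevel

/-!
# General convex bodies (P243), row G9: a good ray (in the split picture `X × ℝ`)

`T ⊆ X × ℝ` compact convex (`X` a Euclidean plane), shadow `S = Prod.fst '' T` with
`ball c' ρ ⊆ S ⊆ closedBall c' R`, an apex chord ` (p, z₀), (p, z₀ + L)` which is `δ`-extremal:
` (3 - δ) vol T ≤ L |S|`.  If `6 δ L (R/ρ)² ≤ m < L` there is an end point `yE ∈ S` of a ray from
`p` (no point of `S` beyond it), at distance `≥ ρ/2` from `p`, whose ray passes through the disc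
`ball c' (ρ/2)` (`∃ τ > 0, ‖yE - p - τ (c' - p)‖ < τ ρ/2`), and along which every chord of `T` over
`p + θ (yE - p)`, `θ ∈ [0, 1]`, is shorter than `L (1 - θ) + m`.

LEAN ROW G9 (`good_ray_abs`), from the stubs `bad_ray` (BadRay) and `two_level_cone` (TwoLevel).
Sketch: `S` compact convex, `p ∈ S`, `p ∈ Lev T L`.
`G := {y | ∃ τ > 0, ‖y - p - τ • (c' - p)‖ < τ * (ρ / 2)}` is open (a union of open balls
`ball (p + τ • (c' - p)) (τ ρ/2)`), hence measurable, and a cone with apex `p` (replace `τ` by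
`κ τ`).  `ball c' (ρ/2) ⊆ S ∩ G` (`τ = 1`).
Suppose no `yE` as claimed exists.  Take `y ∈ S ∩ G`.  If `y = p` the inclusions needed for
`two_level_cone` hold trivially (`p ∈ Lev T L ⊆ Lev T h`, the scaled vector is `0`).  If `y ≠ p`:
the set `{κ | p + κ • (y - p) ∈ S}` is compact (closed, and bounded because `S` is bounded and
`y ≠ p`), contains `1`; let `κm ≥ 1` be its maximum and `yE := p + κm • (y - p) ∈ S`.  Then
`yE ∈ G`, no point `p + κ • (yE - p)`, `κ > 1`, is in `S`, and `‖yE - p‖ ≥ ρ/2`: with `τ` from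
`y ∈ G`, `q := p + τ⁻¹ • (y - p)` has `‖q - c'‖ < ρ/2`, so
`q + (ρ/2) • (‖y - p‖⁻¹ • (y - p)) ∈ ball c' ρ ⊆ S`, i.e. `κm ≥ τ⁻¹ + (ρ/2)/‖y - p‖`.
By assumption some `θ ∈ [0, 1]` and `z, z'` with both points in `T` have `z' - z ≥ L (1 - θ) + m`,
i.e. `p + θ • (yE - p) ∈ Lev T (L (1 - θ) + m)`; `bad_ray` with `κ := κm⁻¹` gives the inclusions
for `y = p + κm⁻¹ • (yE - p)`.  The cone inclusion `hcone` of `two_level_cone` is `Lev_combo`
(` (h/L) • p + (1 - h/L) • y`, `p ∈ Lev T L`, `y ∈ Lev T 0`).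
So `ofReal (L/3) * ν S + ofReal (m/4) * ν (S ∩ G) ≤ vol T`.  With `b := ν (ball c' (ρ/2))`
(`0 < b < ⊤`): `ν (S ∩ G) ≥ b` and `ν S ≤ ν (closedBall c' R) = (2R/ρ)² b`
(`Measure.addHaar_closedBall_mul_of_pos`, `Measure.addHaar_closedBall_eq_addHaar_ball`,
`Measure.addHaar_ball_center`).  Together with `hext`:
` (3 - δ)(L/3) ν S + (3 - δ)(m/4) b ≤ L ν S`, so ` (3 - δ)(m/4) b ≤ (δ L/3) ν S ≤ (δ L/3)(2R/ρ)² b`,
`m ≤ 16 δ L (R/ρ)² / (3 (3 - δ)) ≤ (8/3) δ L (R/ρ)² < 6 δ L (R/ρ)² ≤ m`: contradiction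
(`δ L (R/ρ)² > 0`).
-/

open MeasureTheory Set Module
open scoped ENNReal

namespace Vale.Agent.H15.GenK

/-- The sector `G` is open. -/
theorem goodrayabs_open {X : Type*} [NormedAddCommGroup X] [NormedSpace ℝ X] (p c' : X) (ρ : ℝ) :
    IsOpen {y : X | ∃ τ : ℝ, 0 < τ ∧ ‖y - p - τ • (c' - p)‖ < τ * (ρ / 2)} := by
  have e : {y : X | ∃ τ : ℝ, 0 < τ ∧ ‖y - p - τ • (c' - p)‖ < τ * (ρ / 2)} =
      ⋃ τ ∈ Set.Ioi (0 : ℝ), Metric.ball (p + τ • (c' - p)) (τ * (ρ / 2)) := by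
    ext y
    simp only [Set.mem_ofPred_eq, Set.mem_iUnion, Set.mem_Ioi, Metric.mem_ball, dist_eq_norm,
      exists_prop]
    constructor
    · rintro ⟨τ, hτ, h⟩
      refine ⟨τ, hτ, ?_⟩
      rw [sub_add_eq_sub_sub]
      exact h
    · rintro ⟨τ, hτ, h⟩
      refine ⟨τ, hτ, ?_⟩
      rw [sub_add_eq_sub_sub] at h
      exact h
  rw [e]
  exact isOpen_biUnion (fun τ _ => Metric.isOpen_ball)

/-- The sector `G` is a cone with apex `p`. -/
theorem goodrayabs_cone {X : Type*} [NormedAddCommGroup X] [NormedSpace ℝ X] (p c' : X) (ρ : ℝ)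
    (y : X) (hy : ∃ τ : ℝ, 0 < τ ∧ ‖y - p - τ • (c' - p)‖ < τ * (ρ / 2)) (κ : ℝ) (hκ : 0 < κ) :
    ∃ τ : ℝ, 0 < τ ∧ ‖p + κ • (y - p) - p - τ • (c' - p)‖ < τ * (ρ / 2) := by
  obtain ⟨τ, hτ, h⟩ := hy
  refine ⟨κ * τ, mul_pos hκ hτ, ?_⟩
  have e : p + κ • (y - p) - p - (κ * τ) • (c' - p) = κ • (y - p - τ • (c' - p)) := by
    rw [smul_sub κ (y - p), smul_smul]
    abel
  rw [e, norm_smul, Real.norm_eq_abs, abs_of_pos hκ]
  have h2 := mul_lt_mul_of_pos_left h hκ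
  linarith

/-- The end point of the ray from `p` through a point `y ≠ p` of the sector. -/
theorem goodrayabs_end {X : Type*} [NormedAddCommGroup X] [NormedSpace ℝ X] {S : Set X}
    (hS : IsCompact S) (p c' : X) {ρ : ℝ} (hρ : 0 < ρ) (hball : Metric.ball c' ρ ⊆ S) (y : X)
    (hyS : y ∈ S) (hyp : y ≠ p)
    (hyG : ∃ τ : ℝ, 0 < τ ∧ ‖y - p - τ • (c' - p)‖ < τ * (ρ / 2)) :
    ∃ κm : ℝ, 1 ≤ κm ∧ p + κm • (y - p) ∈ S ∧
      (∀ κ : ℝ, 1 < κ → p + κ • (p + κm • (y - p) - p) ∉ S) ∧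
      ρ / 2 ≤ ‖p + κm • (y - p) - p‖ := by
  have hne : 0 < ‖y - p‖ := norm_pos_iff.mpr (sub_ne_zero.mpr hyp)
  have hcont : Continuous (fun κ : ℝ => p + κ • (y - p)) := by fun_prop
  have hKclosed : IsClosed {κ : ℝ | p + κ • (y - p) ∈ S} := hS.isClosed.preimage hcont
  obtain ⟨B, hB⟩ := hS.isBounded.exists_norm_le
  have hKbdd : Bornology.IsBounded {κ : ℝ | p + κ • (y - p) ∈ S} := by
    apply (Metric.isBounded_closedBall (x := (0 : ℝ)) (r := (B + ‖p‖) / ‖y - p‖)).subset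
    intro κ hκ
    have h1 : ‖p + κ • (y - p)‖ ≤ B := hB _ hκ
    have h2 : ‖κ • (y - p)‖ ≤ B + ‖p‖ := by
      have e : κ • (y - p) = (p + κ • (y - p)) - p := by abel
      rw [e]
      exact (norm_sub_le _ _).trans (by linarith)
    rw [norm_smul, Real.norm_eq_abs] at h2
    rw [Metric.mem_closedBall, dist_zero_right, Real.norm_eq_abs, le_div_iff₀ hne]
    exact h2
  have hKcomp : IsCompact {κ : ℝ | p + κ • (y - p) ∈ S} :=
    Metric.isCompact_of_isClosed_isBounded hKclosed hKbdd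
  have h1K : (1 : ℝ) ∈ {κ : ℝ | p + κ • (y - p) ∈ S} := by
    show p + (1 : ℝ) • (y - p) ∈ S
    rw [one_smul, add_sub_cancel]
    exact hyS
  obtain ⟨κm, hκmK, hκmmax⟩ := hKcomp.exists_isGreatest ⟨1, h1K⟩
  have hκm1 : 1 ≤ κm := hκmmax h1K
  have hκm0 : 0 < κm := by linarith
  refine ⟨κm, hκm1, hκmK, ?_, ?_⟩
  · intro κ hκ hmem
    have e : p + κ • (p + κm • (y - p) - p) = p + (κ * κm) • (y - p) := by
      rw [add_sub_cancel_left, smul_smul]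
    rw [e] at hmem
    have h2 : κ * κm ≤ κm := hκmmax hmem
    nlinarith
  · obtain ⟨τ, hτ, hlt⟩ := hyG
    have hmem : p + (τ⁻¹ + ρ / 2 / ‖y - p‖) • (y - p) ∈ Metric.ball c' ρ := by
      rw [Metric.mem_ball, dist_eq_norm]
      have e : p + (τ⁻¹ + ρ / 2 / ‖y - p‖) • (y - p) - c' =
          τ⁻¹ • (y - p - τ • (c' - p)) + (ρ / 2 / ‖y - p‖) • (y - p) := by
        rw [add_smul, smul_sub τ⁻¹ (y - p), smul_smul, inv_mul_cancel₀ hτ.ne', one_smul]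
        abel
      rw [e]
      have n1 : ‖τ⁻¹ • (y - p - τ • (c' - p))‖ < ρ / 2 := by
        rw [norm_smul, Real.norm_eq_abs, abs_of_pos (inv_pos.mpr hτ)]
        have h3 := mul_lt_mul_of_pos_left hlt (inv_pos.mpr hτ)
        rw [← mul_assoc, inv_mul_cancel₀ hτ.ne', one_mul] at h3
        exact h3
      have n2 : ‖(ρ / 2 / ‖y - p‖) • (y - p)‖ = ρ / 2 := by
        rw [norm_smul, Real.norm_eq_abs, abs_of_pos (by positivity)]
        field_simp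
      calc ‖τ⁻¹ • (y - p - τ • (c' - p)) + (ρ / 2 / ‖y - p‖) • (y - p)‖
          ≤ ‖τ⁻¹ • (y - p - τ • (c' - p))‖ + ‖(ρ / 2 / ‖y - p‖) • (y - p)‖ := norm_add_le _ _
        _ < ρ / 2 + ρ / 2 := by rw [n2]; linarith
        _ = ρ := by ring
    have h3 : τ⁻¹ + ρ / 2 / ‖y - p‖ ≤ κm := hκmmax (hball hmem)
    rw [add_sub_cancel_left, norm_smul, Real.norm_eq_abs, abs_of_pos hκm0]
    have h4 : (τ⁻¹ + ρ / 2 / ‖y - p‖) * ‖y - p‖ ≤ κm * ‖y - p‖ :=
      mul_le_mul_of_nonneg_right h3 hne.le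
    have h5 : (τ⁻¹ + ρ / 2 / ‖y - p‖) * ‖y - p‖ = τ⁻¹ * ‖y - p‖ + ρ / 2 := by
      field_simp
    have h6 : 0 ≤ τ⁻¹ * ‖y - p‖ := by positivity
    linarith

/-- The final contradiction in real numbers. -/
theorem goodrayabs_real (L m δ q s g V b : ℝ) (hL : 0 < L) (hδ : 0 < δ) (hδ1 : δ ≤ 1)
    (hq : 0 < q) (hm : 6 * δ * L * q ≤ m) (hb : 0 < b) (hg : b ≤ g) (hs : s ≤ 4 * q * b)
    (h1 : L / 3 * s + m / 4 * g ≤ V) (h2 : (3 - δ) * V ≤ L * s) : False := by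
  have hW : 0 < δ * L * q := by positivity
  have hg0 : 0 < g := lt_of_lt_of_le hb hg
  have hm0 : 0 < m := by linarith
  have h3 : (3 - δ) * (L / 3 * s + m / 4 * g) ≤ (3 - δ) * V :=
    mul_le_mul_of_nonneg_left h1 (by linarith)
  have h4 : s ≤ 4 * q * g := by
    have h5 : 4 * q * b ≤ 4 * q * g := mul_le_mul_of_nonneg_left hg (by positivity)
    linarith
  have h6 : δ * L / 3 * s ≤ δ * L / 3 * (4 * q * g) :=
    mul_le_mul_of_nonneg_left h4 (by positivity)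
  have h7 : 2 * (m / 4 * g) ≤ (3 - δ) * (m / 4 * g) :=
    mul_le_mul_of_nonneg_right (by linarith) (by positivity)
  have h8 : 6 * δ * L * q * g ≤ m * g := mul_le_mul_of_nonneg_right hm hg0.le
  have h9 : 0 < δ * L * q * g := mul_pos hW hg0
  have e1 : (3 - δ) * (L / 3 * s + m / 4 * g) = L * s - δ * L / 3 * s + (3 - δ) * (m / 4 * g) := by
    ring
  have e2 : δ * L / 3 * (4 * q * g) = 4 / 3 * (δ * L * q * g) := by ring
  have e3 : 2 * (m / 4 * g) = m * g / 2 := by ring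
  have e4 : 6 * δ * L * q * g = 6 * (δ * L * q * g) := by ring
  linarith

theorem good_ray_abs {X : Type*} [NormedAddCommGroup X] [InnerProductSpace ℝ X]
    [FiniteDimensional ℝ X] [MeasurableSpace X] [BorelSpace X] (hX : finrank ℝ X = 2)
    {T : Set (X × ℝ)} (hT : IsCompact T) (hTc : Convex ℝ T) (p c' : X)
    {ρ R L δ m z₀ : ℝ} (hρ : 0 < ρ) (hρR : ρ ≤ R) (hball : Metric.ball c' ρ ⊆ Prod.fst '' T)
    (hout : Prod.fst '' T ⊆ Metric.closedBall c' R) (h0 : (p, z₀) ∈ T) (h1 : (p, z₀ + L) ∈ T)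
    (hL : 0 < L) (hδ : 0 < δ) (hδ1 : δ ≤ 1)
    (hext : ENNReal.ofReal (3 - δ) * (volume.prod volume) T ≤
      ENNReal.ofReal L * volume (Prod.fst '' T))
    (hm : 6 * δ * L * (R / ρ) ^ 2 ≤ m) (hmL : m < L) :
    ∃ yE : X, yE ∈ Prod.fst '' T ∧ ρ / 2 ≤ ‖yE - p‖ ∧
      (∀ κ : ℝ, 1 < κ → p + κ • (yE - p) ∉ Prod.fst '' T) ∧
      (∃ τ : ℝ, 0 < τ ∧ ‖yE - p - τ • (c' - p)‖ < τ * (ρ / 2)) ∧
      ∀ θ : ℝ, 0 ≤ θ → θ ≤ 1 → ∀ z z' : ℝ, (p + θ • (yE - p), z) ∈ T →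
        (p + θ • (yE - p), z') ∈ T → z' - z < L * (1 - θ) + m := by
  classical
  by_contra hcon
  have hbad : ∀ yE : X, yE ∈ Prod.fst '' T → ρ / 2 ≤ ‖yE - p‖ →
      (∀ κ : ℝ, 1 < κ → p + κ • (yE - p) ∉ Prod.fst '' T) →
      (∃ τ : ℝ, 0 < τ ∧ ‖yE - p - τ • (c' - p)‖ < τ * (ρ / 2)) →
      ∃ θ : ℝ, 0 ≤ θ ∧ θ ≤ 1 ∧ p + θ • (yE - p) ∈ Vale.Agent.H76.Lev T (L * (1 - θ) + m) := by
    intro yE a1 a2 a3 a4
    by_contra hno
    apply hcon
    refine ⟨yE, a1, a2, a3, a4, ?_⟩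
    intro θ hθ0 hθ1 z z' hz hz'
    by_contra hlt
    apply hno
    exact ⟨θ, hθ0, hθ1, z, z', hz, hz', not_lt.mp hlt⟩
  have hRρ : 1 ≤ R / ρ := by
    rw [le_div_iff₀ hρ]
    linarith
  have hq : 0 < (R / ρ) ^ 2 := by positivity
  have hm0 : 0 < m := by
    have h2 : 0 < 6 * δ * L * (R / ρ) ^ 2 := by positivity
    linarith
  have hp : p ∈ Vale.Agent.H76.Lev T L := ⟨z₀, z₀ + L, h0, h1, by simp⟩
  have hS : IsCompact (Prod.fst '' T) := hT.image continuous_fst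
  have hGopen : IsOpen {y : X | ∃ τ : ℝ, 0 < τ ∧ ‖y - p - τ • (c' - p)‖ < τ * (ρ / 2)} :=
    goodrayabs_open p c' ρ
  have hGcone : ∀ y ∈ {y : X | ∃ τ : ℝ, 0 < τ ∧ ‖y - p - τ • (c' - p)‖ < τ * (ρ / 2)},
      ∀ κ : ℝ, 0 < κ →
        p + κ • (y - p) ∈ {y : X | ∃ τ : ℝ, 0 < τ ∧ ‖y - p - τ • (c' - p)‖ < τ * (ρ / 2)} :=
    fun y hy κ hκ => goodrayabs_cone p c' ρ y hy κ hκ
  have hballSG : Metric.ball c' (ρ / 2) ⊆ Prod.fst '' T ∩
      {y : X | ∃ τ : ℝ, 0 < τ ∧ ‖y - p - τ • (c' - p)‖ < τ * (ρ / 2)} := by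
    intro y hy
    refine ⟨hball (Metric.ball_subset_ball (by linarith) hy), 1, one_pos, ?_⟩
    rw [one_smul, one_mul, sub_sub_sub_cancel_right]
    rw [Metric.mem_ball, dist_eq_norm] at hy
    exact hy
  have hkey : ∀ y ∈ Prod.fst '' T ∩
      {y : X | ∃ τ : ℝ, 0 < τ ∧ ‖y - p - τ • (c' - p)‖ < τ * (ρ / 2)},
      (∀ h : ℝ, 0 < h → h ≤ (L + m) / 2 →
          p + (1 - h / (L + m)) • (y - p) ∈ Vale.Agent.H76.Lev T h) ∧
        (∀ h : ℝ, (L + m) / 2 ≤ h → h ≤ L →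
          p + ((L - h) / (L - m)) • (y - p) ∈ Vale.Agent.H76.Lev T h) := by
    rintro y ⟨hyS, hyG⟩
    by_cases hyp : y = p
    · constructor
      · intro h hh0 hh1
        rw [hyp, sub_self, smul_zero, add_zero]
        exact Vale.Agent.H76.Lev_anti T (by linarith) hp
      · intro h hh0 hh1
        rw [hyp, sub_self, smul_zero, add_zero]
        exact Vale.Agent.H76.Lev_anti T hh1 hp
    · obtain ⟨κm, hκm1, hyES, hend, hdist⟩ := goodrayabs_end hS p c' hρ hball y hyS hyp hyG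
      have hκm0 : 0 < κm := by linarith
      have hyEG : ∃ τ : ℝ, 0 < τ ∧ ‖p + κm • (y - p) - p - τ • (c' - p)‖ < τ * (ρ / 2) :=
        goodrayabs_cone p c' ρ y hyG κm hκm0
      obtain ⟨θ, hθ0, hθ1, hθbad⟩ := hbad (p + κm • (y - p)) hyES hdist hend hyEG
      have hbr := bad_ray hTc p (p + κm • (y - p)) hL hm0 hmL hp hyES hθ0 hθ1 hθbad κm⁻¹
        (inv_nonneg.mpr hκm0.le) (inv_le_one_of_one_le₀ hκm1)
      have e : κm⁻¹ • (p + κm • (y - p) - p) = y - p := by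
        rw [add_sub_cancel_left, inv_smul_smul₀ hκm0.ne']
      rw [e] at hbr
      exact hbr
  have hcone : ∀ h : ℝ, 0 < h → h ≤ L → ∀ y ∈ Prod.fst '' T,
      p + (1 - h / L) • (y - p) ∈ Vale.Agent.H76.Lev T h := by
    intro h hh0 hh1 y hy
    have hy0 : y ∈ Vale.Agent.H76.Lev T 0 := by
      rw [Vale.Agent.H76.Lev_of_nonpos T le_rfl]
      exact hy
    have ha : 0 ≤ h / L := by positivity
    have hb : 0 ≤ 1 - h / L := by
      rw [sub_nonneg, div_le_one hL]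
      exact hh1
    have hsub := Vale.Agent.H76.Lev_combo hTc ha hb (by ring) L 0
    have h3 : (h / L) • p + (1 - h / L) • y ∈
        Vale.Agent.H76.Lev T (h / L * L + (1 - h / L) * 0) :=
      hsub ⟨(h / L) • p, ⟨p, hp, rfl⟩, (1 - h / L) • y, ⟨y, hy0, rfl⟩, rfl⟩
    have e1 : h / L * L + (1 - h / L) * 0 = h := by
      rw [mul_zero, add_zero, div_mul_cancel₀ h hL.ne']
    have e2 : (h / L) • p + (1 - h / L) • y = p + (1 - h / L) • (y - p) := by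
      rw [smul_sub, sub_smul, sub_smul, one_smul, one_smul]
      abel
    rw [e1, e2] at h3
    exact h3
  have htl := two_level_cone hX hT hTc p hL hm0 hmL
    {y : X | ∃ τ : ℝ, 0 < τ ∧ ‖y - p - τ • (c' - p)‖ < τ * (ρ / 2)} hGopen.measurableSet hGcone
    hcone (fun h hh0 hh1 y hy => (hkey y hy).1 h hh0 hh1)
    (fun h hh0 hh1 y hy => (hkey y hy).2 h hh0 hh1)
  -- measure arithmetic
  have hXnt : Nontrivial X := Module.nontrivial_of_finrank_pos (R := ℝ) (by rw [hX]; norm_num)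
  have hνS : volume (Prod.fst '' T) ≠ ⊤ := hS.measure_lt_top.ne
  have hVT : (volume.prod volume) T ≠ ⊤ := hT.measure_lt_top.ne
  have hbpos : 0 < volume (Metric.ball c' (ρ / 2)) :=
    Metric.measure_ball_pos volume c' (by linarith)
  have hbfin : volume (Metric.ball c' (ρ / 2)) ≠ ⊤ := measure_ball_lt_top.ne
  have hSG : volume (Metric.ball c' (ρ / 2)) ≤ volume (Prod.fst '' T ∩
      {y : X | ∃ τ : ℝ, 0 < τ ∧ ‖y - p - τ • (c' - p)‖ < τ * (ρ / 2)}) := measure_mono hballSG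
  have hSGfin : volume (Prod.fst '' T ∩
      {y : X | ∃ τ : ℝ, 0 < τ ∧ ‖y - p - τ • (c' - p)‖ < τ * (ρ / 2)}) ≠ ⊤ :=
    ((measure_mono Set.inter_subset_left).trans_lt hS.measure_lt_top).ne
  have hSle : volume (Prod.fst '' T) ≤
      ENNReal.ofReal ((2 * R / ρ) ^ 2) * volume (Metric.ball c' (ρ / 2)) := by
    have hR : 0 < R := lt_of_lt_of_le hρ hρR
    have hpos : 0 < 2 * R / ρ := by positivity
    have e : R = (2 * R / ρ) * (ρ / 2) := by
      field_simp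
    have h2 : volume (Metric.closedBall c' R) =
        ENNReal.ofReal ((2 * R / ρ) ^ 2) * volume (Metric.ball c' (ρ / 2)) := by
      conv_lhs => rw [e]
      rw [Measure.addHaar_closedBall_mul_of_pos volume c' hpos (ρ / 2), hX,
        Measure.addHaar_closedBall_eq_addHaar_ball, Measure.addHaar_ball_center volume c' (ρ / 2)]
    exact (measure_mono hout).trans h2.le
  have hb0 : 0 < (volume (Metric.ball c' (ρ / 2))).toReal := ENNReal.toReal_pos hbpos.ne' hbfin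
  have hbg := ENNReal.toReal_mono hSGfin hSG
  have hs4 : (volume (Prod.fst '' T)).toReal ≤
      4 * (R / ρ) ^ 2 * (volume (Metric.ball c' (ρ / 2))).toReal := by
    have h2 := ENNReal.toReal_mono (ENNReal.mul_ne_top ENNReal.ofReal_ne_top hbfin) hSle
    rw [ENNReal.toReal_mul, ENNReal.toReal_ofReal (by positivity)] at h2
    have e : (2 * R / ρ) ^ 2 = 4 * (R / ρ) ^ 2 := by ring
    rw [e] at h2
    exact h2
  have hr1 : L / 3 * (volume (Prod.fst '' T)).toReal + m / 4 * (volume (Prod.fst '' T ∩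
      {y : X | ∃ τ : ℝ, 0 < τ ∧ ‖y - p - τ • (c' - p)‖ < τ * (ρ / 2)})).toReal ≤
      ((volume.prod volume) T).toReal := by
    have h2 := ENNReal.toReal_mono hVT htl
    rw [ENNReal.toReal_add (ENNReal.mul_ne_top ENNReal.ofReal_ne_top hνS)
      (ENNReal.mul_ne_top ENNReal.ofReal_ne_top hSGfin), ENNReal.toReal_mul, ENNReal.toReal_mul,
      ENNReal.toReal_ofReal (by positivity), ENNReal.toReal_ofReal (by positivity)] at h2
    exact h2
  have hr2 : (3 - δ) * ((volume.prod volume) T).toReal ≤ L * (volume (Prod.fst '' T)).toReal := by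
    have h2 := ENNReal.toReal_mono (ENNReal.mul_ne_top ENNReal.ofReal_ne_top hνS) hext
    rw [ENNReal.toReal_mul, ENNReal.toReal_mul, ENNReal.toReal_ofReal (by linarith),
      ENNReal.toReal_ofReal hL.le] at h2
    exact h2
  exact goodrayabs_real L m δ ((R / ρ) ^ 2) _ _ _ _ hL hδ hδ1 hq hm hb0 hbg hs4 hr1 hr2

end Vale.Agent.H15.GenK
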