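import Mathlib

/-!
# General convex bodies (P243), row G1: nearest points of a thick sector stay near its apex

`e` is a point with two cap normals `ξ₁, ξ₂` of height `η` (only the two inequalities at the
point `p` are used), `X = e + a ξ₁ + b ξ₂ + g μ` with `a, b ≥ 0`, `a + b ≤ ρ`, `|g| ≤ d`,
`2 ρ η ≤ d²`, and `p` satisfies the nearest-point inequality for `X` at `e`
(`⟪X - p, e - p⟫ ≤ 0`).  Then `‖p - e‖ ≤ 2 d`.

Proof: expand `hpn`: with `t := ‖p - e‖`,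
`t² ≤ a ⟪ξ₁, p - e⟫ + b ⟪ξ₂, p - e⟫ + g ⟪μ, p - e⟫ ≤ (a + b) η + |g| t ≤ ρ η + d t ≤ d²/2 + d t`,
and `t > 2 d` would give `t² > 2 d t ≥ d t + 2 d² ≥ d t + d²/2`.
-/

namespace Vale.Agent.H15.GenK

theorem sharp_proj_near {E : Type*} [NormedAddCommGroup E] [InnerProductSpace ℝ E]
    {e ξ₁ ξ₂ μ p : E} {a b g ρ η d : ℝ}
    (hη : 0 ≤ η) (hξ₁ : inner ℝ ξ₁ (p - e) ≤ η) (hξ₂ : inner ℝ ξ₂ (p - e) ≤ η) (hμ : ‖μ‖ = 1)
    (ha : 0 ≤ a) (hb : 0 ≤ b) (hab : a + b ≤ ρ) (hg : |g| ≤ d) (hd : 2 * ρ * η ≤ d ^ 2)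
    (hpn : inner ℝ (e + a • ξ₁ + b • ξ₂ + g • μ - p) (e - p) ≤ 0) :
    ‖p - e‖ ≤ 2 * d := by
  have hd0 : 0 ≤ d := le_trans (abs_nonneg g) hg
  have ht0 : 0 ≤ ‖p - e‖ := norm_nonneg _
  have e1 : inner ℝ (e + a • ξ₁ + b • ξ₂ + g • μ - p) (e - p)
      = ‖p - e‖ ^ 2 - a * inner ℝ ξ₁ (p - e) - b * inner ℝ ξ₂ (p - e)
        - g * inner ℝ μ (p - e) := by
    have hx : e + a • ξ₁ + b • ξ₂ + g • μ - p = -(p - e) + a • ξ₁ + b • ξ₂ + g • μ := by abel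
    have hep : e - p = -(p - e) := by abel
    rw [hx, hep, inner_neg_right, inner_add_left, inner_add_left, inner_add_left, inner_neg_left,
      real_inner_self_eq_norm_sq, inner_smul_left, inner_smul_left, inner_smul_left]
    simp only [RCLike.conj_to_real]
    ring
  rw [e1] at hpn
  have t1 : a * inner ℝ ξ₁ (p - e) ≤ a * η := mul_le_mul_of_nonneg_left hξ₁ ha
  have t2 : b * inner ℝ ξ₂ (p - e) ≤ b * η := mul_le_mul_of_nonneg_left hξ₂ hb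
  have t3 : (a + b) * η ≤ ρ * η := mul_le_mul_of_nonneg_right hab hη
  have t4 : g * inner ℝ μ (p - e) ≤ d * ‖p - e‖ := by
    have h1 : |inner ℝ μ (p - e)| ≤ ‖μ‖ * ‖p - e‖ := abs_real_inner_le_norm _ _
    rw [hμ, one_mul] at h1
    calc g * inner ℝ μ (p - e) ≤ |g * inner ℝ μ (p - e)| := le_abs_self _
      _ = |g| * |inner ℝ μ (p - e)| := abs_mul _ _
      _ ≤ d * ‖p - e‖ := mul_le_mul hg h1 (abs_nonneg _) hd0
  have key : ‖p - e‖ ^ 2 ≤ d ^ 2 / 2 + d * ‖p - e‖ := by nlinarith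
  by_contra hcon
  have hlt : 2 * d < ‖p - e‖ := not_le.mp hcon
  have h5 : 0 < (‖p - e‖ - 2 * d) * ‖p - e‖ := mul_pos (by linarith) (by linarith)
  have h6 : 0 ≤ d * (‖p - e‖ - 2 * d) := mul_nonneg hd0 (by linarith)
  nlinarith

end Vale.Agent.H15.GenK
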