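import Vale.Agent.H15.GenK.Defs
import Vale.Agent.H15.GenK.ProjNear
import Vale.Agent.H15.GenK.BoxVol

/-!
# General convex bodies (P243), row G3: few well separated sharp points

If `closedBall c ρ ⊆ K`, `2 ρ η ≤ d²`, `0 < d ≤ ρ`, then sharp points of `K` with pairwise
distances `> 4 d` number at most `27 vol K / (s ρ² d / 4)`.

LEAN ROW G3 (`separated_card`), from the stubs `sharp_proj_near` (ProjNear), `skewBox_isCompact`,
`skewBox_volume` (BoxVol).  Sketch: for `e ∈ F` choose `ξ₁, ξ₂` from `Sharp` and a unit `μ`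
orthogonal to both (dimension 3: the orthogonal complement of `span {ξ₁, ξ₂}` is nontrivial).
`Box e := (fun x => e + x) '' skewBox ξ₁ ξ₂ μ (ρ / 2) d` is compact, of volume
`≥ ofReal (s (ρ/2)² d)` (translation invariance).
(1) `Box e ⊆ AffineMap.homothety c 3 '' K`: for `X = e + v`, `‖v‖ ≤ ρ/2 + ρ/2 + d ≤ 2 ρ`, the point
`y := (1/3) • e + (2/3) • (c + (1/2) • v)` lies in `K` (convexity; `c + (1/2) • v ∈ closedBall c ρ`)
and `homothety c 3 y = c + 3 • (y - c) = X`.  `volume (homothety c 3 '' K) = 27 volume K`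
(`Measure.addHaar_image_homothety`, `finrank = 3`).
(2) The boxes of distinct `e, e' ∈ F` are disjoint: for a common point `X` let `p ∈ K` be a nearest
point of `K` to `X` (`exists_norm_eq_iInf_of_complete_convex`, `norm_eq_iInf_iff_real_inner_le_zero`:
`⟪X - p, y - p⟫ ≤ 0` for `y ∈ K`); `sharp_proj_near` (with `y := e`, and the cap inequalities of
`e` at `p ∈ K`) gives `‖p - e‖ ≤ 2 d`, likewise `‖p - e'‖ ≤ 2 d`, so `dist e e' ≤ 4 d`.
(3) `∑_{e ∈ F} volume (Box e) = volume (⋃ Box e) ≤ 27 volume K` (`measure_biUnion_finset`).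
-/

open MeasureTheory Set Module
open scoped ENNReal

namespace Vale.Agent.H15.GenK

variable {E : Type*} [NormedAddCommGroup E] [InnerProductSpace ℝ E] [FiniteDimensional ℝ E]
  [MeasurableSpace E] [BorelSpace E]

theorem separated_exists_unit_orth (hE : finrank ℝ E = 3) (ξ₁ ξ₂ : E) :
    ∃ μ : E, ‖μ‖ = 1 ∧ inner ℝ μ ξ₁ = 0 ∧ inner ℝ μ ξ₂ = 0 := by
  classical
  have h1 : finrank ℝ (Submodule.span ℝ ((({ξ₁, ξ₂} : Finset E)) : Set E)) ≤ 2 :=
    (finrank_span_finset_le_card _).trans Finset.card_le_two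
  have h2 := Submodule.finrank_add_finrank_orthogonal
    (Submodule.span ℝ ((({ξ₁, ξ₂} : Finset E)) : Set E))
  have h3 : 0 < finrank ℝ (Submodule.span ℝ ((({ξ₁, ξ₂} : Finset E)) : Set E))ᗮ := by omega
  obtain ⟨x, hx⟩ := Module.finrank_pos_iff_exists_ne_zero.mp h3
  have hx0 : (x : E) ≠ 0 := fun h => hx (Subtype.ext h)
  have hxn : 0 < ‖(x : E)‖ := norm_pos_iff.mpr hx0
  have hxo : ∀ u ∈ Submodule.span ℝ ((({ξ₁, ξ₂} : Finset E)) : Set E), inner ℝ u (x : E) = 0 :=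
    (Submodule.mem_orthogonal _ (x : E)).mp x.2
  refine ⟨‖(x : E)‖⁻¹ • (x : E), ?_, ?_, ?_⟩
  · rw [norm_smul, norm_inv, norm_norm, inv_mul_cancel₀ hxn.ne']
  · rw [real_inner_smul_left, real_inner_comm, hxo ξ₁ (Submodule.subset_span (by simp)), mul_zero]
  · rw [real_inner_smul_left, real_inner_comm, hxo ξ₂ (Submodule.subset_span (by simp)), mul_zero]

theorem separated_exists_box (hE : finrank ℝ E = 3) {K : Set E} (hKc : Convex ℝ K)
    (c : E) {ρ η s d : ℝ} (hρ : 0 < ρ) (hin : Metric.closedBall c ρ ⊆ K) (hη : 0 ≤ η)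
    (hs : 0 < s) (hd0 : 0 < d) (hdρ : d ≤ ρ) (hd : 2 * ρ * η ≤ d ^ 2) {e : E}
    (he : Sharp K η s e) :
    ∃ B : Set E, IsCompact B ∧ ENNReal.ofReal (s * ρ ^ 2 * d / 4) ≤ volume B ∧
      B ⊆ AffineMap.homothety c (3 : ℝ) '' K ∧
      ∀ X ∈ B, ∀ p ∈ K, (∀ w ∈ K, inner ℝ (X - p) (w - p) ≤ 0) → ‖p - e‖ ≤ 2 * d := by
  obtain ⟨heK, ξ₁, ξ₂, h1, h2, hsh, hc1, hc2⟩ := he
  obtain ⟨μ, hμ, hμ1, hμ2⟩ := separated_exists_unit_orth hE ξ₁ ξ₂
  refine ⟨(fun x => e + x) '' skewBox ξ₁ ξ₂ μ (ρ / 2) d, ?_, ?_, ?_, ?_⟩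
  · exact (skewBox_isCompact ξ₁ ξ₂ μ (ρ / 2) d).image (continuous_const.add continuous_id)
  · have hv := skewBox_volume hE h1 h2 hμ hμ1 hμ2 hs.le (by linarith : (0 : ℝ) ≤ ρ / 2) hd0.le hsh
    have hvol : volume ((fun x => e + x) '' skewBox ξ₁ ξ₂ μ (ρ / 2) d)
        = volume (skewBox ξ₁ ξ₂ μ (ρ / 2) d) := by
      rw [Set.image_add_left]
      exact measure_preimage_add volume (-e) _
    rw [hvol]
    have e1 : s * ρ ^ 2 * d / 4 = s * (ρ / 2) ^ 2 * d := by ring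
    rw [e1]; exact hv
  · rintro X ⟨v, hvb, rfl⟩
    obtain ⟨a, b, g, ha0, ha, hb0, hb, hg0, hg, rfl⟩ := hvb
    beta_reduce
    have hvn : ‖a • ξ₁ + b • ξ₂ + g • μ‖ ≤ 2 * ρ := by
      calc ‖a • ξ₁ + b • ξ₂ + g • μ‖ ≤ ‖a • ξ₁‖ + ‖b • ξ₂‖ + ‖g • μ‖ := norm_add₃_le
        _ = a + b + g := by
            rw [norm_smul, norm_smul, norm_smul, h1, h2, hμ, Real.norm_of_nonneg ha0,
              Real.norm_of_nonneg hb0, Real.norm_of_nonneg hg0]; ring
        _ ≤ 2 * ρ := by linarith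
    have hmem : c + (1 / 2 : ℝ) • (a • ξ₁ + b • ξ₂ + g • μ) ∈ K := by
      apply hin
      rw [Metric.mem_closedBall, dist_eq_norm, add_sub_cancel_left, norm_smul,
        Real.norm_of_nonneg (by norm_num : (0 : ℝ) ≤ 1 / 2)]
      linarith
    refine ⟨(1 / 3 : ℝ) • e + (2 / 3 : ℝ) • (c + (1 / 2 : ℝ) • (a • ξ₁ + b • ξ₂ + g • μ)),
      hKc heK hmem (by norm_num) (by norm_num) (by norm_num), ?_⟩
    rw [AffineMap.homothety_apply]
    simp only [vsub_eq_sub, vadd_eq_add]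
    module
  · rintro X ⟨v, hvb, rfl⟩ p hp hnear
    obtain ⟨a, b, g, ha0, ha, hb0, hb, hg0, hg, rfl⟩ := hvb
    have hpn := hnear e heK
    beta_reduce at hpn
    apply sharp_proj_near hη (hc1 p hp) (hc2 p hp) hμ ha0 hb0 (by linarith : a + b ≤ ρ)
      (by rw [abs_of_nonneg hg0]; exact hg) hd
    have e2 : e + a • ξ₁ + b • ξ₂ + g • μ - p = e + (a • ξ₁ + b • ξ₂ + g • μ) - p := by abel
    rw [e2]; exact hpn

theorem separated_card (hE : finrank ℝ E = 3) {K : Set E} (hK : IsCompact K) (hKc : Convex ℝ K)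
    (c : E) {ρ η s d : ℝ} (hρ : 0 < ρ) (hin : Metric.closedBall c ρ ⊆ K) (hη : 0 ≤ η)
    (hs : 0 < s) (hd0 : 0 < d) (hdρ : d ≤ ρ) (hd : 2 * ρ * η ≤ d ^ 2) (F : Finset E)
    (hF : ∀ e ∈ F, Sharp K η s e) (hsep : ∀ e ∈ F, ∀ e' ∈ F, e ≠ e' → 4 * d < dist e e') :
    (F.card : ℝ≥0∞) * ENNReal.ofReal (s * ρ ^ 2 * d / 4) ≤ 27 * volume K := by
  classical
  have hex : ∀ e ∈ F, ∃ B : Set E, IsCompact B ∧ ENNReal.ofReal (s * ρ ^ 2 * d / 4) ≤ volume B ∧
      B ⊆ AffineMap.homothety c (3 : ℝ) '' K ∧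
      ∀ X ∈ B, ∀ p ∈ K, (∀ w ∈ K, inner ℝ (X - p) (w - p) ≤ 0) → ‖p - e‖ ≤ 2 * d :=
    fun e he => separated_exists_box hE hKc c hρ hin hη hs hd0 hdρ hd (hF e he)
  choose! B hBc hBv hBsub hBnear using hex
  have hdisj : Set.PairwiseDisjoint (F : Set E) B := by
    intro e he e' he' hne
    have he := Finset.mem_coe.mp he
    have he' := Finset.mem_coe.mp he'
    rw [Function.onFun, Set.disjoint_left]
    intro X hX hX'
    have hKne : K.Nonempty := ⟨e, (hF e he).mem⟩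
    obtain ⟨p, hpK, hpmin⟩ := exists_norm_eq_iInf_of_complete_convex hKne hK.isComplete hKc X
    have hnear := (norm_eq_iInf_iff_real_inner_le_zero hKc hpK).mp hpmin
    have h1 := hBnear e he X hX p hpK hnear
    have h2 := hBnear e' he' X hX' p hpK hnear
    have h3 := hsep e he e' he' hne
    have h4 : dist e e' ≤ ‖p - e‖ + ‖p - e'‖ := by
      calc dist e e' ≤ dist e p + dist p e' := dist_triangle e p e'
        _ = ‖p - e‖ + ‖p - e'‖ := by rw [dist_comm e p, dist_eq_norm, dist_eq_norm]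
    linarith
  have hmeas : ∀ e ∈ F, MeasurableSet (B e) := fun e he => (hBc e he).measurableSet
  have hU : volume (⋃ e ∈ F, B e) = ∑ e ∈ F, volume (B e) :=
    measure_biUnion_finset hdisj hmeas
  have hsub : (⋃ e ∈ F, B e) ⊆ AffineMap.homothety c (3 : ℝ) '' K := Set.iUnion₂_subset hBsub
  have hvolK : volume (AffineMap.homothety c (3 : ℝ) '' K) = 27 * volume K := by
    rw [Measure.addHaar_image_homothety, hE]
    norm_num
  calc (F.card : ℝ≥0∞) * ENNReal.ofReal (s * ρ ^ 2 * d / 4)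
      = ∑ _e ∈ F, ENNReal.ofReal (s * ρ ^ 2 * d / 4) := by rw [Finset.sum_const, nsmul_eq_mul]
    _ ≤ ∑ e ∈ F, volume (B e) := Finset.sum_le_sum hBv
    _ = volume (⋃ e ∈ F, B e) := hU.symm
    _ ≤ volume (AffineMap.homothety c (3 : ℝ) '' K) := measure_mono hsub
    _ = 27 * volume K := hvolK

end Vale.Agent.H15.GenK
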